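import Vale.Agent.P074.Basic

open MeasureTheory Set
open scoped ENNReal NNReal InnerProductSpace

namespace Vale.Agent.P074

lemma gp_finite (a b c m : ℝ) (hm : m ≠ 0) :
    {ε : ℝ | (a + ε * m) * (b + ε * m) - c = 0}.Finite := by
  have h1 : (Polynomial.C (m ^ 2) * Polynomial.X ^ 2 + Polynomial.C (m * (a + b)) * Polynomial.X
      + Polynomial.C (a * b - c) : Polynomial ℝ) ≠ 0 := by
    intro h
    have h2 := congrArg (fun p : Polynomial ℝ => p.coeff 2) h
    simp only [Polynomial.coeff_add, Polynomial.coeff_C_mul, Polynomial.coeff_X_pow,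
      Polynomial.coeff_X, Polynomial.coeff_C, Polynomial.coeff_zero] at h2
    norm_num at h2
    exact hm h2
  refine (Polynomial.finite_setOfPred_isRoot h1).subset ?_
  intro ε hε
  have hε' : (a + ε * m) * (b + ε * m) - c = 0 := hε
  change Polynomial.IsRoot _ ε
  simp only [Polynomial.IsRoot.def, Polynomial.eval_add, Polynomial.eval_mul,
    Polynomial.eval_C, Polynomial.eval_pow, Polynomial.eval_X]
  linarith

/-- General position: after an arbitrarily small perturbation the segments never collide. -/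
theorem general_position {d : ℕ} (hd : 2 ≤ d) {ι : Type} [Fintype ι] (y z : ι → E d) (δ : ℝ)
    (hδ : 0 < δ) :
    ∃ y' z' : ι → E d, (∀ i, ‖y' i - y i‖ ≤ δ) ∧ (∀ i, ‖z' i - z i‖ ≤ δ) ∧
      ∀ t ∈ Icc (0 : ℝ) 1, Function.Injective (fun i => (1 - t) • y' i + t • z' i) := by
  classical
  set i0 : Fin d := ⟨0, by omega⟩ with hi0
  set i1 : Fin d := ⟨1, by omega⟩ with hi1
  have h01 : i0 ≠ i1 := by
    intro h
    have := congrArg Fin.val h
    simp [hi0, hi1] at this
  set N : ℕ := Fintype.card ι with hN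
  set nn : ι → ℝ := fun i => ((Fintype.equivFin ι i : ℕ) : ℝ) with hnn
  have hnninj : ∀ i j, i ≠ j → nn i - nn j ≠ 0 := by
    intro i j hij h
    apply hij
    have h1 : nn i = nn j := sub_eq_zero.1 h
    simp only [hnn, Nat.cast_inj] at h1
    exact (Fintype.equivFin ι).injective (Fin.ext h1)
  have hnn0 : ∀ i, 0 ≤ nn i := fun i => Nat.cast_nonneg _
  have hnnN : ∀ i, nn i ≤ N := by
    intro i
    simp only [hnn, Nat.cast_le]
    exact (Fintype.equivFin ι i).2.le
  -- the bad parameters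
  set bad : Set ℝ := ⋃ q : ι × ι, if q.1 = q.2 then ∅ else
    {ε : ℝ | ((y q.1 - y q.2) i0 + ε * (nn q.1 - nn q.2)) *
      ((z q.1 - z q.2) i1 + ε * (nn q.1 - nn q.2)) - (y q.1 - y q.2) i1 * (z q.1 - z q.2) i0 = 0}
    with hbad
  have hbadfin : bad.Finite := by
    refine Set.finite_iUnion fun q => ?_
    by_cases hq : q.1 = q.2
    · rw [if_pos hq]; exact Set.finite_empty
    · rw [if_neg hq]
      exact gp_finite _ _ _ _ (hnninj _ _ hq)
  have hpos : 0 < δ / (N + 1) := by positivity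
  obtain ⟨ε, ⟨hε0, hε1⟩, hεbad⟩ := (Set.Ioo_infinite hpos).exists_notMem_finite hbadfin
  have hεN : ∀ i, ε * nn i ≤ δ := by
    intro i
    have h1 : ε * nn i ≤ (δ / (N + 1)) * (N + 1) := by
      apply mul_le_mul hε1.le _ (hnn0 i) hpos.le
      linarith [hnnN i]
    rwa [div_mul_cancel₀ _ (by positivity)] at h1
  refine ⟨fun i => y i + (ε * nn i) • EuclideanSpace.single i0 (1 : ℝ),
    fun i => z i + (ε * nn i) • EuclideanSpace.single i1 (1 : ℝ), ?_, ?_, ?_⟩
  · intro i
    rw [add_sub_cancel_left, norm_smul, PiLp.norm_single, norm_one, mul_one,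
      Real.norm_eq_abs, abs_of_nonneg (mul_nonneg hε0.le (hnn0 i))]
    exact hεN i
  · intro i
    rw [add_sub_cancel_left, norm_smul, PiLp.norm_single, norm_one, mul_one,
      Real.norm_eq_abs, abs_of_nonneg (mul_nonneg hε0.le (hnn0 i))]
    exact hεN i
  · intro t ht i j hij
    by_contra hne
    apply hεbad
    rw [hbad, Set.mem_iUnion]
    refine ⟨(i, j), ?_⟩
    rw [if_neg hne]
    simp only at hij
    have e0 := congrArg (fun v : E d => v i0) hij
    have e1 := congrArg (fun v : E d => v i1) hij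
    simp only [PiLp.add_apply, PiLp.smul_apply, smul_eq_mul, PiLp.single_apply,
      if_true, mul_one, mul_zero, add_zero, if_neg h01, if_neg h01.symm] at e0 e1
    simp only [Set.mem_ofPred_eq, PiLp.sub_apply]
    set a0 := y i i0 - y j i0 + ε * (nn i - nn j) with ha0
    set a1 := y i i1 - y j i1 with ha1
    set b0 := z i i0 - z j i0 with hb0
    set b1 := z i i1 - z j i1 + ε * (nn i - nn j) with hb1
    have f0 : (1 - t) * a0 + t * b0 = 0 := by rw [ha0, hb0]; linarith
    have f1 : (1 - t) * a1 + t * b1 = 0 := by rw [ha1, hb1]; linarith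
    have g1 : (1 - t) * (a0 * b1 - a1 * b0) = 0 := by
      have : (1 - t) * (a0 * b1 - a1 * b0) = ((1 - t) * a0 + t * b0) * b1
        - ((1 - t) * a1 + t * b1) * b0 := by ring
      rw [this, f0, f1]; ring
    have g2 : t * (a0 * b1 - a1 * b0) = 0 := by
      have : t * (a0 * b1 - a1 * b0) = ((1 - t) * a1 + t * b1) * a0
        - ((1 - t) * a0 + t * b0) * a1 := by ring
      rw [this, f0, f1]; ring
    linarith

/-- A finite partition of a coupling into small pieces of positive mass. -/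
theorem exists_pieces {d : ℕ} (π : Measure (E d × E d)) [IsFiniteMeasure π] (hπ : π ≠ 0)
    (Y : Set (E d)) (hY : IsCompact Y) (hsupp : π (Y ×ˢ Y)ᶜ = 0) (δ : ℝ) (hδ : 0 < δ) :
    ∃ (n : ℕ) (Q : Fin (n + 1) → Set (E d × E d)) (c : Fin (n + 1) → E d × E d),
      (∀ i, MeasurableSet (Q i)) ∧ Pairwise (fun i j => Disjoint (Q i) (Q j)) ∧
      (∀ i, 0 < π (Q i)) ∧ π (⋃ i, Q i)ᶜ = 0 ∧
      (∀ i, ∀ p ∈ Q i, ‖p.1 - (c i).1‖ ≤ δ ∧ ‖p.2 - (c i).2‖ ≤ δ) ∧
      (∀ i, (c i).1 ∈ Y ∧ (c i).2 ∈ Y) := by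
  classical
  obtain ⟨s, hsY, hsfin, hcov⟩ := (hY.prod hY).finite_cover_balls hδ
  set m := hsfin.toFinset.card with hm
  set f : Fin m → E d × E d := fun k => (hsfin.toFinset.equivFin.symm k : E d × E d) with hf
  have hfs : ∀ k, f k ∈ s := fun k =>
    hsfin.mem_toFinset.1 (hsfin.toFinset.equivFin.symm k).2
  have hfsurj : ∀ x ∈ s, ∃ k, f k = x := by
    intro x hx
    refine ⟨hsfin.toFinset.equivFin ⟨x, hsfin.mem_toFinset.2 hx⟩, ?_⟩
    simp [hf]
  set Q' : Fin m → Set (E d × E d) := fun k =>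
    Metric.ball (f k) δ \ ⋃ l ∈ Set.Iio k, Metric.ball (f l) δ with hQ'
  have hQ'meas : ∀ k, MeasurableSet (Q' k) := by
    intro k
    refine measurableSet_ball.diff ?_
    exact MeasurableSet.biUnion (Set.to_countable _) fun _ _ => measurableSet_ball
  have hQ'lt : ∀ k l, k < l → Disjoint (Q' k) (Q' l) := by
    intro k l hkl
    rw [Set.disjoint_left]
    intro x hx hx'
    exact hx'.2 (Set.mem_biUnion (show k ∈ Set.Iio l from hkl) hx.1)
  have hQ'disj : ∀ k l, k ≠ l → Disjoint (Q' k) (Q' l) := by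
    intro k l hkl
    rcases lt_or_gt_of_ne hkl with h | h
    · exact hQ'lt k l h
    · exact (hQ'lt l k h).symm
  have hcover : Y ×ˢ Y ⊆ ⋃ k, Q' k := by
    intro x hx
    have h1 := hcov hx
    rw [Set.mem_iUnion₂] at h1
    obtain ⟨c, hc, hxc⟩ := h1
    obtain ⟨k0, rfl⟩ := hfsurj c hc
    have hne : (Finset.univ.filter fun k => x ∈ Metric.ball (f k) δ).Nonempty :=
      ⟨k0, by simpa using hxc⟩
    set k := (Finset.univ.filter fun k => x ∈ Metric.ball (f k) δ).min' hne with hk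
    have hkm := Finset.min'_mem _ hne
    rw [← hk, Finset.mem_filter] at hkm
    refine Set.mem_iUnion.2 ⟨k, hkm.2, ?_⟩
    intro hx'
    rw [Set.mem_iUnion₂] at hx'
    obtain ⟨l, hl, hxl⟩ := hx'
    have h2 := Finset.min'_le (Finset.univ.filter fun k => x ∈ Metric.ball (f k) δ) l
      (by simpa using hxl)
    exact absurd (lt_of_lt_of_le hl (hk ▸ h2)) (lt_irrefl _)
  set S := {k : Fin m // 0 < π (Q' k)} with hS
  have hbig : (⋃ i : S, Q' i.1)ᶜ ⊆ (Y ×ˢ Y)ᶜ ∪ ⋃ k : {k : Fin m // ¬ 0 < π (Q' k)}, Q' k.1 := by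
    intro x hx
    by_cases hxY : x ∈ Y ×ˢ Y
    · right
      obtain ⟨k, hk⟩ := Set.mem_iUnion.1 (hcover hxY)
      by_cases h0 : 0 < π (Q' k)
      · exact absurd (Set.mem_iUnion.2 ⟨(⟨k, h0⟩ : S), hk⟩) hx
      · exact Set.mem_iUnion.2 ⟨⟨k, h0⟩, hk⟩
    · left; exact hxY
  have hnull : π (⋃ i : S, Q' i.1)ᶜ = 0 := by
    refine measure_mono_null hbig (measure_union_null hsupp (measure_iUnion_null ?_))
    rintro ⟨k, hk⟩
    simpa using hk
  have hSne : Nonempty S := by
    by_contra hemp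
    rw [not_nonempty_iff] at hemp
    apply hπ
    rw [← Measure.measure_univ_eq_zero]
    have : (⋃ i : S, Q' i.1)ᶜ = Set.univ := by
      rw [Set.iUnion_of_empty, Set.compl_empty]
    rwa [this] at hnull
  obtain ⟨n, hn⟩ : ∃ n, Fintype.card S = n + 1 :=
    Nat.exists_eq_succ_of_ne_zero (Fintype.card_ne_zero)
  let e : Fin (n + 1) ≃ S := (finCongr hn.symm).trans (Fintype.equivFin S).symm
  refine ⟨n, fun i => Q' (e i).1, fun i => f (e i).1, fun i => hQ'meas _, ?_, fun i => (e i).2,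
    ?_, ?_, ?_⟩
  · intro i j hij
    refine hQ'disj _ _ fun h => hij ?_
    exact e.injective (Subtype.ext h)
  · have : (⋃ i, Q' (e i).1) = ⋃ i : S, Q' i.1 := e.surjective.iUnion_comp (fun i : S => Q' i.1)
    rw [this]
    exact hnull
  · intro i p hp
    have h1 : dist p (f (e i).1) < δ := hp.1
    rw [Prod.dist_eq, max_lt_iff, dist_eq_norm, dist_eq_norm] at h1
    exact ⟨h1.1.le, h1.2.le⟩
  · intro i
    exact hsY (hfs _)

end Vale.Agent.P074
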