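import Vale.Agent.P074.Basic

open MeasureTheory Set
open scoped ENNReal NNReal InnerProductSpace

namespace Vale.Agent.P074

variable {d : ℕ} {ι : Type} {K : Set (E d)} {y : ι → E d} {ψ : ι → ℝ}

theorem cell_subset (i : ι) : cell K y ψ i ⊆ K := fun _ hx => hx.1

theorem isClosed_cell (hK : IsClosed K) (i : ι) : IsClosed (cell K y ψ i) := by
  have h : cell K y ψ i = K ∩ ⋂ j, {x | ⟪x, y j⟫_ℝ - ψ j ≤ ⟪x, y i⟫_ℝ - ψ i} := by
    ext x
    simp [cell]
  rw [h]
  refine hK.inter (isClosed_iInter fun j => ?_)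
  refine isClosed_le ?_ ?_
  · fun_prop
  · fun_prop

theorem measurableSet_cell (hK : IsClosed K) (i : ι) : MeasurableSet (cell K y ψ i) :=
  (isClosed_cell hK i).measurableSet

theorem convex_cell (hK : Convex ℝ K) (i : ι) : Convex ℝ (cell K y ψ i) := by
  intro x hx z hz a b ha hb hab
  refine ⟨hK hx.1 hz.1 ha hb hab, fun j => ?_⟩
  have h1 := mul_le_mul_of_nonneg_left (hx.2 j) ha
  have h2 := mul_le_mul_of_nonneg_left (hz.2 j) hb
  simp only [inner_add_left, real_inner_smul_left]
  have hb' : b = 1 - a := by linarith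
  subst hb'
  linarith

/-- midpoint property of cells. -/
theorem cell_mid (hK : Convex ℝ K) (ψ0 ψ1 : ι → ℝ) (i : ι) {x z : E d}
    (hx : x ∈ cell K y ψ0 i) (hz : z ∈ cell K y ψ1 i) :
    (1 / 2 : ℝ) • (x + z) ∈ cell K y (fun j => (ψ0 j + ψ1 j) / 2) i := by
  refine ⟨?_, fun j => ?_⟩
  · rw [smul_add]
    exact hK hx.1 hz.1 (by norm_num) (by norm_num) (by norm_num)
  · have h1 := hx.2 j
    have h2 := hz.2 j
    simp only [inner_add_left, real_inner_smul_left]
    linarith

theorem exists_cell [Fintype ι] [Nonempty ι] {x : E d} (hx : x ∈ K) :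
    ∃ i, x ∈ cell K y ψ i := by
  obtain ⟨i, hi⟩ := Finite.exists_max (fun j => ⟪x, y j⟫_ℝ - ψ j)
  exact ⟨i, hx, hi⟩

theorem iUnion_cell [Fintype ι] [Nonempty ι] : ⋃ i, cell K y ψ i = K := by
  apply subset_antisymm
  · exact iUnion_subset fun i => cell_subset i
  · intro x hx
    obtain ⟨i, hi⟩ := exists_cell (y := y) (ψ := ψ) hx
    exact mem_iUnion.2 ⟨i, hi⟩

/-- hyperplanes are null sets. -/
theorem volume_hyperplane {a : E d} (ha : a ≠ 0) (c : ℝ) :
    volume {x : E d | ⟪x, a⟫_ℝ = c} = 0 := by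
  by_cases hne : ∃ x0 : E d, ⟪x0, a⟫_ℝ = c
  · obtain ⟨x0, hx0⟩ := hne
    let S : AffineSubspace ℝ (E d) := AffineSubspace.mk' x0 (LinearMap.ker (innerₛₗ ℝ a))
    have hS : (S : Set (E d)) = {x : E d | ⟪x, a⟫_ℝ = c} := by
      ext x
      simp only [SetLike.mem_coe, mem_ofPred_eq, S]
      rw [AffineSubspace.mem_mk']
      simp only [vsub_eq_sub, LinearMap.mem_ker, innerₛₗ_apply_apply]
      rw [inner_sub_right, real_inner_comm x a, real_inner_comm x0 a, hx0]
      constructor
      · intro h; linarith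
      · intro h; linarith
    rw [← hS]
    apply Measure.addHaar_affineSubspace
    intro htop
    have h1 : (x0 + a) ∈ (S : Set (E d)) := by rw [htop]; trivial
    rw [hS] at h1
    simp only [mem_ofPred_eq, inner_add_left, hx0] at h1
    have : ⟪a, a⟫_ℝ = 0 := by linarith
    exact ha (inner_self_eq_zero.1 this)
  · have : {x : E d | ⟪x, a⟫_ℝ = c} = ∅ := by
      ext x
      simp only [mem_ofPred_eq, mem_empty_iff_false, iff_false]
      intro h
      exact hne ⟨x, h⟩
    rw [this]
    simp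

/-- distinct sites: cells overlap in null sets. -/
theorem cell_inter_null (hy : Function.Injective y) {i j : ι} (hij : i ≠ j) :
    volume (cell K y ψ i ∩ cell K y ψ j) = 0 := by
  have hne : y i - y j ≠ 0 := sub_ne_zero.2 (fun h => hij (hy h))
  refine measure_mono_null ?_ (volume_hyperplane hne (ψ i - ψ j))
  rintro x ⟨hx, hx'⟩
  have h1 := hx.2 j
  have h2 := hx'.2 i
  simp only [mem_ofPred_eq, inner_sub_right]
  linarith

/-- splitting an integral over `K` into the cells. -/
theorem integral_cells [Fintype ι] [Nonempty ι] (hK : IsCompact K) (hy : Function.Injective y)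
    (f : E d → ℝ) (hf : IntegrableOn f K) :
    ∫ x in K, f x = ∑ i, ∫ x in cell K y ψ i, f x := by
  have h1 : ∫ x in ⋃ i, cell K y ψ i, f x = ∑' i, ∫ x in cell K y ψ i, f x := by
    apply integral_iUnion_ae
    · intro i
      exact (measurableSet_cell hK.isClosed i).nullMeasurableSet
    · intro i j hij
      exact cell_inter_null hy hij
    · rw [iUnion_cell]
      exact hf
  rw [iUnion_cell, tsum_fintype] at h1
  exact h1

theorem volume_cell_lt_top (hK : IsCompact K) (i : ι) : volume (cell K y ψ i) < ∞ :=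
  lt_of_le_of_lt (measure_mono (cell_subset i)) hK.measure_lt_top

theorem sum_vol [Fintype ι] [Nonempty ι] (hK : IsCompact K) (hy : Function.Injective y) :
    ∑ i, vol K y ψ i = volume.real K := by
  have h := integral_cells (y := y) (ψ := ψ) hK hy (fun _ => (1 : ℝ))
    (integrableOn_const hK.measure_lt_top.ne)
  simp only [integral_const, smul_eq_mul, mul_one, measureReal_restrict_apply, MeasurableSet.univ,
    univ_inter] at h
  exact h.symm

/-- on the cell `i` the potential is the `i`-th affine function. -/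
theorem pot_eq [Fintype ι] [Nonempty ι] {i : ι} {x : E d} (hx : x ∈ cell K y ψ i) :
    pot y ψ x = ⟪x, y i⟫_ℝ - ψ i := by
  apply le_antisymm
  · exact Finset.sup'_le _ _ (fun j _ => hx.2 j)
  · exact Finset.le_sup' (fun j => ⟪x, y j⟫_ℝ - ψ j) (Finset.mem_univ i)

theorem le_pot [Fintype ι] [Nonempty ι] (i : ι) (x : E d) : ⟪x, y i⟫_ℝ - ψ i ≤ pot y ψ x :=
  Finset.le_sup' (fun j => ⟪x, y j⟫_ℝ - ψ j) (Finset.mem_univ i)

theorem continuous_pot [Fintype ι] [Nonempty ι] : Continuous (pot y ψ) := by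
  unfold pot
  apply Continuous.finset_sup'_apply
  intro j _
  fun_prop

theorem continuous_gau (κ : ℝ) : Continuous (gau κ : E d → ℝ) := by
  unfold gau
  fun_prop

theorem gau_pos (κ : ℝ) (x : E d) : 0 < gau κ x := Real.exp_pos _

end Vale.Agent.P074
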