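import Vale.Agent.P074.PL
import Vale.Agent.P074.CellFacts

open MeasureTheory Set
open scoped ENNReal NNReal InnerProductSpace

namespace Vale.Agent.P074

lemma integrableOn_of_bounded {d : ℕ} {P : Set (E d)} (hB : Bornology.IsBounded P)
    {F : E d → ℝ} (hF : Continuous F) : IntegrableOn F P := by
  have hc : IsCompact (closure P) := hB.isCompact_closure
  exact (hF.continuousOn.integrableOn_compact hc).mono_set subset_closure

/-- Jensen for one cell. -/
lemma cell_jensen {d : ℕ} (κ : ℝ) {P : Set (E d)} (hP : MeasurableSet P)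
    (hB : Bornology.IsBounded P) {χ : E d → ℝ} (hχ : Continuous χ) {W A : ℝ}
    (hW : W = ∫ x in P, gau κ x) (hA : ∫ x in P, χ x * gau κ x = A * W) (τ : ℝ) :
    W * Real.exp (τ * A) ≤ ∫ x in P, gau κ x * Real.exp (τ * χ x) := by
  have hG : Continuous (gau κ : E d → ℝ) := continuous_gau κ
  have i1 : IntegrableOn (fun x : E d => gau κ x * Real.exp (τ * χ x)) P :=
    integrableOn_of_bounded hB (by fun_prop)
  have i2 : IntegrableOn (fun x : E d => gau κ x) P := integrableOn_of_bounded hB hG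
  have i3 : IntegrableOn (fun x : E d => χ x * gau κ x) P :=
    integrableOn_of_bounded hB (by fun_prop)
  have h1 : ∫ x in P, (Real.exp (τ * A) * ((1 - τ * A) * gau κ x + τ * (χ x * gau κ x)))
      ≤ ∫ x in P, gau κ x * Real.exp (τ * χ x) := by
    refine setIntegral_mono_on ?_ i1 hP ?_
    · exact ((i2.const_mul _).add (i3.const_mul _)).const_mul _
    · intro x _
      have h2 : 1 + (τ * χ x - τ * A) ≤ Real.exp (τ * χ x - τ * A) := by
        have := Real.add_one_le_exp (τ * χ x - τ * A)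
        linarith
      have h3 : Real.exp (τ * χ x) = Real.exp (τ * A) * Real.exp (τ * χ x - τ * A) := by
        rw [← Real.exp_add]
        congr 1
        ring
      have h4 := (gau_pos κ x).le
      have h5 := (Real.exp_pos (τ * A)).le
      have h6 : 0 ≤ gau κ x * Real.exp (τ * A) := mul_nonneg h4 h5
      have h7 := mul_le_mul_of_nonneg_left h2 h6
      rw [h3]
      nlinarith
  refine le_trans (le_of_eq ?_) h1
  rw [integral_const_mul, integral_add (i2.const_mul _) (i3.const_mul _), integral_const_mul,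
    integral_const_mul, hA, ← hW]
  ring

lemma gau_mul {d : ℕ} (κ : ℝ) (x z : E d) :
    gau κ x * gau κ z
      = gau κ ((1 / 2 : ℝ) • (x + z)) ^ 2 * Real.exp (-(κ / 4 * ‖x - z‖ ^ 2)) := by
  unfold gau
  rw [← Real.exp_add, ← Real.exp_nat_mul, ← Real.exp_add]
  congr 1
  rw [norm_smul, @norm_sub_sq_real, mul_pow, @norm_add_sq_real]
  norm_num
  ring

theorem cell_PL {d : ℕ} (κ L : ℝ) (hκ : 0 < κ) (hL : 0 < L) (P0 P1 P2 : Set (E d))
    (hP0 : MeasurableSet P0) (hP1 : MeasurableSet P1) (hP2 : MeasurableSet P2)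
    (hB0 : Bornology.IsBounded P0) (hB1 : Bornology.IsBounded P1) (hB2 : Bornology.IsBounded P2)
    (hmid : ∀ x ∈ P0, ∀ y ∈ P1, (1 / 2 : ℝ) • (x + y) ∈ P2)
    (χ : E d → ℝ) (hχ : Continuous χ)
    (hLip : ∀ x ∈ P0, ∀ y ∈ P1, |χ x - χ y| ≤ L * ‖x - y‖)
    (W0 W1 W2' A0 A1 : ℝ) (hW0 : W0 = ∫ x in P0, gau κ x) (hW1 : W1 = ∫ x in P1, gau κ x)
    (hW2 : W2' = ∫ x in P2, gau κ x) (hW0p : 0 < W0) (hW1p : 0 < W1)
    (hA0 : ∫ x in P0, χ x * gau κ x = A0 * W0) (hA1 : ∫ x in P1, χ x * gau κ x = A1 * W1) :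
    √(W0 * W1) * (1 + κ * (A1 - A0) ^ 2 / (8 * L ^ 2)) ≤ W2' := by
  have hG : Continuous (gau κ : E d → ℝ) := continuous_gau κ
  set τ : ℝ := κ * (A0 - A1) / (2 * L ^ 2) with hτ
  have hW2p : 0 ≤ W2' := by
    rw [hW2]
    exact setIntegral_nonneg hP2 fun x _ => (gau_pos κ x).le
  -- general conversion
  have conv : ∀ (P : Set (E d)) (hP : MeasurableSet P) (hB : Bornology.IsBounded P)
      (F : E d → ℝ) (hF : Continuous F) (hF0 : ∀ x, 0 ≤ F x),
      ∫⁻ x, P.indicator (fun x => ENNReal.ofReal (F x)) x = ENNReal.ofReal (∫ x in P, F x) := by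
    intro P hP hB F hF hF0
    rw [lintegral_indicator hP, ofReal_integral_eq_lintegral_ofReal
      (integrableOn_of_bounded hB hF) (Filter.Eventually.of_forall hF0)]
  set F0 : E d → ℝ := fun x => gau κ x * Real.exp (τ * χ x) with hF0
  set F1 : E d → ℝ := fun x => gau κ x * Real.exp (-τ * χ x) with hF1
  set F2 : E d → ℝ := fun x => gau κ x * Real.exp (τ ^ 2 * L ^ 2 / (2 * κ)) with hF2
  have hF0c : Continuous F0 := by fun_prop
  have hF1c : Continuous F1 := by fun_prop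
  have hF2c : Continuous F2 := by fun_prop
  have hF0p : ∀ x, 0 ≤ F0 x := fun x => mul_nonneg (gau_pos κ x).le (Real.exp_pos _).le
  have hF1p : ∀ x, 0 ≤ F1 x := fun x => mul_nonneg (gau_pos κ x).le (Real.exp_pos _).le
  have hF2p : ∀ x, 0 ≤ F2 x := fun x => mul_nonneg (gau_pos κ x).le (Real.exp_pos _).le
  have hpl := prekopa_half d (P0.indicator fun x => ENNReal.ofReal (F0 x))
    (P1.indicator fun x => ENNReal.ofReal (F1 x)) (P2.indicator fun x => ENNReal.ofReal (F2 x))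
    (hF0c.measurable.ennreal_ofReal.indicator hP0) (hF1c.measurable.ennreal_ofReal.indicator hP1)
    (hF2c.measurable.ennreal_ofReal.indicator hP2) (by
      intro x z
      by_cases hx : x ∈ P0
      swap
      · rw [indicator_of_notMem hx, zero_mul]; exact zero_le
      by_cases hz : z ∈ P1
      swap
      · rw [indicator_of_notMem hz, mul_zero]; exact zero_le
      rw [indicator_of_mem hx, indicator_of_mem hz, indicator_of_mem (hmid x hx z hz),
        ← ENNReal.ofReal_mul (hF0p x), ← ENNReal.ofReal_pow (hF2p _)]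
      apply ENNReal.ofReal_le_ofReal
      have e1 : F0 x * F1 z = gau κ ((1 / 2 : ℝ) • (x + z)) ^ 2 *
          Real.exp (-(κ / 4 * ‖x - z‖ ^ 2) + τ * (χ x - χ z)) := by
        have : Real.exp (τ * (χ x - χ z)) = Real.exp (τ * χ x) * Real.exp (-τ * χ z) := by
          rw [← Real.exp_add]; congr 1; ring
        rw [Real.exp_add, this]
        simp only [hF0, hF1]
        linear_combination (Real.exp (τ * χ x) * Real.exp (-τ * χ z)) * gau_mul κ x z
      have e2 : F2 ((1 / 2 : ℝ) • (x + z)) ^ 2 = gau κ ((1 / 2 : ℝ) • (x + z)) ^ 2 *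
          Real.exp (τ ^ 2 * L ^ 2 / κ) := by
        rw [hF2]
        simp only
        rw [mul_pow, ← Real.exp_nat_mul]
        congr 2
        push_cast
        field_simp
      rw [e1, e2]
      refine mul_le_mul_of_nonneg_left (Real.exp_le_exp.2 ?_) (sq_nonneg _)
      have h1 : τ * (χ x - χ z) ≤ |τ| * (L * ‖x - z‖) := by
        calc τ * (χ x - χ z) ≤ |τ * (χ x - χ z)| := le_abs_self _
          _ = |τ| * |χ x - χ z| := abs_mul _ _
          _ ≤ |τ| * (L * ‖x - z‖) := by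
            gcongr
            exact hLip x hx z hz
      have h2 : |τ| * (L * ‖x - z‖) ≤ κ / 4 * ‖x - z‖ ^ 2 + τ ^ 2 * L ^ 2 / κ := by
        have h3 : τ ^ 2 = |τ| ^ 2 := (sq_abs τ).symm
        have h4 : κ / 4 * ‖x - z‖ ^ 2 + τ ^ 2 * L ^ 2 / κ - |τ| * (L * ‖x - z‖)
            = (κ * ‖x - z‖ / 2 - |τ| * L) ^ 2 / κ := by
          rw [h3]
          field_simp
          ring
        have h5 : 0 ≤ (κ * ‖x - z‖ / 2 - |τ| * L) ^ 2 / κ := by positivity
        linarith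
      linarith)
  rw [conv P0 hP0 hB0 F0 hF0c hF0p, conv P1 hP1 hB1 F1 hF1c hF1p, conv P2 hP2 hB2 F2 hF2c hF2p,
    ← ENNReal.ofReal_mul (setIntegral_nonneg hP0 fun x _ => hF0p x),
    ← ENNReal.ofReal_pow (setIntegral_nonneg hP2 fun x _ => hF2p x),
    ENNReal.ofReal_le_ofReal_iff (sq_nonneg _)] at hpl
  have j0 : W0 * Real.exp (τ * A0) ≤ ∫ x in P0, F0 x := cell_jensen κ hP0 hB0 hχ hW0 hA0 τ
  have j1 : W1 * Real.exp (-τ * A1) ≤ ∫ x in P1, F1 x := cell_jensen κ hP1 hB1 hχ hW1 hA1 (-τ)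
  have hi2 : ∫ x in P2, F2 x = W2' * Real.exp (τ ^ 2 * L ^ 2 / (2 * κ)) := by
    rw [hF2, integral_mul_const, ← hW2]
  rw [hi2] at hpl
  have h1 : (W0 * Real.exp (τ * A0)) * (W1 * Real.exp (-τ * A1))
      ≤ (W2' * Real.exp (τ ^ 2 * L ^ 2 / (2 * κ))) ^ 2 := by
    refine le_trans ?_ hpl
    exact mul_le_mul j0 j1 (by positivity) (le_trans (by positivity) j0)
  -- take square roots
  set D : ℝ := κ * (A1 - A0) ^ 2 / (8 * L ^ 2) with hD
  have h2 : W0 * W1 * Real.exp D ^ 2 ≤ W2' ^ 2 := by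
    have e1 : (W0 * Real.exp (τ * A0)) * (W1 * Real.exp (-τ * A1))
        = W0 * W1 * Real.exp (τ * (A0 - A1)) := by
      have : Real.exp (τ * (A0 - A1)) = Real.exp (τ * A0) * Real.exp (-τ * A1) := by
        rw [← Real.exp_add]; congr 1; ring
      rw [this]; ring
    have e2 : (W2' * Real.exp (τ ^ 2 * L ^ 2 / (2 * κ))) ^ 2
        = W2' ^ 2 * Real.exp (τ ^ 2 * L ^ 2 / κ) := by
      rw [mul_pow, ← Real.exp_nat_mul]
      congr 2
      push_cast
      field_simp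
    have e3 : Real.exp D ^ 2 = Real.exp (τ * (A0 - A1)) * (Real.exp (τ ^ 2 * L ^ 2 / κ))⁻¹ := by
      rw [← Real.exp_neg, ← Real.exp_add, ← Real.exp_nat_mul]
      congr 1
      rw [hD, hτ]
      push_cast
      field_simp
      ring
    rw [e1, e2] at h1
    rw [e3]
    have hpos : 0 < Real.exp (τ ^ 2 * L ^ 2 / κ) := Real.exp_pos _
    rw [← mul_assoc, ← div_eq_mul_inv, div_le_iff₀ hpos]
    exact h1
  have h3 : √(W0 * W1) * Real.exp D ≤ W2' := by
    refine le_of_sq_le_sq ?_ hW2p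
    rw [mul_pow, Real.sq_sqrt (by positivity)]
    exact h2
  refine le_trans ?_ h3
  refine mul_le_mul_of_nonneg_left ?_ (Real.sqrt_nonneg _)
  have := Real.add_one_le_exp D
  linarith

/-- The sum over the cells. -/
theorem cells_sum {d : ℕ} {ι : Type} [Fintype ι] [Nonempty ι] {K : Set (E d)} (hK : IsCompact K)
    (hKc : Convex ℝ K) (κ : ℝ) (hκ : 0 < κ) (y : ι → E d) (hy : Function.Injective y)
    (ψ0 ψ1 : ι → ℝ) (χ : ι → E d → ℝ) (hχ : ∀ i, Continuous (χ i)) (L : ι → ℝ)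
    (hL : ∀ i, 0 < L i) (hLip : ∀ i, ∀ x ∈ K, ∀ z ∈ K, |χ i x - χ i z| ≤ L i * ‖x - z‖)
    (W0 W1 A0 A1 : ι → ℝ) (hW0 : ∀ i, W0 i = ∫ x in cell K y ψ0 i, gau κ x)
    (hW1 : ∀ i, W1 i = ∫ x in cell K y ψ1 i, gau κ x) (hW0p : ∀ i, 0 < W0 i)
    (hW1p : ∀ i, 0 < W1 i)
    (hA0 : ∀ i, ∫ x in cell K y ψ0 i, χ i x * gau κ x = A0 i * W0 i)
    (hA1 : ∀ i, ∫ x in cell K y ψ1 i, χ i x * gau κ x = A1 i * W1 i) :
    κ / 4 * ∑ i, √(W0 i * W1 i) * (A1 i - A0 i) ^ 2 / (L i) ^ 2 ≤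
      ∑ i, (W1 i - W0 i) ^ 2 / (W0 i + W1 i) := by
  set ψ2 : ι → ℝ := fun j => (ψ0 j + ψ1 j) / 2 with hψ2
  set W2' : ι → ℝ := fun i => ∫ x in cell K y ψ2 i, gau κ x with hW2
  have hbd : ∀ ψ i, Bornology.IsBounded (cell K y ψ i) := fun ψ i =>
    hK.isBounded.subset (cell_subset i)
  have hmeas : ∀ ψ i, MeasurableSet (cell K y ψ i) := fun ψ i => measurableSet_cell hK.isClosed i
  have h1 : ∀ i, √(W0 i * W1 i) * (1 + κ * (A1 i - A0 i) ^ 2 / (8 * L i ^ 2)) ≤ W2' i := fun i =>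
    cell_PL κ (L i) hκ (hL i) _ _ _ (hmeas ψ0 i) (hmeas ψ1 i) (hmeas ψ2 i) (hbd _ _) (hbd _ _)
      (hbd _ _) (fun x hx z hz => cell_mid hKc ψ0 ψ1 i hx hz) (χ i) (hχ i)
      (fun x hx z hz => hLip i x (cell_subset i hx) z (cell_subset i hz)) (W0 i) (W1 i) (W2' i)
      (A0 i) (A1 i) (hW0 i) (hW1 i) rfl (hW0p i) (hW1p i) (hA0 i) (hA1 i)
  have hint : IntegrableOn (gau κ : E d → ℝ) K :=
    (continuous_gau κ).continuousOn.integrableOn_compact hK
  have s0 : ∑ i, W0 i = ∫ x in K, gau κ x := by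
    rw [integral_cells hK hy (ψ := ψ0) _ hint]
    exact Finset.sum_congr rfl fun i _ => hW0 i
  have s1 : ∑ i, W1 i = ∫ x in K, gau κ x := by
    rw [integral_cells hK hy (ψ := ψ1) _ hint]
    exact Finset.sum_congr rfl fun i _ => hW1 i
  have s2 : ∑ i, W2' i = ∫ x in K, gau κ x := by
    rw [integral_cells hK hy (ψ := ψ2) _ hint]
  have h2 : ∀ i, κ / 4 * (√(W0 i * W1 i) * (A1 i - A0 i) ^ 2 / (L i) ^ 2)
      ≤ (W1 i - W0 i) ^ 2 / (W0 i + W1 i) + (2 * W2' i - W0 i - W1 i) := by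
    intro i
    have h3 := h1 i
    have hLi := hL i
    have e1 : κ / 4 * (√(W0 i * W1 i) * (A1 i - A0 i) ^ 2 / (L i) ^ 2)
        = 2 * (√(W0 i * W1 i) * (1 + κ * (A1 i - A0 i) ^ 2 / (8 * L i ^ 2)))
          - 2 * √(W0 i * W1 i) := by
      field_simp
      ring
    rw [e1]
    have h4 : W0 i + W1 i - 2 * √(W0 i * W1 i) ≤ (W1 i - W0 i) ^ 2 / (W0 i + W1 i) := by
      have p0 := hW0p i
      have p1 := hW1p i
      rw [le_div_iff₀ (by positivity), Real.sqrt_mul p0.le]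
      set a := √(W0 i) with ha
      set b := √(W1 i) with hb
      have ha2 : W0 i = a ^ 2 := (Real.sq_sqrt p0.le).symm
      have hb2 : W1 i = b ^ 2 := (Real.sq_sqrt p1.le).symm
      have ha0 : 0 ≤ a := Real.sqrt_nonneg _
      have hb0 : 0 ≤ b := Real.sqrt_nonneg _
      rw [ha2, hb2]
      have e2 : (b ^ 2 - a ^ 2) ^ 2 - (a ^ 2 + b ^ 2 - 2 * (a * b)) * (a ^ 2 + b ^ 2)
          = 2 * (a * b) * (a - b) ^ 2 := by ring
      have h5 : 0 ≤ 2 * (a * b) * (a - b) ^ 2 := by positivity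
      linarith
    linarith
  rw [Finset.mul_sum]
  refine (Finset.sum_le_sum fun i _ => h2 i).trans (le_of_eq ?_)
  rw [Finset.sum_add_distrib, Finset.sum_sub_distrib, Finset.sum_sub_distrib, ← Finset.mul_sum,
    s0, s1, s2]
  ring

end Vale.Agent.P074
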