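import Vale.Agent.P074.Basic

open MeasureTheory Set
open scoped ENNReal NNReal InnerProductSpace

namespace Vale.Agent.P074

/-- The cdf of an atomless probability measure on `ℝ` pushes it to the uniform measure. -/
theorem cdf_uniform (ν : Measure ℝ) [IsProbabilityMeasure ν] (hat : ∀ a, ν {a} = 0) (t : ℝ)
    (h0 : 0 ≤ t) (h1 : t ≤ 1) :
    ν {s | ProbabilityTheory.cdf ν s ≤ t} = ENNReal.ofReal t := by
  set F := ProbabilityTheory.cdf ν with hF
  have hmono : Monotone F := F.mono
  rcases eq_or_lt_of_le h1 with rfl | h1
  · have : {s | F s ≤ 1} = univ := by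
      ext s; simp only [mem_ofPred_eq, mem_univ, iff_true]
      exact ProbabilityTheory.cdf_le_one ν s
    rw [this, measure_univ]; simp
  set A := {s | F s ≤ t} with hA
  have hbdd : BddAbove A := by
    have h := (ProbabilityTheory.tendsto_cdf_atTop ν).eventually (lt_mem_nhds h1)
    obtain ⟨b, hb⟩ := h.exists
    refine ⟨b, fun s hs => ?_⟩
    by_contra hlt
    have : F b ≤ F s := hmono (not_le.1 hlt).le
    have hs' : F s ≤ t := hs
    have hb' : t < F b := hb
    linarith
  rcases A.eq_empty_or_nonempty with hE | hne
  · rw [hE, measure_empty]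
    have : t ≤ 0 := by
      by_contra hlt
      have h := (ProbabilityTheory.tendsto_cdf_atBot ν).eventually (gt_mem_nhds (not_le.1 hlt))
      obtain ⟨b, hb⟩ := h.exists
      have : b ∈ A := le_of_lt hb
      rw [hE] at this
      exact this
    rw [ENNReal.ofReal_eq_zero.2 this]
  · set a := sSup A with ha
    have hdown : ∀ s < a, F s ≤ t := by
      intro s hs
      obtain ⟨s', hs', hlt⟩ := exists_lt_of_lt_csSup hne hs
      exact (hmono hlt.le).trans hs'
    have hup : ∀ s > a, t < F s := by
      intro s hs
      by_contra hlt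
      exact absurd (le_csSup hbdd (not_lt.1 hlt)) (not_le.2 hs)
    have hFa : F a ≤ t := by
      have e1 : F.measure {a} = 0 := by
        rw [hF, ProbabilityTheory.measure_cdf]; exact hat a
      rw [StieltjesFunction.measure_singleton, ENNReal.ofReal_eq_zero] at e1
      have e2 : Function.leftLim F a ≤ t := by
        refine le_of_tendsto (hmono.tendsto_leftLim a) ?_
        exact eventually_nhdsWithin_of_forall fun s hs => hdown s hs
      linarith
    have hFa' : t ≤ F a := by
      have e1 := (F.right_continuous a)
      have e2 : Filter.Tendsto F (nhdsWithin a (Ioi a)) (nhds (F a)) :=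
        e1.mono_left (nhdsWithin_mono _ Ioi_subset_Ici_self)
      exact ge_of_tendsto e2 (eventually_nhdsWithin_of_forall fun s hs => (hup s hs).le)
    have hAeq : A = Iic a := by
      ext s
      constructor
      · intro hs; exact le_csSup hbdd hs
      · intro hs
        exact (hmono hs).trans hFa
    rw [hAeq, ← ProbabilityTheory.ofReal_cdf ν a, le_antisymm hFa' hFa, ← hF]

theorem coord_null {d : ℕ} (i : Fin d) (a : ℝ) : volume {x : E d | x i = a} = 0 := by
  have h := (PiLp.volume_preserving_ofLp (Fin d)).measure_preimage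
    (s := {f : Fin d → ℝ | f i = a})
    (measurableSet_eq_fun (measurable_pi_apply i) measurable_const).nullMeasurableSet
  have e : {x : E d | x i = a} = WithLp.ofLp ⁻¹' {f : Fin d → ℝ | f i = a} := rfl
  rw [e, h]
  exact MeasureTheory.Measure.pi_hyperplane (fun _ : Fin d => (volume : Measure ℝ)) i a

/-- Any finite measure absolutely continuous with respect to Lebesgue measure in dimension
`d ≥ 1` can be pushed to any measure with the same mass. -/
theorem exists_push {d : ℕ} (hd : 1 ≤ d) (P : Set (E d)) (hP : MeasurableSet P)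
    (hfin : volume P ≠ ∞) (μ : Measure (E d)) (hμ : μ univ = volume P) :
    ∃ S : E d → E d, Measurable S ∧ (volume.restrict P).map S = μ := by
  by_cases h0 : volume P = 0
  · refine ⟨fun x => x, measurable_id, ?_⟩
    have e1 : volume.restrict P = 0 := Measure.restrict_eq_zero.2 h0
    have e2 : μ = 0 := by rw [← Measure.measure_univ_eq_zero, hμ, h0]
    rw [e1, e2, Measure.map_zero]
  set m := volume P with hm
  have hm' : m⁻¹ ≠ ∞ := ENNReal.inv_ne_top.2 h0
  let i : Fin d := ⟨0, hd⟩
  have hmeasi : Measurable fun x : E d => x i := by fun_prop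
  set ν : Measure ℝ := m⁻¹ • (volume.restrict P).map (fun x : E d => x i) with hν
  have hνp : IsProbabilityMeasure ν := by
    refine ⟨?_⟩
    rw [hν, Measure.smul_apply, Measure.map_apply hmeasi MeasurableSet.univ, preimage_univ,
      Measure.restrict_apply_univ, ← hm, smul_eq_mul, ENNReal.inv_mul_cancel h0 hfin]
  have hat : ∀ a, ν {a} = 0 := by
    intro a
    rw [hν, Measure.smul_apply, Measure.map_apply hmeasi (measurableSet_singleton a)]
    have : volume.restrict P ((fun x : E d => x i) ⁻¹' {a}) = 0 := by
      refine le_antisymm ((Measure.restrict_apply_le _ _).trans ?_) bot_le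
      exact (coord_null i a).le
    rw [this, smul_zero]
  -- the map to the unit interval
  let F := ProbabilityTheory.cdf ν
  have hFm : Measurable F := F.mono.measurable
  let G : E d → unitInterval := fun x =>
    ⟨F (x i), ProbabilityTheory.cdf_nonneg ν _, ProbabilityTheory.cdf_le_one ν _⟩
  have hG : Measurable G := Measurable.subtype_mk (hFm.comp hmeasi)
  have hGmap : (m⁻¹ • volume.restrict P).map G = volume := by
    have hfm : IsFiniteMeasure ((m⁻¹ • volume.restrict P).map G) := by
      refine ⟨?_⟩
      rw [Measure.map_apply hG MeasurableSet.univ, preimage_univ, Measure.smul_apply,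
        Measure.restrict_apply_univ, smul_eq_mul]
      exact ENNReal.mul_lt_top hm'.lt_top hfin.lt_top
    refine Measure.ext_of_Iic _ _ fun t => ?_
    rw [Measure.map_apply hG measurableSet_Iic, unitInterval.volume_Iic]
    have e1 : ν {s | F s ≤ t} = ENNReal.ofReal t := cdf_uniform ν hat t t.2.1 t.2.2
    rw [← e1, hν, Measure.smul_apply, Measure.smul_apply,
      Measure.map_apply hmeasi (measurableSet_le hFm measurable_const)]
    rfl
  have hμp : IsProbabilityMeasure (m⁻¹ • μ) := by
    refine ⟨?_⟩
    rw [Measure.smul_apply, hμ, smul_eq_mul, ENNReal.inv_mul_cancel h0 hfin]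
  obtain ⟨f, hf, hfmap⟩ := MeasureTheory.Measure.exists_measurable_map_eq (m⁻¹ • μ)
  refine ⟨f ∘ G, hf.comp hG, ?_⟩
  have e : (m⁻¹ • volume.restrict P).map (f ∘ G) = m⁻¹ • μ := by
    rw [← Measure.map_map hf hG, hGmap, hfmap]
  rw [Measure.map_smul] at e
  have e2 := congrArg (fun κ => m • κ) e
  simp only [smul_smul, ENNReal.mul_inv_cancel h0 hfin, one_smul] at e2
  exact e2

/-- Gluing on a finite partition. -/
theorem exists_competitor {d : ℕ} (hd : 1 ≤ d) {ι : Type} [Fintype ι] (P : ι → Set (E d))
    (hP : ∀ i, MeasurableSet (P i)) (hfin : ∀ i, volume (P i) ≠ ∞)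
    (hdisj : Pairwise (fun i j => Disjoint (P i) (P j))) (μ : ι → Measure (E d))
    (hμ : ∀ i, μ i univ = volume (P i)) :
    ∃ S : E d → E d, Measurable S ∧ ∀ i, (volume.restrict (P i)).map S = μ i := by
  choose S hS hSmap using fun i => exists_push hd (P i) (hP i) (hfin i) (μ i) (hμ i)
  refine ⟨fun x => ∑ i, (P i).indicator (S i) x,
    Finset.measurable_sum _ fun i _ => (hS i).indicator (hP i), fun i => ?_⟩
  rw [← hSmap i]
  refine Measure.map_congr ?_
  refine (ae_restrict_iff' (hP i)).2 (Filter.Eventually.of_forall fun x hx => ?_)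
  simp only
  rw [Finset.sum_eq_single i]
  · rw [indicator_of_mem hx]
  · intro j _ hj
    refine indicator_of_notMem (fun hxj => ?_) _
    exact (Set.disjoint_left.1 (hdisj hj) hxj) hx
  · intro h; exact absurd (Finset.mem_univ i) h

end Vale.Agent.P074
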