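import Vale.Agent.P074.CellFacts

open MeasureTheory Set
open scoped ENNReal NNReal InnerProductSpace

namespace Vale.Agent.P074

variable {d : ℕ} {ι : Type} [Fintype ι] [Nonempty ι]

/-- Continuity of the cell volumes in the weights. -/
theorem continuous_vol {K : Set (E d)} (hK : IsCompact K) (y : ι → E d)
    (hy : Function.Injective y) (i : ι) : Continuous (fun ψ : ι → ℝ => vol K y ψ i) := by
  have hrepr : ∀ ψ : ι → ℝ, vol K y ψ i =
      ∫ x in K, (cell K y ψ i).indicator (fun _ => (1 : ℝ)) x := by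
    intro ψ
    rw [setIntegral_indicator (measurableSet_cell hK.isClosed i),
      inter_eq_self_of_subset_right (cell_subset i)]
    simp [vol]
  simp_rw [hrepr]
  rw [continuous_iff_continuousAt]
  intro ψ₀
  apply continuousAt_of_dominated (bound := fun _ => (1 : ℝ))
  · refine Filter.Eventually.of_forall fun ψ => ?_
    exact (measurable_const.indicator (measurableSet_cell hK.isClosed i)).aestronglyMeasurable
  · refine Filter.Eventually.of_forall fun ψ => Filter.Eventually.of_forall fun x => ?_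
    by_cases hx : x ∈ cell K y ψ i
    · simp [indicator_of_mem hx]
    · simp [indicator_of_notMem hx]
  · exact integrableOn_const hK.measure_lt_top.ne
  · -- off the hyperplanes
    have hnull : ∀ᵐ x ∂(volume : Measure (E d)), ∀ j, j ≠ i → ⟪x, y j - y i⟫_ℝ ≠ ψ₀ j - ψ₀ i := by
      rw [ae_all_iff]
      intro j
      by_cases hj : j = i
      · simp [hj]
      · have hne : y j - y i ≠ 0 := sub_ne_zero.2 (fun h => hj (hy h))
        have h0 := volume_hyperplane hne (ψ₀ j - ψ₀ i)
        have h1 : ∀ᵐ x ∂(volume : Measure (E d)), x ∉ {x : E d | ⟪x, y j - y i⟫_ℝ = ψ₀ j - ψ₀ i} :=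
          measure_eq_zero_iff_ae_notMem.1 h0
        filter_upwards [h1] with x hx _ h
        exact hx h
    refine ae_restrict_of_ae_restrict_of_subset (subset_univ K) ?_
    rw [Measure.restrict_univ]
    filter_upwards [hnull] with x hx
    by_cases hxK : x ∈ K
    · by_cases hlt : ∀ j, j ≠ i → ⟪x, y j⟫_ℝ - ψ₀ j < ⟪x, y i⟫_ℝ - ψ₀ i
      · -- eventually in the cell
        have hev : ∀ᶠ ψ in nhds ψ₀, x ∈ cell K y ψ i := by
          have h2 : ∀ j, ∀ᶠ ψ in nhds ψ₀, ⟪x, y j⟫_ℝ - ψ j ≤ ⟪x, y i⟫_ℝ - ψ i := by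
            intro j
            by_cases hj : j = i
            · subst hj
              exact Filter.Eventually.of_forall fun ψ => le_refl _
            · have hc1 : ContinuousAt (fun ψ : ι → ℝ => ⟪x, y j⟫_ℝ - ψ j) ψ₀ :=
                (continuous_const.sub (continuous_apply j)).continuousAt
              have hc2 : ContinuousAt (fun ψ : ι → ℝ => ⟪x, y i⟫_ℝ - ψ i) ψ₀ :=
                (continuous_const.sub (continuous_apply i)).continuousAt
              exact (hc1.eventually_lt hc2 (hlt j hj)).mono fun ψ h => h.le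
          filter_upwards [Filter.eventually_all.2 h2] with ψ hψ
          exact ⟨hxK, hψ⟩
        have : (fun ψ : ι → ℝ => (cell K y ψ i).indicator (fun _ => (1 : ℝ)) x) =ᶠ[nhds ψ₀]
            fun _ => (1 : ℝ) := by
          filter_upwards [hev] with ψ hψ
          rw [indicator_of_mem hψ]
        exact continuousAt_const.congr this.symm
      · push Not at hlt
        obtain ⟨j, hj, hle⟩ := hlt
        have hlt' : ⟪x, y i⟫_ℝ - ψ₀ i < ⟪x, y j⟫_ℝ - ψ₀ j := by
          refine lt_of_le_of_ne hle fun h => hx j hj ?_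
          rw [inner_sub_right]
          linarith
        have hev : ∀ᶠ ψ in nhds ψ₀, x ∉ cell K y ψ i := by
          have hc1 : ContinuousAt (fun ψ : ι → ℝ => ⟪x, y j⟫_ℝ - ψ j) ψ₀ :=
                (continuous_const.sub (continuous_apply j)).continuousAt
          have hc2 : ContinuousAt (fun ψ : ι → ℝ => ⟪x, y i⟫_ℝ - ψ i) ψ₀ :=
                (continuous_const.sub (continuous_apply i)).continuousAt
          filter_upwards [hc2.eventually_lt hc1 hlt'] with ψ hψ hmem
          exact absurd (hmem.2 j) (not_le.2 hψ)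
        have : (fun ψ : ι → ℝ => (cell K y ψ i).indicator (fun _ => (1 : ℝ)) x) =ᶠ[nhds ψ₀]
            fun _ => (0 : ℝ) := by
          filter_upwards [hev] with ψ hψ
          rw [indicator_of_notMem hψ]
        exact continuousAt_const.congr this.symm
    · have : (fun ψ : ι → ℝ => (cell K y ψ i).indicator (fun _ => (1 : ℝ)) x) =
          fun _ => (0 : ℝ) := by
        funext ψ
        rw [indicator_of_notMem (fun h => hxK h.1)]
      rw [this]
      exact continuousAt_const

/-- The gradient inequality for the integral of the potential. -/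
theorem integral_pot_le {K : Set (E d)} (hK : IsCompact K) (y : ι → E d)
    (hy : Function.Injective y) (ψ ψ' : ι → ℝ) :
    ∫ x in K, pot y ψ' x ≤ (∫ x in K, pot y ψ x) + ∑ i, vol K y ψ' i * (ψ i - ψ' i) := by
  have hi : ∀ φ : ι → ℝ, IntegrableOn (pot y φ) K :=
    fun φ => continuous_pot.continuousOn.integrableOn_compact hK
  rw [integral_cells (y := y) (ψ := ψ') hK hy _ (hi ψ'),
    integral_cells (y := y) (ψ := ψ') hK hy _ (hi ψ), ← Finset.sum_add_distrib]
  refine Finset.sum_le_sum fun i _ => ?_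
  have hci : IntegrableOn (fun _ : E d => ψ i - ψ' i) (cell K y ψ' i) :=
    integrableOn_const (volume_cell_lt_top hK i).ne
  have h1 : vol K y ψ' i * (ψ i - ψ' i) = ∫ x in cell K y ψ' i, (ψ i - ψ' i) := by
    simp [vol, measureReal_restrict_apply]
  have h2 : (∫ x in cell K y ψ' i, pot y ψ x) + ∫ x in cell K y ψ' i, (ψ i - ψ' i)
      = ∫ x in cell K y ψ' i, (pot y ψ x + (ψ i - ψ' i)) :=
    (integral_add ((hi ψ).mono_set (cell_subset i)) hci).symm
  rw [h1, h2]
  refine setIntegral_mono_on ((hi ψ').mono_set (cell_subset i))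
    (((hi ψ).mono_set (cell_subset i)).add hci) (measurableSet_cell hK.isClosed i) ?_
  intro x hx
  rw [pot_eq hx]
  have := le_pot (y := y) (ψ := ψ) i x
  linarith

theorem pot_shift (y : ι → E d) (ψ : ι → ℝ) (c : ℝ) (x : E d) :
    pot y (fun i => ψ i + c) x = pot y ψ x - c := by
  apply le_antisymm
  · refine Finset.sup'_le _ _ fun j _ => ?_
    have := le_pot (y := y) (ψ := ψ) j x
    linarith
  · rw [sub_le_iff_le_add]
    refine Finset.sup'_le _ _ fun j _ => ?_
    have := le_pot (y := y) (ψ := fun i => ψ i + c) j x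
    linarith

theorem continuous_integral_pot {K : Set (E d)} (hK : IsCompact K) (y : ι → E d) :
    Continuous (fun ψ : ι → ℝ => ∫ x in K, pot y ψ x) := by
  have hi : ∀ φ : ι → ℝ, IntegrableOn (pot y φ) K :=
    fun φ => continuous_pot.continuousOn.integrableOn_compact hK
  have hmono : ∀ (ψ ψ' : ι → ℝ) (x : E d), pot y ψ x ≤ pot y ψ' x + dist ψ ψ' := by
    intro ψ ψ' x
    refine Finset.sup'_le _ _ fun j _ => ?_
    have h1 := le_pot (y := y) (ψ := ψ') j x
    have h2 : |ψ j - ψ' j| ≤ dist ψ ψ' := by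
      rw [← Real.dist_eq]
      exact dist_le_pi_dist ψ ψ' j
    have h3 := (abs_le.1 h2).1
    linarith
  have hle : ∀ ψ ψ' : ι → ℝ, ∫ x in K, pot y ψ x ≤
      (∫ x in K, pot y ψ' x) + volume.real K * dist ψ ψ' := by
    intro ψ ψ'
    have hci : IntegrableOn (fun _ : E d => dist ψ ψ') K :=
      integrableOn_const hK.measure_lt_top.ne
    have h1 : volume.real K * dist ψ ψ' = ∫ x in K, dist ψ ψ' := by
      simp [measureReal_restrict_apply]
    rw [h1, ← integral_add (hi ψ') hci]
    exact integral_mono (hi ψ) ((hi ψ').add hci) (fun x => hmono ψ ψ' x)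
  have hlip : LipschitzWith (Real.toNNReal (volume.real K))
      (fun ψ : ι → ℝ => ∫ x in K, pot y ψ x) := by
    apply LipschitzWith.of_dist_le_mul
    intro ψ ψ'
    rw [Real.coe_toNNReal _ measureReal_nonneg, Real.dist_eq, abs_le]
    constructor
    · have := hle ψ' ψ
      rw [dist_comm] at this
      linarith
    · have := hle ψ ψ'
      linarith
  exact hlip.continuous

/-- Existence of weights with prescribed volumes. -/
theorem exists_weights {K : Set (E d)} (hK : IsCompact K) (y : ι → E d)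
    (hy : Function.Injective y) (m : ι → ℝ) (hm : ∀ i, 0 < m i)
    (hsum : ∑ i, m i = volume.real K) : ∃ ψ : ι → ℝ, ∀ i, vol K y ψ i = m i := by
  classical
  set Φ : (ι → ℝ) → ℝ := fun ψ => (∫ x in K, pot y ψ x) + ∑ i, m i * ψ i with hΦ
  have hΦc : Continuous Φ := by
    refine (continuous_integral_pot hK y).add ?_
    fun_prop
  have hi : ∀ φ : ι → ℝ, IntegrableOn (pot y φ) K :=
    fun φ => continuous_pot.continuousOn.integrableOn_compact hK
  -- shift invariance
  have hshift : ∀ (ψ : ι → ℝ) (c : ℝ), Φ (fun i => ψ i + c) = Φ ψ := by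
    intro ψ c
    have hci : IntegrableOn (fun _ : E d => c) K := integrableOn_const hK.measure_lt_top.ne
    have h1 : ∫ x in K, pot y (fun i => ψ i + c) x = (∫ x in K, pot y ψ x) - ∫ x in K, c := by
      rw [← integral_sub (hi ψ) hci]
      exact integral_congr_ae (Filter.Eventually.of_forall fun x => pot_shift y ψ c x)
    have h2 : ∫ x in K, c = volume.real K * c := by
      simp [measureReal_restrict_apply]
    have h3 : ∑ i, m i * (ψ i + c) = ∑ i, m i * ψ i + volume.real K * c := by
      rw [← hsum, Finset.sum_mul, ← Finset.sum_add_distrib]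
      exact Finset.sum_congr rfl fun i _ => by ring
    simp only [hΦ, h1, h2, h3]
    ring
  -- bounds
  obtain ⟨R, hR⟩ := hK.isBounded.exists_norm_le
  obtain ⟨B, hB⟩ : ∃ B, ∀ i, ‖y i‖ ≤ B := by
    obtain ⟨j, hj⟩ := Finite.exists_max (fun i => ‖y i‖)
    exact ⟨_, hj⟩
  obtain ⟨i₁, hi₁⟩ := Finite.exists_min m
  have hB0 : 0 ≤ B := (norm_nonneg _).trans (hB i₁)
  set M : ℝ := max 0 ((Φ 0 + |R| * B * volume.real K) / m i₁ + 1) with hM
  have hlow : ∀ ψ : ι → ℝ, (∀ i, 0 ≤ ψ i) → (∃ k, ψ k = 0) → ∀ j, M ≤ ψ j → Φ 0 ≤ Φ ψ := by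
    rintro ψ hψ ⟨k, hk⟩ j hj
    have h1 : ∀ x ∈ K, -(|R| * B) ≤ pot y ψ x := by
      intro x hx
      have h2 := le_pot (y := y) (ψ := ψ) k x
      rw [hk, sub_zero] at h2
      have h3 := abs_real_inner_le_norm x (y k)
      have h4 : ‖x‖ * ‖y k‖ ≤ |R| * B :=
        mul_le_mul ((hR x hx).trans (le_abs_self R)) (hB k) (norm_nonneg _) (abs_nonneg _)
      have h5 := (abs_le.1 h3).1
      linarith
    have hci : IntegrableOn (fun _ : E d => -(|R| * B)) K :=
      integrableOn_const hK.measure_lt_top.ne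
    have h2 : ∫ x in K, -(|R| * B) ≤ ∫ x in K, pot y ψ x :=
      setIntegral_mono_on hci (hi ψ) hK.isClosed.measurableSet h1
    have h3 : ∫ x in K, -(|R| * B) = volume.real K * -(|R| * B) := by
      simp [measureReal_restrict_apply]
    have h4 : m j * ψ j ≤ ∑ i, m i * ψ i :=
      Finset.single_le_sum (f := fun i => m i * ψ i)
        (fun i _ => mul_nonneg (hm i).le (hψ i)) (Finset.mem_univ j)
    have h5 : Φ 0 + |R| * B * volume.real K ≤ m j * ψ j := by
      have h6 : (Φ 0 + |R| * B * volume.real K) / m i₁ + 1 ≤ ψ j := (le_max_right _ _).trans hj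
      have h7 : (Φ 0 + |R| * B * volume.real K) / m i₁ ≤ ψ j := by linarith
      rw [div_le_iff₀ (hm i₁)] at h7
      have h8 : ψ j * m i₁ ≤ ψ j * m j := mul_le_mul_of_nonneg_left (hi₁ j) (hψ j)
      linarith
    have h6 : Φ ψ = (∫ x in K, pot y ψ x) + ∑ i, m i * ψ i := rfl
    rw [h6]
    rw [h3] at h2
    nlinarith
  -- minimiser on the cube
  have hcomp : IsCompact (Set.pi univ (fun _ : ι => Icc (0 : ℝ) M)) :=
    isCompact_univ_pi fun _ => isCompact_Icc
  have hM0 : 0 ≤ M := le_max_left _ _
  have h0mem : (0 : ι → ℝ) ∈ Set.pi univ (fun _ : ι => Icc (0 : ℝ) M) := by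
    intro i _
    exact ⟨le_refl _, hM0⟩
  obtain ⟨ψ, hψmem, hψmin⟩ := hcomp.exists_isMinOn ⟨0, h0mem⟩ hΦc.continuousOn
  have hmin : ∀ φ : ι → ℝ, Φ ψ ≤ Φ φ := by
    intro φ
    obtain ⟨k, hk⟩ := Finite.exists_min φ
    have h1 : Φ φ = Φ (fun i => φ i + -φ k) := (hshift φ (-φ k)).symm
    rw [h1]
    by_cases hall : ∀ i, φ i + -φ k ≤ M
    · apply hψmin
      intro i _
      exact ⟨by have := hk i; linarith, hall i⟩
    · push Not at hall
      obtain ⟨j, hj⟩ := hall
      refine (hψmin h0mem).trans ?_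
      refine hlow _ (fun i => by have := hk i; linarith) ⟨k, by ring⟩ j hj.le
  -- first order condition
  have hfirst : ∀ i, ∀ ε : ℝ, 0 < ε → vol K y (Function.update ψ i (ψ i + ε)) i ≤ m i := by
    intro i ε hε
    set ψ' : ι → ℝ := Function.update ψ i (ψ i + ε) with hψ'
    have h1 := integral_pot_le hK y hy ψ ψ'
    have h2 := hmin ψ'
    have h3 : ∑ j, vol K y ψ' j * (ψ j - ψ' j) = -(ε * vol K y ψ' i) := by
      rw [Finset.sum_eq_single i]
      · simp only [hψ', Function.update_self]
        ring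
      · intro j _ hj
        simp [hψ', Function.update_of_ne hj]
      · simp
    have h4 : ∑ j, m j * ψ' j = ∑ j, m j * ψ j + m i * ε := by
      rw [← Finset.add_sum_erase _ _ (Finset.mem_univ i),
        ← Finset.add_sum_erase _ _ (Finset.mem_univ i)]
      have h5 : ∑ j ∈ Finset.univ.erase i, m j * ψ' j = ∑ j ∈ Finset.univ.erase i, m j * ψ j := by
        refine Finset.sum_congr rfl fun j hj => ?_
        rw [hψ', Function.update_of_ne (Finset.ne_of_mem_erase hj)]
      rw [h5, hψ', Function.update_self]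
      ring
    simp only [hΦ] at h2
    rw [h4] at h2
    rw [h3] at h1
    have h6 : ε * vol K y ψ' i ≤ m i * ε := by linarith
    rw [mul_comm (m i)] at h6
    exact le_of_mul_le_mul_left h6 hε
  have hle : ∀ i, vol K y ψ i ≤ m i := by
    intro i
    have hc : Continuous (fun ε : ℝ => vol K y (Function.update ψ i (ψ i + ε)) i) := by
      refine (continuous_vol hK y hy i).comp ?_
      fun_prop
    have ht : Filter.Tendsto (fun ε : ℝ => vol K y (Function.update ψ i (ψ i + ε)) i)
        (nhdsWithin 0 (Ioi 0)) (nhds (vol K y ψ i)) := by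
      have h1 := (hc.tendsto 0).mono_left (nhdsWithin_le_nhds (s := Ioi 0))
      simpa using h1
    refine le_of_tendsto ht ?_
    filter_upwards [self_mem_nhdsWithin] with ε hε
    exact hfirst i ε hε
  refine ⟨ψ, fun i => ?_⟩
  have hs := sum_vol (y := y) (ψ := ψ) hK hy
  rw [← hsum] at hs
  by_contra hne
  have hlt : vol K y ψ i < m i := lt_of_le_of_ne (hle i) hne
  have : ∑ i, vol K y ψ i < ∑ i, m i :=
    Finset.sum_lt_sum (fun j _ => hle j) ⟨i, Finset.mem_univ i, hlt⟩
  exact absurd hs this.ne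

omit [Fintype ι] [Nonempty ι] in
/-- Oscillation bound for the weights. -/
theorem weights_osc {K : Set (E d)} {R B : ℝ} (hKR : ∀ x ∈ K, ‖x‖ ≤ R) (y : ι → E d)
    (hyB : ∀ i, ‖y i‖ ≤ B) (ψ : ι → ℝ) (hpos : ∀ i, 0 < vol K y ψ i) (i j : ι) :
    |ψ i - ψ j| ≤ 2 * R * B := by
  have key : ∀ i j, ψ i - ψ j ≤ 2 * R * B := by
    intro i j
    have hne : (cell K y ψ i).Nonempty := by
      by_contra h
      rw [not_nonempty_iff_eq_empty] at h
      have := hpos i
      simp [vol, h] at this
    obtain ⟨x, hx⟩ := hne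
    have h1 := hx.2 j
    have hn := hKR x hx.1
    have h2 : ‖x‖ * ‖y i‖ ≤ R * B := mul_le_mul hn (hyB i) (norm_nonneg _) ((norm_nonneg _).trans hn)
    have h3 : ‖x‖ * ‖y j‖ ≤ R * B := mul_le_mul hn (hyB j) (norm_nonneg _) ((norm_nonneg _).trans hn)
    have h4 := (abs_le.1 (abs_real_inner_le_norm x (y i))).2
    have h5 := (abs_le.1 (abs_real_inner_le_norm x (y j))).1
    linarith
  rw [abs_le]
  constructor
  · have := key j i
    linarith
  · exact key i j

/-- Uniqueness of the weights up to an additive constant. -/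
theorem weights_unique {K : Set (E d)} (hK : IsCompact K) (hKc : Convex ℝ K)
    (hKi : (interior K).Nonempty) (y : ι → E d) (hy : Function.Injective y) (ψ ψ' : ι → ℝ)
    (hpos : ∀ i, 0 < vol K y ψ i) (heq : ∀ i, vol K y ψ i = vol K y ψ' i) :
    ∃ c : ℝ, ∀ i, ψ' i = ψ i + c := by
  have hi : ∀ φ : ι → ℝ, IntegrableOn (pot y φ) K :=
    fun φ => continuous_pot.continuousOn.integrableOn_compact hK
  have h1 := integral_pot_le hK y hy ψ ψ'
  have h2 := integral_pot_le hK y hy ψ' ψ
  have hsum0 : ∑ i, vol K y ψ i * (ψ' i - ψ i) = -∑ i, vol K y ψ' i * (ψ i - ψ' i) := by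
    rw [← Finset.sum_neg_distrib]
    refine Finset.sum_congr rfl fun i _ => ?_
    rw [heq i]
    ring
  -- equality in every cell
  have hcell : ∀ i, ∀ᵐ x ∂(volume.restrict (cell K y ψ' i)),
      pot y ψ x - pot y ψ' x = ψ' i - ψ i := by
    have hnn : ∀ i, 0 ≤ ∫ x in cell K y ψ' i, (pot y ψ x + (ψ i - ψ' i) - pot y ψ' x) := by
      intro i
      refine setIntegral_nonneg (measurableSet_cell hK.isClosed i) fun x hx => ?_
      rw [pot_eq hx]
      have := le_pot (y := y) (ψ := ψ) i x
      linarith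
    have hint : ∀ i, IntegrableOn (fun x => pot y ψ x + (ψ i - ψ' i) - pot y ψ' x)
        (cell K y ψ' i) := by
      intro i
      refine (((hi ψ).mono_set (cell_subset i)).add
        (integrableOn_const (volume_cell_lt_top hK i).ne)).sub ((hi ψ').mono_set (cell_subset i))
    have htot : ∑ i, ∫ x in cell K y ψ' i, (pot y ψ x + (ψ i - ψ' i) - pot y ψ' x) = 0 := by
      have h3 : ∀ i, ∫ x in cell K y ψ' i, (pot y ψ x + (ψ i - ψ' i) - pot y ψ' x) =
          (∫ x in cell K y ψ' i, pot y ψ x) + vol K y ψ' i * (ψ i - ψ' i) -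
            ∫ x in cell K y ψ' i, pot y ψ' x := by
        intro i
        have hci : IntegrableOn (fun _ : E d => ψ i - ψ' i) (cell K y ψ' i) :=
          integrableOn_const (volume_cell_lt_top hK i).ne
        have e1 : ∫ x in cell K y ψ' i, (pot y ψ x + (ψ i - ψ' i) - pot y ψ' x) =
            (∫ x in cell K y ψ' i, (pot y ψ x + (ψ i - ψ' i))) -
              ∫ x in cell K y ψ' i, pot y ψ' x :=
          integral_sub (((hi ψ).mono_set (cell_subset i)).add hci) ((hi ψ').mono_set (cell_subset i))
        have e2 : ∫ x in cell K y ψ' i, (pot y ψ x + (ψ i - ψ' i)) =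
            (∫ x in cell K y ψ' i, pot y ψ x) + ∫ x in cell K y ψ' i, (ψ i - ψ' i) :=
          integral_add ((hi ψ).mono_set (cell_subset i)) hci
        have e3 : ∫ x in cell K y ψ' i, (ψ i - ψ' i) = vol K y ψ' i * (ψ i - ψ' i) := by
          simp [vol, measureReal_restrict_apply]
        rw [e1, e2, e3]
      simp_rw [h3]
      rw [Finset.sum_sub_distrib, Finset.sum_add_distrib, ← integral_cells hK hy _ (hi ψ),
        ← integral_cells hK hy _ (hi ψ')]
      rw [hsum0] at h2
      linarith
    intro i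
    have hz : ∫ x in cell K y ψ' i, (pot y ψ x + (ψ i - ψ' i) - pot y ψ' x) = 0 :=
      (Finset.sum_eq_zero_iff_of_nonneg (fun j _ => hnn j)).1 htot i (Finset.mem_univ i)
    have hae : 0 ≤ᵐ[volume.restrict (cell K y ψ' i)]
        (fun x => pot y ψ x + (ψ i - ψ' i) - pot y ψ' x) := by
      filter_upwards [ae_restrict_mem (measurableSet_cell hK.isClosed i)] with x hx
      simp only [Pi.zero_apply]
      rw [pot_eq hx]
      have := le_pot (y := y) (ψ := ψ) i x
      linarith
    have h4 := (setIntegral_eq_zero_iff_of_nonneg_ae hae (hint i)).1 hz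
    filter_upwards [h4] with x hx
    simp only [Pi.zero_apply] at hx
    linarith
  set D : E d → ℝ := fun x => pot y ψ x - pot y ψ' x with hD
  have hDc : Continuous D := continuous_pot.sub continuous_pot
  set V : Set ℝ := range (fun i => ψ' i - ψ i) with hV
  have hVfin : V.Finite := finite_range _
  -- D takes values in V on the interior
  have hae : ∀ᵐ x ∂(volume.restrict K), D x ∈ V := by
    have : (volume.restrict K : Measure (E d)) = volume.restrict (⋃ i, cell K y ψ' i) := by
      rw [iUnion_cell]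
    rw [this, ae_restrict_iUnion_iff]
    intro i
    filter_upwards [hcell i] with x hx
    exact ⟨i, hx.symm⟩
  have hint : ∀ x ∈ interior K, D x ∈ V := by
    by_contra hcon
    push Not at hcon
    obtain ⟨x, hx, hxV⟩ := hcon
    have hopen : IsOpen (interior K ∩ D ⁻¹' Vᶜ) :=
      isOpen_interior.inter (hVfin.isClosed.isOpen_compl.preimage hDc)
    have hpos' : 0 < volume (interior K ∩ D ⁻¹' Vᶜ) := hopen.measure_pos volume ⟨x, hx, hxV⟩
    have hnull : volume (interior K ∩ D ⁻¹' Vᶜ) = 0 := by
      have h5 := (ae_restrict_iff' hK.isClosed.measurableSet).1 hae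
      refine measure_mono_null ?_ h5
      rintro z ⟨hz, hzV⟩ hcon
      exact hzV (hcon (interior_subset hz))
    exact absurd hnull hpos'.ne'
  have hpre : IsPreconnected (interior K) := hKc.interior.isPreconnected
  have himg : (D '' interior K).Subsingleton := by
    have h5 : IsPreconnected (D '' interior K) := hpre.image D hDc.continuousOn
    have h6 : (D '' interior K).Finite :=
      hVfin.subset (by rintro _ ⟨x, hx, rfl⟩; exact hint x hx)
    by_contra hns
    exact (h5.infinite_of_nontrivial (not_subsingleton_iff.1 hns)) h6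
  obtain ⟨x₀, hx₀⟩ := hKi
  refine ⟨D x₀, fun i => ?_⟩
  -- a point of the cell in the interior
  have hposi : 0 < volume (cell K y ψ' i) := by
    have h5 := hpos i
    rw [heq i, vol, measureReal_def, ENNReal.toReal_pos_iff] at h5
    exact h5.1
  have hex : ∃ x ∈ interior K, D x = ψ' i - ψ i := by
    by_contra hcon
    push Not at hcon
    have h5 := (ae_restrict_iff' (measurableSet_cell hK.isClosed i)).1 (hcell i)
    have h6 : volume (frontier K) = 0 := hKc.addHaar_frontier volume
    have h7 : volume (cell K y ψ' i) = 0 := by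
      have h8 : ∀ᵐ x ∂(volume : Measure (E d)), x ∉ cell K y ψ' i := by
        filter_upwards [h5, measure_eq_zero_iff_ae_notMem.1 h6] with x hx hxf hxc
        have hxi : x ∈ interior K := by
          by_contra hxi
          exact hxf ⟨subset_closure hxc.1, hxi⟩
        exact hcon x hxi (hx hxc)
      exact measure_eq_zero_iff_ae_notMem.2 h8
    exact absurd h7 hposi.ne'
  obtain ⟨x, hx, hxD⟩ := hex
  have h9 : D x = D x₀ := himg ⟨x, hx, rfl⟩ ⟨x₀, hx₀, rfl⟩
  linarith

end Vale.Agent.P074
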