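import Vale.Agent.P074.Key
import Vale.Agent.P074.Weights

open MeasureTheory Set
open scoped ENNReal NNReal InnerProductSpace

namespace Vale.Agent.P074

variable {d : ℕ} {ι : Type} [Fintype ι] [Nonempty ι]

theorem integrableOn_inner {K : Set (E d)} (hK : IsCompact K) (a : E d) :
    IntegrableOn (fun x : E d => ⟪x, a⟫_ℝ) K := by
  apply ContinuousOn.integrableOn_compact hK
  fun_prop

theorem integrableOn_inner_cell {K : Set (E d)} (hK : IsCompact K) (y : ι → E d) (ψ : ι → ℝ)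
    (i : ι) (a : E d) : IntegrableOn (fun x : E d => ⟪x, a⟫_ℝ) (cell K y ψ i) :=
  (integrableOn_inner hK a).mono_set (cell_subset i)

theorem mom_sub {K : Set (E d)} (hK : IsCompact K) (y : ι → E d) (ψ : ι → ℝ)
    (i : ι) (a b : E d) : mom K y ψ i (a - b) = mom K y ψ i a - mom K y ψ i b := by
  unfold mom
  rw [← integral_sub (integrableOn_inner_cell hK y ψ i a) (integrableOn_inner_cell hK y ψ i b)]
  congr 1
  ext x
  rw [inner_sub_right]

theorem mom_smul {K : Set (E d)} (y : ι → E d) (ψ : ι → ℝ)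
    (i : ι) (c : ℝ) (a : E d) : mom K y ψ i (c • a) = c * mom K y ψ i a := by
  unfold mom
  rw [← integral_const_mul]
  congr 1
  ext x
  rw [real_inner_smul_right]

theorem integral_affine {K : Set (E d)} (hK : IsCompact K) (y : ι → E d) (ψ : ι → ℝ)
    (i : ι) (a : E d) (c : ℝ) :
    ∫ x in cell K y ψ i, (⟪x, a⟫_ℝ - c) = mom K y ψ i a - c * vol K y ψ i := by
  have hc : IntegrableOn (fun _ : E d => c) (cell K y ψ i) :=
    integrableOn_const (volume_cell_lt_top hK i).ne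
  rw [integral_sub (integrableOn_inner_cell hK y ψ i a) hc]
  unfold mom vol
  rw [integral_const]
  simp only [smul_eq_mul, measureReal_restrict_apply, MeasurableSet.univ, univ_inter]
  ring

theorem integral_pot {K : Set (E d)} (hK : IsCompact K) (y : ι → E d)
    (hy : Function.Injective y) (ψ : ι → ℝ) :
    ∫ x in K, pot y ψ x = ∑ i, mom K y ψ i (y i) - ∑ i, ψ i * vol K y ψ i := by
  rw [integral_cells (y := y) (ψ := ψ) hK hy _ (continuous_pot.continuousOn.integrableOn_compact hK),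
    ← Finset.sum_sub_distrib]
  refine Finset.sum_congr rfl fun i _ => ?_
  rw [← integral_affine hK]
  exact setIntegral_congr_fun (measurableSet_cell hK.isClosed i) (fun x hx => pot_eq hx)

/-- weak duality. -/
theorem weak_duality {K : Set (E d)} (hK : IsCompact K) (y y' : ι → E d)
    (hy : Function.Injective y) (hy' : Function.Injective y') (ψ ψ' : ι → ℝ) :
    ∑ i, mom K y ψ i (y' i) ≤ ∑ i, mom K y' ψ' i (y' i) +
      ∑ i, ψ' i * (vol K y ψ i - vol K y' ψ' i) := by
  have h1 := integral_pot hK y' hy' ψ'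
  have hint : IntegrableOn (pot y' ψ') K := continuous_pot.continuousOn.integrableOn_compact hK
  have h2 := integral_cells (y := y) (ψ := ψ) hK hy _ hint
  have h3 : ∑ i, (mom K y ψ i (y' i) - ψ' i * vol K y ψ i) ≤
      ∑ i, ∫ x in cell K y ψ i, pot y' ψ' x := by
    refine Finset.sum_le_sum fun i _ => ?_
    rw [← integral_affine hK]
    refine setIntegral_mono_on ?_ (hint.mono_set (cell_subset i))
      (measurableSet_cell hK.isClosed i) (fun x _ => le_pot i x)
    exact (integrableOn_inner_cell hK y ψ i (y' i)).sub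
      (integrableOn_const (volume_cell_lt_top hK i).ne)
  rw [← h2, h1, Finset.sum_sub_distrib] at h3
  simp only [mul_sub, Finset.sum_sub_distrib]
  linarith

/-- The key telescoping estimate. -/
theorem telescope {K : Set (E d)} (hK : IsCompact K) (hKc : Convex ℝ K)
    {R : ℝ} (hR : 0 < R) (hKR : ∀ x ∈ K, ‖x‖ ≤ R) (y0 y1 : ι → E d)
    (hdist : ∀ t ∈ Icc (0 : ℝ) 1, Function.Injective (fun i => (1 - t) • y0 i + t • y1 i))
    (m m' : ι → ℝ) (hm : ∀ i, 0 < m i) (hsum : ∑ i, m i = volume.real K)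
    (hsum' : ∑ i, m' i = volume.real K) (hm1 : ∀ i, m i / 2 ≤ m' i)
    (hm2 : ∀ i, m' i ≤ 2 * m i) :
    ∃ A A' : ℝ → ι → ℝ,
      (∀ t ∈ Icc (0 : ℝ) 1, ∀ i, vol K (fun i => (1 - t) • y0 i + t • y1 i) (A t) i = m i) ∧
      (∀ t ∈ Icc (0 : ℝ) 1, ∀ i, vol K (fun i => (1 - t) • y0 i + t • y1 i) (A' t) i = m' i) ∧
      (∑ i, mom K y1 (A' 1) i (y1 i) - ∑ i, mom K y1 (A 1) i (y1 i)) -
        (∑ i, mom K y0 (A' 0) i (y0 i) - ∑ i, mom K y0 (A 0) i (y0 i)) ≤
        1000 * R * √(∑ i, (m' i - m i) ^ 2 / m i) * √(∑ i, m i * ‖y1 i - y0 i‖ ^ 2) := by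
  have hm' : ∀ i, 0 < m' i := fun i => lt_of_lt_of_le (half_pos (hm i)) (hm1 i)
  have hA : ∀ t : ℝ, ∃ ψ : ι → ℝ, t ∈ Icc (0 : ℝ) 1 →
      ∀ i, vol K (fun i => (1 - t) • y0 i + t • y1 i) ψ i = m i := by
    intro t
    by_cases ht : t ∈ Icc (0 : ℝ) 1
    · obtain ⟨ψ, hψ⟩ := exists_weights hK _ (hdist t ht) m hm hsum
      exact ⟨ψ, fun _ => hψ⟩
    · exact ⟨0, fun h => absurd h ht⟩
  have hA' : ∀ t : ℝ, ∃ ψ : ι → ℝ, t ∈ Icc (0 : ℝ) 1 →
      ∀ i, vol K (fun i => (1 - t) • y0 i + t • y1 i) ψ i = m' i := by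
    intro t
    by_cases ht : t ∈ Icc (0 : ℝ) 1
    · obtain ⟨ψ, hψ⟩ := exists_weights hK _ (hdist t ht) m' hm' hsum'
      exact ⟨ψ, fun _ => hψ⟩
    · exact ⟨0, fun h => absurd h ht⟩
  choose A hA using hA
  choose A' hA' using hA'
  refine ⟨A, A', hA, hA', ?_⟩
  set Y : ℝ → ι → E d := fun t i => (1 - t) • y0 i + t • y1 i with hY
  set Δ : ι → E d := fun i => y1 i - y0 i with hΔ
  set a : ℝ → ℝ := fun t => ∑ i, mom K (Y t) (A t) i (Y t i) with ha
  set b : ℝ → ℝ := fun t => ∑ i, mom K (Y t) (A' t) i (Y t i) with hb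
  set c : ℝ → ℝ := fun t => ∑ i, mom K (Y t) (A t) i (Δ i) with hc
  set M : ℝ := 1000 * R * √(∑ i, (m' i - m i) ^ 2 / m i) * √(∑ i, m i * ‖y1 i - y0 i‖ ^ 2) with hM
  have hYd : ∀ s t : ℝ, ∀ i, Y t i - Y s i = (t - s) • Δ i := by
    intro s t i
    simp only [hY, hΔ]
    module
  have step : ∀ s ∈ Icc (0 : ℝ) 1, ∀ t ∈ Icc (0 : ℝ) 1, s ≤ t →
      (b t - a t) - (b s - a s) ≤ (t - s) * M + (t - s) * (c t - c s) := by
    intro s hs t ht hst
    have hb1 : ∑ i, mom K (Y t) (A' t) i (Y s i) ≤ b s := by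
      have h := weak_duality hK (Y t) (Y s) (hdist t ht) (hdist s hs) (A' t) (A' s)
      have h0 : ∑ i, A' s i * (vol K (Y t) (A' t) i - vol K (Y s) (A' s) i) = 0 := by
        refine Finset.sum_eq_zero fun i _ => ?_
        rw [hA' t ht i, hA' s hs i, sub_self, mul_zero]
      rw [h0, add_zero] at h
      exact h
    have ha1 : ∑ i, mom K (Y s) (A s) i (Y t i) ≤ a t := by
      have h := weak_duality hK (Y s) (Y t) (hdist s hs) (hdist t ht) (A s) (A t)
      have h0 : ∑ i, A t i * (vol K (Y s) (A s) i - vol K (Y t) (A t) i) = 0 := by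
        refine Finset.sum_eq_zero fun i _ => ?_
        rw [hA t ht i, hA s hs i, sub_self, mul_zero]
      rw [h0, add_zero] at h
      exact h
    have hb2 : b t - b s ≤ (t - s) * ∑ i, mom K (Y t) (A' t) i (Δ i) := by
      have : b t - ∑ i, mom K (Y t) (A' t) i (Y s i) = (t - s) * ∑ i, mom K (Y t) (A' t) i (Δ i) := by
        rw [Finset.mul_sum, hb]
        simp only
        rw [← Finset.sum_sub_distrib]
        refine Finset.sum_congr rfl fun i _ => ?_
        rw [← mom_sub hK, hYd s t i, mom_smul]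
      linarith
    have ha2 : (t - s) * c s ≤ a t - a s := by
      have : ∑ i, mom K (Y s) (A s) i (Y t i) - a s = (t - s) * c s := by
        rw [hc, ha]
        simp only
        rw [Finset.mul_sum, ← Finset.sum_sub_distrib]
        refine Finset.sum_congr rfl fun i _ => ?_
        rw [← mom_sub hK, hYd s t i, mom_smul]
      linarith
    have hkey := key_uniform hK hKc hR hKR (Y t) (hdist t ht) (A t) (A' t) Δ
      (fun i => by rw [hA t ht i]; exact hm i)
      (fun i => by rw [hA t ht i, hA' t ht i]; exact hm1 i)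
      (fun i => by rw [hA t ht i, hA' t ht i]; exact hm2 i)
    have e1 : ∀ i, vol K (Y t) (A t) i = m i := hA t ht
    have e2 : ∀ i, vol K (Y t) (A' t) i = m' i := hA' t ht
    simp only [e1, e2] at hkey
    rw [Finset.sum_sub_distrib] at hkey
    have hkey' : ∑ i, mom K (Y t) (A' t) i (Δ i) ≤ M + c t := by
      have : (∑ i, mom K (Y t) (A' t) i (Δ i)) - c t ≤ M := hkey
      linarith
    have hts : 0 ≤ t - s := sub_nonneg.2 hst
    have := mul_le_mul_of_nonneg_left hkey' hts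
    nlinarith
  -- telescoping
  have tel : ∀ n : ℕ, 0 < n → (b 1 - a 1) - (b 0 - a 0) ≤ M + (c 1 - c 0) / n := by
    intro n hn
    have hn' : (0 : ℝ) < n := Nat.cast_pos.2 hn
    have ind : ∀ k : ℕ, k ≤ n → (b (k / n) - a (k / n)) - (b 0 - a 0) ≤
        (k / n) * M + (c (k / n) - c 0) / n := by
      intro k
      induction k with
      | zero => intro _; simp
      | succ k ih =>
        intro hk
        have hk' : k ≤ n := by omega
        have h1 := ih hk'
        have hs : ((k : ℝ) / n) ∈ Icc (0 : ℝ) 1 :=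
          ⟨by positivity, (div_le_one hn').2 (by exact_mod_cast hk')⟩
        have ht : (((k + 1 : ℕ) : ℝ) / n) ∈ Icc (0 : ℝ) 1 :=
          ⟨by positivity, (div_le_one hn').2 (by exact_mod_cast hk)⟩
        have hd : ((k + 1 : ℕ) : ℝ) / n - (k : ℝ) / n = 1 / n := by
          push_cast; field_simp; ring
        have h2 := step _ hs _ ht (by rw [← sub_nonneg, hd]; positivity)
        rw [hd] at h2
        have h3 : ((k + 1 : ℕ) : ℝ) / n * M = (k / n) * M + 1 / n * M := by
          push_cast; ring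
        rw [h3]
        have h4 : (c ((k + 1 : ℕ) / n) - c 0) / n =
          (c (k / n) - c 0) / n + 1 / n * (c ((k + 1 : ℕ) / n) - c (k / n)) := by ring
        rw [h4]
        linarith
    have := ind n le_rfl
    rw [div_self hn'.ne', one_mul] at this
    exact this
  have hfin : (b 1 - a 1) - (b 0 - a 0) ≤ M := by
    apply le_of_tendsto_of_tendsto' (b := Filter.atTop) (f := fun _ : ℕ => (b 1 - a 1) - (b 0 - a 0))
      (g := fun n : ℕ => M + (c 1 - c 0) / ((n + 1 : ℕ) : ℝ)) tendsto_const_nhds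
    · have : Filter.Tendsto (fun n : ℕ => (c 1 - c 0) / ((n + 1 : ℕ) : ℝ)) Filter.atTop (nhds 0) := by
        have h := (tendsto_const_div_atTop_nhds_zero_nat (c 1 - c 0))
        exact (Filter.tendsto_add_atTop_iff_nat 1).2 h
      simpa using this.const_add M
    · intro n
      exact tel (n + 1) (Nat.succ_pos n)
  have hY1 : Y 1 = y1 := by
    funext i; simp [hY]
  have hY0 : Y 0 = y0 := by
    funext i; simp [hY]
  simp only [ha, hb, hY1, hY0] at hfin
  exact hfin

omit [Nonempty ι] in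
theorem vol_add_const {K : Set (E d)} (y : ι → E d) (ψ : ι → ℝ) (c : ℝ) (i : ι) :
    vol K y (fun j => ψ j + c) i = vol K y ψ i := by
  have : cell K y (fun j => ψ j + c) i = cell K y ψ i := by
    ext x
    simp only [cell, mem_ofPred_eq]
    constructor
    · rintro ⟨h1, h2⟩
      exact ⟨h1, fun j => by linarith [h2 j]⟩
    · rintro ⟨h1, h2⟩
      exact ⟨h1, fun j => by linarith [h2 j]⟩
  unfold vol
  rw [this]

/-- Stability of the weights under a motion of the sites. -/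
theorem weights_stability {K : Set (E d)} (hK : IsCompact K) (hKc : Convex ℝ K)
    (hKi : (interior K).Nonempty) {R : ℝ} (hR : 0 < R) (hKR : ∀ x ∈ K, ‖x‖ ≤ R)
    (y0 y1 : ι → E d)
    (hdist : ∀ t ∈ Icc (0 : ℝ) 1, Function.Injective (fun i => (1 - t) • y0 i + t • y1 i))
    (m : ι → ℝ) (hm : ∀ i, 0 < m i) (ψ0 ψ1 : ι → ℝ) (h0 : ∀ i, vol K y0 ψ0 i = m i)
    (h1 : ∀ i, vol K y1 ψ1 i = m i) (hmean : ∑ i, m i * (ψ1 i - ψ0 i) = 0) :
    √(∑ i, m i * (ψ1 i - ψ0 i) ^ 2) ≤ 1000 * R * √(∑ i, m i * ‖y1 i - y0 i‖ ^ 2) := by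
  have hy0 : Function.Injective y0 := by
    have := hdist 0 (by simp)
    simpa using this
  have hy1 : Function.Injective y1 := by
    have := hdist 1 (by simp)
    simpa using this
  have hsum : ∑ i, m i = volume.real K := by
    rw [← sum_vol (ψ := ψ0) hK hy0]
    exact Finset.sum_congr rfl fun i _ => (h0 i).symm
  set η : ι → ℝ := fun i => ψ1 i - ψ0 i with hη
  set ε : ℝ := √(∑ i, m i * ‖y1 i - y0 i‖ ^ 2) with hε
  set N : ℝ := √(∑ i, m i * (η i) ^ 2) with hN
  have hmean' : ∑ i, m i * η i = 0 := hmean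
  -- bound on η
  obtain ⟨H, hHpos, hH⟩ : ∃ H : ℝ, 0 < H ∧ ∀ i, |η i| ≤ H := by
    obtain ⟨i0, hi0⟩ := Finite.exists_max (fun i => |η i|)
    exact ⟨|η i0| + 1, by positivity, fun i => (hi0 i).trans (by linarith)⟩
  -- weights for perturbed masses
  have main : ∀ s : ℝ, 0 < s → s * H ≤ 1 / 2 → ∃ ψ : ι → ℝ,
      (∀ i, vol K y1 ψ i = m i * (1 + s * η i)) ∧
      ∑ i, m i * η i * (ψ i - ψ0 i) ≤ 1000 * R * N * ε := by
    intro s hs hsH
    have hbd : ∀ i, |s * η i| ≤ 1 / 2 := by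
      intro i
      rw [abs_mul, abs_of_pos hs]
      exact (mul_le_mul_of_nonneg_left (hH i) hs.le).trans hsH
    set m' : ι → ℝ := fun i => m i * (1 + s * η i) with hm'
    have hsum' : ∑ i, m' i = volume.real K := by
      rw [← hsum]
      have : ∀ i, m' i = m i + s * (m i * η i) := fun i => by simp only [hm']; ring
      rw [Finset.sum_congr rfl fun i _ => this i, Finset.sum_add_distrib, ← Finset.mul_sum,
        hmean', mul_zero, add_zero]
    have hm1 : ∀ i, m i / 2 ≤ m' i := by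
      intro i
      have := (abs_le.1 (hbd i)).1
      have := mul_le_mul_of_nonneg_left (show (1 / 2 : ℝ) ≤ 1 + s * η i by linarith) (hm i).le
      simp only [hm']
      linarith
    have hm2 : ∀ i, m' i ≤ 2 * m i := by
      intro i
      have := (abs_le.1 (hbd i)).2
      have := mul_le_mul_of_nonneg_left (show 1 + s * η i ≤ 2 by linarith) (hm i).le
      simp only [hm']
      linarith
    obtain ⟨A, A', hA, hA', hT⟩ := telescope hK hKc hR hKR y0 y1 hdist m m' hm hsum hsum' hm1 hm2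
    have e1 : (fun i => (1 - (1 : ℝ)) • y0 i + (1 : ℝ) • y1 i) = y1 := by
      funext i; simp
    have e0 : (fun i => (1 - (0 : ℝ)) • y0 i + (0 : ℝ) • y1 i) = y0 := by
      funext i; simp
    have hA1 := hA 1 (by simp)
    have hA0 := hA 0 (by simp)
    have hA1' := hA' 1 (by simp)
    have hA0' := hA' 0 (by simp)
    rw [e1] at hA1 hA1'
    rw [e0] at hA0 hA0'
    refine ⟨A' 1, hA1', ?_⟩
    -- value at t = 0
    have w1 := weak_duality hK y0 y0 hy0 hy0 (A' 0) ψ0
    have w2 := weak_duality hK y0 y0 hy0 hy0 ψ0 (A 0)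
    have w3 := weak_duality hK y1 y1 hy1 hy1 (A 1) (A' 1)
    simp only [hA0', h0, hA0, hA1, hA1', sub_self, mul_zero, Finset.sum_const_zero] at w1 w2 w3
    have q1 : ∑ i, ψ0 i * (m' i - m i) = s * ∑ i, m i * η i * ψ0 i := by
      rw [Finset.mul_sum]
      refine Finset.sum_congr rfl fun i _ => ?_
      simp only [hm']; ring
    have q2 : ∑ i, A' 1 i * (m i - m' i) = - (s * ∑ i, m i * η i * A' 1 i) := by
      rw [Finset.mul_sum, ← Finset.sum_neg_distrib]
      refine Finset.sum_congr rfl fun i _ => ?_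
      simp only [hm']; ring
    have q3 : √(∑ i, (m' i - m i) ^ 2 / m i) = s * N := by
      have : ∑ i, (m' i - m i) ^ 2 / m i = s ^ 2 * ∑ i, m i * η i ^ 2 := by
        rw [Finset.mul_sum]
        refine Finset.sum_congr rfl fun i _ => ?_
        have := (hm i).ne'
        simp only [hm']
        field_simp
        ring
      rw [this, Real.sqrt_mul (by positivity), Real.sqrt_sq hs.le]
    rw [q1] at w1
    rw [q2] at w3
    rw [q3] at hT
    have q4 : s * ∑ i, m i * η i * (A' 1 i - ψ0 i) =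
        s * (∑ i, m i * η i * A' 1 i) - s * (∑ i, m i * η i * ψ0 i) := by
      rw [← mul_sub, ← Finset.sum_sub_distrib]
      congr 1
      refine Finset.sum_congr rfl fun i _ => ?_
      ring
    have q5 : s * ∑ i, m i * η i * (A' 1 i - ψ0 i) ≤ s * (1000 * R * N * ε) := by
      rw [q4]
      have : 1000 * R * (s * N) * ε = s * (1000 * R * N * ε) := by ring
      linarith
    exact le_of_mul_le_mul_left q5 hs
  -- pass to the limit
  obtain ⟨i0⟩ := (inferInstance : Nonempty ι)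
  have hs0 : ∀ n : ℕ, 0 < 1 / (2 * H * (n + 1) : ℝ) := fun n => by positivity
  have hsH : ∀ n : ℕ, 1 / (2 * H * (n + 1) : ℝ) * H ≤ 1 / 2 := by
    intro n
    have : 1 / (2 * H * (n + 1) : ℝ) * H = 1 / 2 * (1 / ((n : ℝ) + 1)) := by
      field_simp
    rw [this]
    have h2 : 1 / ((n : ℝ) + 1) ≤ 1 := by
      rw [div_le_one (by positivity)]
      have : (0 : ℝ) ≤ n := Nat.cast_nonneg n
      linarith
    linarith
  choose P hPv hPi using fun n : ℕ => main _ (hs0 n) (hsH n)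
  -- normalise
  set P' : ℕ → ι → ℝ := fun n i => P n i + (- P n i0) with hP'
  obtain ⟨B, hB⟩ : ∃ B : ℝ, ∀ i, ‖y1 i‖ ≤ B := by
    obtain ⟨j, hj⟩ := Finite.exists_max (fun i => ‖y1 i‖)
    exact ⟨_, hj⟩
  have hPpos : ∀ n i, 0 < vol K y1 (P n) i := by
    intro n i
    rw [hPv]
    refine mul_pos (hm i) ?_
    have := (abs_le.1 (show |1 / (2 * H * (n + 1) : ℝ) * η i| ≤ 1 / 2 by
      rw [abs_mul, abs_of_pos (hs0 n)]
      exact (mul_le_mul_of_nonneg_left (hH i) (hs0 n).le).trans (hsH n))).1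
    linarith
  have hbdd : ∀ n, P' n ∈ Set.pi univ (fun _ : ι => Icc (-(2 * R * B)) (2 * R * B)) := by
    intro n i _
    have := weights_osc hKR y1 hB (P n) (hPpos n) i i0
    rw [abs_le] at this
    simp only [hP', mem_Icc]
    constructor <;> linarith [this.1, this.2]
  have hcomp : IsCompact (Set.pi univ (fun _ : ι => Icc (-(2 * R * B)) (2 * R * B))) :=
    isCompact_univ_pi fun _ => isCompact_Icc
  obtain ⟨Q, _, φ, hφ, hlim⟩ := hcomp.tendsto_subseq hbdd
  have hQv : ∀ i, vol K y1 Q i = m i := by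
    intro i
    have c1 : Filter.Tendsto (fun n => vol K y1 (P' (φ n)) i) Filter.atTop (nhds (vol K y1 Q i)) :=
      ((continuous_vol hK y1 hy1 i).tendsto Q).comp hlim
    have c2 : Filter.Tendsto (fun n => vol K y1 (P' (φ n)) i) Filter.atTop (nhds (m i)) := by
      have e : ∀ n, vol K y1 (P' (φ n)) i = m i * (1 + 1 / (2 * H * (φ n + 1) : ℝ) * η i) := by
        intro n
        rw [hP', vol_add_const, hPv]
      simp only [e]
      have c3 : Filter.Tendsto (fun n : ℕ => 1 / (2 * H * (n + 1) : ℝ)) Filter.atTop (nhds 0) := by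
        have : (fun n : ℕ => 1 / (2 * H * (n + 1) : ℝ)) =
            fun n : ℕ => (1 / (2 * H)) * (1 / ((n : ℝ) + 1)) := by
          funext n; field_simp
        rw [this]
        simpa using tendsto_one_div_add_atTop_nhds_zero_nat.const_mul (1 / (2 * H))
      have c4 := (c3.comp hφ.tendsto_atTop)
      have c5 := ((c4.mul_const (η i)).const_add 1).const_mul (m i)
      simpa using c5
    exact tendsto_nhds_unique c1 c2
  obtain ⟨c, hc⟩ := weights_unique hK hKc hKi y1 hy1 Q ψ1 (fun i => by rw [hQv]; exact hm i)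
    (fun i => by rw [hQv, h1])
  have hineq : ∑ i, m i * η i * (Q i - ψ0 i) ≤ 1000 * R * N * ε := by
    have c1 : Filter.Tendsto (fun n => ∑ i, m i * η i * (P' (φ n) i - ψ0 i)) Filter.atTop
        (nhds (∑ i, m i * η i * (Q i - ψ0 i))) := by
      refine tendsto_finset_sum _ fun i _ => ?_
      have := (tendsto_pi_nhds.1 hlim) i
      exact (this.sub_const _).const_mul _
    refine le_of_tendsto' c1 fun n => ?_
    have e : ∑ i, m i * η i * (P' (φ n) i - ψ0 i) = ∑ i, m i * η i * (P (φ n) i - ψ0 i) := by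
      have : ∀ i, m i * η i * (P' (φ n) i - ψ0 i) =
          m i * η i * (P (φ n) i - ψ0 i) + (- P (φ n) i0) * (m i * η i) := by
        intro i
        simp only [hP']; ring
      rw [Finset.sum_congr rfl fun i _ => this i, Finset.sum_add_distrib, ← Finset.mul_sum,
        hmean', mul_zero, add_zero]
    rw [e]
    exact hPi (φ n)
  have hineq2 : ∑ i, m i * η i ^ 2 ≤ 1000 * R * N * ε := by
    have : ∑ i, m i * η i ^ 2 = ∑ i, m i * η i * (Q i - ψ0 i) := by
      have e : ∀ i, m i * η i * (Q i - ψ0 i) = m i * η i ^ 2 + (-c) * (m i * η i) := by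
        intro i
        have := hc i
        simp only [hη]
        rw [this]; ring
      rw [Finset.sum_congr rfl fun i _ => e i, Finset.sum_add_distrib, ← Finset.mul_sum,
        hmean', mul_zero, add_zero]
    rw [this]
    exact hineq
  have hnn : 0 ≤ ∑ i, m i * η i ^ 2 := Finset.sum_nonneg fun i _ => by
    have := (hm i).le
    positivity
  have hNsq : N * N = ∑ i, m i * η i ^ 2 := Real.mul_self_sqrt hnn
  have hN0 : 0 ≤ N := Real.sqrt_nonneg _
  have hε0 : 0 ≤ ε := Real.sqrt_nonneg _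
  show N ≤ 1000 * R * ε
  rcases hN0.eq_or_lt with h | h
  · rw [← h]
    positivity
  · rw [← hNsq] at hineq2
    have : N * N ≤ N * (1000 * R * ε) := by linarith
    exact le_of_mul_le_mul_left this h

/-- The `L²` bound for the difference of the potentials. -/
theorem pot_L2 {K : Set (E d)} (hK : IsCompact K) (hKc : Convex ℝ K)
    (hKi : (interior K).Nonempty) {R : ℝ} (hR : 0 < R) (hKR : ∀ x ∈ K, ‖x‖ ≤ R)
    (y0 y1 : ι → E d)
    (hdist : ∀ t ∈ Icc (0 : ℝ) 1, Function.Injective (fun i => (1 - t) • y0 i + t • y1 i))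
    (m : ι → ℝ) (hm : ∀ i, 0 < m i) (ψ0 ψ1 : ι → ℝ) (h0 : ∀ i, vol K y0 ψ0 i = m i)
    (h1 : ∀ i, vol K y1 ψ1 i = m i) (hmean : ∑ i, m i * (ψ1 i - ψ0 i) = 0) :
    ∫ x in K, (pot y0 ψ0 x - pot y1 ψ1 x) ^ 2 ≤
      10 ^ 7 * R ^ 2 * ∑ i, m i * ‖y1 i - y0 i‖ ^ 2 := by
  have hy0 : Function.Injective y0 := by
    have := hdist 0 (by simp)
    simpa using this
  have hy1 : Function.Injective y1 := by
    have := hdist 1 (by simp)
    simpa using this
  have hstab := weights_stability hK hKc hKi hR hKR y0 y1 hdist m hm ψ0 ψ1 h0 h1 hmean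
  have hnn1 : 0 ≤ ∑ i, m i * (ψ1 i - ψ0 i) ^ 2 := Finset.sum_nonneg fun i _ => by
    have := (hm i).le
    positivity
  have hnn2 : 0 ≤ ∑ i, m i * ‖y1 i - y0 i‖ ^ 2 := Finset.sum_nonneg fun i _ => by
    have := (hm i).le
    positivity
  have hψ : ∑ i, m i * (ψ1 i - ψ0 i) ^ 2 ≤ 10 ^ 6 * R ^ 2 * ∑ i, m i * ‖y1 i - y0 i‖ ^ 2 := by
    have h := pow_le_pow_left₀ (Real.sqrt_nonneg _) hstab 2
    rw [Real.sq_sqrt hnn1, mul_pow, mul_pow, Real.sq_sqrt hnn2] at h
    linarith
  -- one-sided estimate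
  have one : ∀ (z0 z1 : ι → E d) (φ0 φ1 : ι → ℝ), Function.Injective z0 →
      (∀ i, vol K z0 φ0 i = m i) →
      ∫ x in K, (max (pot z0 φ0 x - pot z1 φ1 x) 0) ^ 2 ≤
        ∑ i, m i * (2 * R ^ 2 * ‖z1 i - z0 i‖ ^ 2 + 2 * (φ1 i - φ0 i) ^ 2) := by
    intro z0 z1 φ0 φ1 hz0 hv
    have hcont : Continuous (fun x => (max (pot z0 φ0 x - pot z1 φ1 x) 0) ^ 2) :=
      (((continuous_pot.sub continuous_pot).max continuous_const).pow 2)
    have hint : IntegrableOn (fun x => (max (pot z0 φ0 x - pot z1 φ1 x) 0) ^ 2) K :=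
      hcont.continuousOn.integrableOn_compact hK
    rw [integral_cells (y := z0) (ψ := φ0) hK hz0 _ hint]
    refine Finset.sum_le_sum fun i _ => ?_
    have hci : IntegrableOn (fun _ : E d =>
        (2 * R ^ 2 * ‖z1 i - z0 i‖ ^ 2 + 2 * (φ1 i - φ0 i) ^ 2)) (cell K z0 φ0 i) :=
      integrableOn_const (volume_cell_lt_top hK i).ne
    calc ∫ x in cell K z0 φ0 i, (max (pot z0 φ0 x - pot z1 φ1 x) 0) ^ 2
        ≤ ∫ x in cell K z0 φ0 i,
            (2 * R ^ 2 * ‖z1 i - z0 i‖ ^ 2 + 2 * (φ1 i - φ0 i) ^ 2) := by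
          refine setIntegral_mono_on (hint.mono_set (cell_subset i)) hci
            (measurableSet_cell hK.isClosed i) fun x hx => ?_
          have hx' : ‖x‖ ≤ R := hKR x hx.1
          have e1 : pot z0 φ0 x - pot z1 φ1 x ≤ R * ‖z1 i - z0 i‖ + |φ1 i - φ0 i| := by
            rw [pot_eq hx]
            have h1 := le_pot (y := z1) (ψ := φ1) i x
            have h2 : ⟪x, z0 i⟫_ℝ - ⟪x, z1 i⟫_ℝ ≤ R * ‖z1 i - z0 i‖ := by
              rw [← inner_sub_right]
              refine (real_inner_le_norm _ _).trans ?_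
              rw [norm_sub_rev]
              exact mul_le_mul_of_nonneg_right hx' (norm_nonneg _)
            have h3 := le_abs_self (φ1 i - φ0 i)
            linarith
          have e2 : max (pot z0 φ0 x - pot z1 φ1 x) 0 ≤ R * ‖z1 i - z0 i‖ + |φ1 i - φ0 i| :=
            max_le e1 (by positivity)
          have e3 := pow_le_pow_left₀ (le_max_right _ _) e2 2
          refine e3.trans ?_
          have e4 := sq_abs (φ1 i - φ0 i)
          nlinarith [sq_nonneg (R * ‖z1 i - z0 i‖ - |φ1 i - φ0 i|)]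
      _ = m i * (2 * R ^ 2 * ‖z1 i - z0 i‖ ^ 2 + 2 * (φ1 i - φ0 i) ^ 2) := by
          rw [setIntegral_const, ← hv i]
          rfl
  have a1 := one y0 y1 ψ0 ψ1 hy0 h0
  have a2 := one y1 y0 ψ1 ψ0 hy1 h1
  have hsplit : ∫ x in K, (pot y0 ψ0 x - pot y1 ψ1 x) ^ 2 =
      (∫ x in K, (max (pot y0 ψ0 x - pot y1 ψ1 x) 0) ^ 2) +
      (∫ x in K, (max (pot y1 ψ1 x - pot y0 ψ0 x) 0) ^ 2) := by
    rw [← integral_add]
    · congr 1
      ext x
      rcases le_total (pot y0 ψ0 x) (pot y1 ψ1 x) with h | h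
      · rw [max_eq_right (by linarith), max_eq_left (by linarith)]
        ring
      · rw [max_eq_left (by linarith), max_eq_right (by linarith)]
        ring
    · exact ((((continuous_pot.sub continuous_pot).max continuous_const).pow 2
        ).continuousOn.integrableOn_compact hK : IntegrableOn
          (fun x => (max (pot y0 ψ0 x - pot y1 ψ1 x) 0) ^ 2) K)
    · exact ((((continuous_pot.sub continuous_pot).max continuous_const).pow 2
        ).continuousOn.integrableOn_compact hK : IntegrableOn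
          (fun x => (max (pot y1 ψ1 x - pot y0 ψ0 x) 0) ^ 2) K)
  rw [hsplit]
  have s1 : ∑ i, m i * (2 * R ^ 2 * ‖y1 i - y0 i‖ ^ 2 + 2 * (ψ1 i - ψ0 i) ^ 2) =
      2 * R ^ 2 * ∑ i, m i * ‖y1 i - y0 i‖ ^ 2 + 2 * ∑ i, m i * (ψ1 i - ψ0 i) ^ 2 := by
    rw [Finset.mul_sum, Finset.mul_sum, ← Finset.sum_add_distrib]
    refine Finset.sum_congr rfl fun i _ => ?_
    ring
  have s2 : ∑ i, m i * (2 * R ^ 2 * ‖y0 i - y1 i‖ ^ 2 + 2 * (ψ0 i - ψ1 i) ^ 2) =
      2 * R ^ 2 * ∑ i, m i * ‖y1 i - y0 i‖ ^ 2 + 2 * ∑ i, m i * (ψ1 i - ψ0 i) ^ 2 := by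
    rw [Finset.mul_sum, Finset.mul_sum, ← Finset.sum_add_distrib]
    refine Finset.sum_congr rfl fun i _ => ?_
    rw [norm_sub_rev]
    ring
  rw [s1] at a1
  rw [s2] at a2
  have hRR : 0 ≤ R ^ 2 * ∑ i, m i * ‖y1 i - y0 i‖ ^ 2 := by positivity
  have f1 : 10 ^ 7 * R ^ 2 * ∑ i, m i * ‖y1 i - y0 i‖ ^ 2 =
    10 ^ 7 * (R ^ 2 * ∑ i, m i * ‖y1 i - y0 i‖ ^ 2) := by ring
  have f2 : 10 ^ 6 * R ^ 2 * ∑ i, m i * ‖y1 i - y0 i‖ ^ 2 =
    10 ^ 6 * (R ^ 2 * ∑ i, m i * ‖y1 i - y0 i‖ ^ 2) := by ring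
  have f3 : 2 * R ^ 2 * ∑ i, m i * ‖y1 i - y0 i‖ ^ 2 =
    2 * (R ^ 2 * ∑ i, m i * ‖y1 i - y0 i‖ ^ 2) := by ring
  rw [f3] at a1 a2
  rw [f2] at hψ
  rw [f1]
  linarith

end Vale.Agent.P074
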