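import Vale.Agent.P074.Basic

open MeasureTheory Set
open scoped ENNReal NNReal InnerProductSpace

namespace Vale.Agent.P074

/-- the inner parallel set -/
def inn {d : ℕ} (K : Set (E d)) (e : E d) (t : ℝ) : Set (E d) :=
  {x | x + t • e ∈ K ∧ x - t • e ∈ K}

theorem inn_subset {d : ℕ} {K : Set (E d)} (hKc : Convex ℝ K) (e : E d) (t : ℝ) :
    inn K e t ⊆ K := by
  rintro x ⟨h1, h2⟩
  have h : (1 / 2 : ℝ) • (x + t • e) + (1 / 2 : ℝ) • (x - t • e) = x := by module
  rw [← h]
  exact hKc h1 h2 (by norm_num) (by norm_num) (by norm_num)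

theorem inn_closed {d : ℕ} {K : Set (E d)} (hK : IsClosed K) (e : E d) (t : ℝ) :
    IsClosed (inn K e t) :=
  (hK.preimage (by fun_prop : Continuous fun x : E d => x + t • e)).inter
    (hK.preimage (by fun_prop : Continuous fun x : E d => x - t • e))

/-- The inner parallel set `{x | x ± t e ∈ K}` has almost full measure in `K`. -/
theorem inner_parallel {d : ℕ} {K : Set (E d)} (hK : IsCompact K) (hKc : Convex ℝ K)
    (hKi : (interior K).Nonempty) :
    ∃ C : ℝ, 0 < C ∧ ∀ e : E d, ‖e‖ ≤ 1 → ∀ t : ℝ, 0 ≤ t →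
      volume.real (K \ {x | x + t • e ∈ K ∧ x - t • e ∈ K}) ≤ C * t := by
  obtain ⟨x0, hx0⟩ := hKi
  obtain ⟨ρ, hρ, hball⟩ := Metric.nhds_basis_closedBall.mem_iff.mp (mem_interior_iff_mem_nhds.mp hx0)
  have hfin : volume K ≠ ∞ := hK.measure_lt_top.ne
  have hV : 0 < volume.real K := by
    rw [measureReal_def, ENNReal.toReal_pos_iff]
    exact ⟨(Measure.measure_pos_of_nonempty_interior _ ⟨x0, hx0⟩), hK.measure_lt_top⟩
  refine ⟨(d + 1) * volume.real K / ρ, by positivity, ?_⟩
  intro e he t ht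
  change volume.real (K \ inn K e t) ≤ _
  have hst : 0 ≤ t / ρ := by positivity
  rcases le_or_gt ρ t with h | h
  · have h1 : 1 ≤ t / ρ := (one_le_div hρ).mpr h
    calc volume.real (K \ inn K e t) ≤ volume.real K := measureReal_mono sdiff_subset hfin
      _ = 1 * volume.real K * 1 := by ring
      _ ≤ (d + 1) * volume.real K * (t / ρ) := by
        gcongr
        have : (0 : ℝ) ≤ d := Nat.cast_nonneg d
        linarith
      _ = (d + 1) * volume.real K / ρ * t := by ring
  · obtain ⟨s, hs⟩ : ∃ s, s = t / ρ := ⟨_, rfl⟩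
    have hs0 : 0 ≤ s := hs ▸ hst
    have hs1 : s < 1 := by rw [hs, div_lt_one hρ]; exact h
    have hts : t = s * ρ := by rw [hs]; field_simp
    have hsub : AffineMap.homothety x0 (1 - s) '' K ⊆ inn K e t := by
      rintro _ ⟨y, hy, rfl⟩
      have hb : ∀ σ : ℝ, |σ| ≤ 1 → x0 + (σ * ρ) • e ∈ K := by
        intro σ hσ
        apply hball
        rw [Metric.mem_closedBall, dist_eq_norm, add_sub_cancel_left, norm_smul, Real.norm_eq_abs,
          abs_mul, abs_of_pos hρ]
        calc |σ| * ρ * ‖e‖ ≤ 1 * ρ * 1 := by gcongr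
          _ = ρ := by ring
      constructor
      · have : AffineMap.homothety x0 (1 - s) y + t • e =
            (1 - s) • y + s • (x0 + ((1 : ℝ) * ρ) • e) := by
          rw [AffineMap.homothety_apply, hts]
          simp only [vsub_eq_sub, vadd_eq_add]
          module
        rw [this]
        exact hKc hy (hb 1 (by simp)) (by linarith) hs0 (by ring)
      · have : AffineMap.homothety x0 (1 - s) y - t • e =
            (1 - s) • y + s • (x0 + ((-1 : ℝ) * ρ) • e) := by
          rw [AffineMap.homothety_apply, hts]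
          simp only [vsub_eq_sub, vadd_eq_add]
          module
        rw [this]
        exact hKc hy (hb (-1) (by simp)) (by linarith) hs0 (by ring)
    have hi_sub := inn_subset hKc e t
    have hm : MeasurableSet (inn K e t) := (inn_closed hK.isClosed e t).measurableSet
    rw [measureReal_sdiff hi_sub hm hfin]
    have hvol : (1 - s) ^ d * volume.real K ≤ volume.real (inn K e t) := by
      have h2 : volume.real (AffineMap.homothety x0 (1 - s) '' K) ≤ volume.real (inn K e t) :=
        measureReal_mono hsub (ne_top_of_le_ne_top hfin (measure_mono hi_sub))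
      rw [measureReal_def, Measure.addHaar_image_homothety, ENNReal.toReal_mul,
        ENNReal.toReal_ofReal (abs_nonneg _), finrank_euclideanSpace, Fintype.card_fin,
        abs_of_nonneg (pow_nonneg (by linarith) _)] at h2
      exact h2
    have hbern : 1 - d * s ≤ (1 - s) ^ d := by
      have := one_add_mul_le_pow (show (-2 : ℝ) ≤ -s by linarith) d
      calc 1 - d * s = 1 + d * -s := by ring
        _ ≤ (1 + -s) ^ d := this
        _ = (1 - s) ^ d := by ring
    calc volume.real K - volume.real (inn K e t) ≤ volume.real K - (1 - s) ^ d * volume.real K := by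
          linarith
      _ ≤ volume.real K - (1 - d * s) * volume.real K := by gcongr
      _ = d * volume.real K * s := by ring
      _ ≤ (d + 1) * volume.real K * s := by gcongr; linarith
      _ = (d + 1) * volume.real K / ρ * t := by rw [hs]; ring

section secdiff

variable {d : ℕ} {K : Set (E d)} {e : E d} {t B C : ℝ}

theorem integrableOn_inn (hK : IsCompact K) (hKc : Convex ℝ K) {f : E d → ℝ}
    (hf : Continuous f) : IntegrableOn f (inn K e t) := by
  have hc : IsCompact (inn K e t) :=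
    hK.of_isClosed_subset (inn_closed hK.isClosed e t) (inn_subset hKc e t)
  exact hf.continuousOn.integrableOn_compact hc

theorem second_diff (hK : IsCompact K) (hKc : Convex ℝ K)
    (hC : volume.real (K \ inn K e t) ≤ C * t) (hBt : 0 ≤ B * t) {v : E d → ℝ} (hv : Continuous v)
    (hD : ∀ x ∈ K, x + t • e ∈ K → |v (x + t • e) - v x| ≤ B * t) :
    ∫ x in inn K e t, (v (x + t • e) + v (x - t • e) - 2 * v x) ≤ 2 * B * C * t ^ 2 := by
  obtain ⟨D, hDdef⟩ : ∃ D : E d → ℝ, D = fun x => v (x + t • e) - v x := ⟨_, rfl⟩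
  have hDc : Continuous D := by rw [hDdef]; fun_prop
  obtain ⟨A, hA⟩ : ∃ A, A = inn K e t := ⟨_, rfl⟩
  obtain ⟨A', hA'⟩ : ∃ A', A' = (fun x : E d => x + t • e) ⁻¹' A := ⟨_, rfl⟩
  have hfin : volume K ≠ ∞ := hK.measure_lt_top.ne
  have hAc : IsClosed A := by rw [hA]; exact inn_closed hK.isClosed e t
  have hA'c : IsClosed A' := by
    rw [hA']; exact hAc.preimage (by fun_prop : Continuous fun x : E d => x + t • e)
  have hAK : A ⊆ K := by rw [hA]; exact inn_subset hKc e t
  have hA'K : A' ⊆ K := by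
    intro x hx
    rw [hA', hA] at hx
    have := hx.2
    simpa using this
  have hAcomp : IsCompact A := hK.of_isClosed_subset hAc hAK
  have hA'comp : IsCompact A' := hK.of_isClosed_subset hA'c hA'K
  have hvolA : volume A' = volume A := by
    rw [hA']; exact measure_preimage_add_right volume (t • e) A
  have hvolAr : volume.real A' = volume.real A := by
    rw [measureReal_def, measureReal_def, hvolA]
  have e1 : ∫ x in A, (v (x + t • e) + v (x - t • e) - 2 * v x) =
      (∫ x in A, D x) - ∫ x in A, D (x - t • e) := by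
    rw [← integral_sub (hDc.continuousOn.integrableOn_compact hAcomp)
      ((by fun_prop : Continuous fun x => D (x - t • e)).continuousOn.integrableOn_compact hAcomp)]
    refine integral_congr_ae (Filter.Eventually.of_forall fun x => ?_)
    simp only [hDdef, sub_add_cancel]
    ring
  have e2 : ∫ x in A, D (x - t • e) = ∫ x in A', D x := by
    have h1 : MeasurePreserving (fun x : E d => x - t • e) volume volume :=
      measurePreserving_sub_right volume (t • e)
    have h2 : MeasurableEmbedding (fun x : E d => x - t • e) :=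
      (MeasurableEquiv.subRight (t • e)).measurableEmbedding
    have h3 : (fun x : E d => x - t • e) ⁻¹' A' = A := by
      rw [hA']
      ext x
      simp
    rw [← h1.setIntegral_preimage_emb h2 D A', h3]
  have hb1 : ∀ x ∈ A, |D x| ≤ B * t := by
    intro x hx
    rw [hDdef]
    have hxK := hAK hx
    rw [hA] at hx
    exact hD x hxK hx.1
  have hb2 : ∀ x ∈ A', |D x| ≤ B * t := by
    intro x hx
    rw [hDdef]
    have hxK := hA'K hx
    rw [hA'] at hx
    exact hD x hxK (hAK hx)
  have m1 : volume.real (A \ A') ≤ C * t := by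
    calc volume.real (A \ A') ≤ volume.real (K \ A') :=
          measureReal_mono (sdiff_subset_sdiff_left hAK)
            (ne_top_of_le_ne_top hfin (measure_mono sdiff_subset))
      _ = volume.real K - volume.real A' := measureReal_sdiff hA'K hA'c.measurableSet hfin
      _ = volume.real K - volume.real A := by rw [hvolAr]
      _ = volume.real (K \ A) := (measureReal_sdiff hAK hAc.measurableSet hfin).symm
      _ ≤ C * t := by rw [hA]; exact hC
  have m2 : volume.real (A' \ A) ≤ C * t := by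
    calc volume.real (A' \ A) ≤ volume.real (K \ A) :=
          measureReal_mono (sdiff_subset_sdiff_left hA'K)
            (ne_top_of_le_ne_top hfin (measure_mono sdiff_subset))
      _ ≤ C * t := by rw [hA]; exact hC
  rw [← hA, e1, e2, ← integral_inter_add_sdiff hA'c.measurableSet
      (hDc.continuousOn.integrableOn_compact hAcomp),
    ← integral_inter_add_sdiff (s := A') hAc.measurableSet
      (hDc.continuousOn.integrableOn_compact hA'comp), inter_comm A' A]
  have n1 := norm_setIntegral_le_of_norm_le_const (μ := volume) (s := A \ A') (f := D) (C := B * t)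
    (lt_of_le_of_lt (measure_mono (sdiff_subset.trans hAK)) hK.measure_lt_top)
    (fun x hx => hb1 x hx.1)
  have n2 := norm_setIntegral_le_of_norm_le_const (μ := volume) (s := A' \ A) (f := D) (C := B * t)
    (lt_of_le_of_lt (measure_mono (sdiff_subset.trans hA'K)) hK.measure_lt_top)
    (fun x hx => hb2 x hx.1)
  rw [Real.norm_eq_abs] at n1 n2
  have n1' := le_trans (le_abs_self _) (n1.trans (mul_le_mul_of_nonneg_left m1 hBt))
  have n2' := le_trans (neg_le_abs _) (n2.trans (mul_le_mul_of_nonneg_left m2 hBt))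
  nlinarith [n1', n2']

theorem translate_le (hK : IsCompact K) {f : E d → ℝ} (hf : Continuous f) (hf0 : ∀ x, 0 ≤ f x)
    {A : Set (E d)} (a : E d) (hAK : ∀ x ∈ A, x + a ∈ K) :
    ∫ x in A, f (x + a) ≤ ∫ x in K, f x := by
  have h1 : MeasurePreserving (fun x : E d => x + a) volume volume :=
    measurePreserving_add_right volume a
  have h2 : MeasurableEmbedding (fun x : E d => x + a) :=
    (MeasurableEquiv.addRight a).measurableEmbedding
  rw [← h1.setIntegral_preimage_emb h2 f K]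
  refine setIntegral_mono_set ?_ (Filter.Eventually.of_forall fun x => hf0 _) ?_
  · exact (h1.integrableOn_comp_preimage h2 (f := f) (s := K)).mpr
      (hf.continuousOn.integrableOn_compact hK)
  · exact Filter.Eventually.of_forall fun x hx => hAK x hx

theorem sq_four {β f0 f1 f2 S m : ℝ} (k1 : β ≤ f1 - f0 + S) (k2 : -β ≤ f2 - f0 + S)
    (h0 : 0 ≤ S) (h1 : S ≤ m) : β ^ 2 ≤ 4 * (f1 ^ 2 + f2 ^ 2 + f0 ^ 2 + m * S) := by
  have k3 : |β| ≤ |f1| + |f2| + |f0| + S := by
    rw [abs_le]
    constructor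
    · linarith [le_abs_self f2, neg_le_abs f0, abs_nonneg f1]
    · linarith [le_abs_self f1, neg_le_abs f0, abs_nonneg f2]
  have k4 : β ^ 2 ≤ (|f1| + |f2| + |f0| + S) ^ 2 := by
    rw [← sq_abs β]
    exact pow_le_pow_left₀ (abs_nonneg _) k3 2
  have k6 : S ^ 2 ≤ m * S := by nlinarith
  have k5 : (|f1| + |f2| + |f0| + S) ^ 2 ≤ 4 * (|f1| ^ 2 + |f2| ^ 2 + |f0| ^ 2 + S ^ 2) := by
    nlinarith [sq_nonneg (|f1| - |f2|), sq_nonneg (|f1| - |f0|), sq_nonneg (|f1| - S),
      sq_nonneg (|f2| - |f0|), sq_nonneg (|f2| - S), sq_nonneg (|f0| - S)]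
  rw [sq_abs, sq_abs, sq_abs] at k5
  linarith

/-- one coordinate of the Gagliardo-Nirenberg inequality -/
theorem GN_coord (hK : IsCompact K) (hKc : Convex ℝ K) (he : ‖e‖ ≤ 1) (ht : 0 < t) (hB : 0 < B)
    (hC : volume.real (K \ inn K e t) ≤ C * t) {u v : E d → ℝ} {p q : E d → E d}
    (hu : Continuous u) (hv : Continuous v) (hp : Measurable p) (hq : Measurable q)
    (hpB : ∀ x ∈ K, ‖p x‖ ≤ B) (hqB : ∀ x ∈ K, ‖q x‖ ≤ B)
    (hup : ∀ x ∈ K, ∀ z ∈ K, u x + ⟪z - x, p x⟫_ℝ ≤ u z)
    (hvq : ∀ x ∈ K, ∀ z ∈ K, v x + ⟪z - x, q x⟫_ℝ ≤ v z) :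
    ∫ x in K, ⟪e, p x - q x⟫_ℝ ^ 2 ≤
      12 * (∫ x in K, (u x - v x) ^ 2) / t ^ 2 + 20 * B ^ 2 * C * t := by
  have inner_le : ∀ y : E d, ‖y‖ ≤ B → |⟪e, y⟫_ℝ| ≤ B := by
    intro y hy
    calc |⟪e, y⟫_ℝ| ≤ ‖e‖ * ‖y‖ := abs_real_inner_le_norm _ _
      _ ≤ 1 * B := by gcongr
      _ = B := one_mul _
  have vlip : ∀ x ∈ K, x + t • e ∈ K → |v (x + t • e) - v x| ≤ B * t := by
    intro x hx hx'
    rw [abs_le]
    constructor
    · have h1 := hvq x hx _ hx'
      rw [add_sub_cancel_left, inner_smul_left] at h1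
      have h2 := (abs_le.mp (inner_le _ (hqB x hx))).1
      simp only [conj_trivial] at h1
      nlinarith
    · have h1 := hvq _ hx' x hx
      rw [sub_add_cancel_left, inner_neg_left, inner_smul_left] at h1
      have h2 := (abs_le.mp (inner_le _ (hqB _ hx'))).2
      simp only [conj_trivial] at h1
      nlinarith
  have hS := second_diff hK hKc hC (by positivity) hv vlip
  obtain ⟨A, hA⟩ : ∃ A, A = inn K e t := ⟨_, rfl⟩
  have hAc : IsClosed A := by rw [hA]; exact inn_closed hK.isClosed e t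
  have hAK : A ⊆ K := by rw [hA]; exact inn_subset hKc e t
  have hAcomp : IsCompact A := hK.of_isClosed_subset hAc hAK
  have hfin : volume K ≠ ∞ := hK.measure_lt_top.ne
  obtain ⟨F, hF⟩ : ∃ F : E d → ℝ, F = fun x => ⟪e, p x - q x⟫_ℝ ^ 2 := ⟨_, rfl⟩
  have hFm : Measurable F := by rw [hF]; fun_prop
  have hFb : ∀ x ∈ K, ‖F x‖ ≤ (2 * B) ^ 2 := by
    intro x hx
    rw [hF, Real.norm_eq_abs, abs_of_nonneg (sq_nonneg _), sq_le_sq, abs_of_pos (by linarith : 0 < 2 * B),
      inner_sub_right]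
    have h1 := inner_le _ (hpB x hx)
    have h2 := inner_le _ (hqB x hx)
    calc |⟪e, p x⟫_ℝ - ⟪e, q x⟫_ℝ| ≤ |⟪e, p x⟫_ℝ| + |⟪e, q x⟫_ℝ| := abs_sub _ _
      _ ≤ 2 * B := by linarith
  have hFi : IntegrableOn F K :=
    Measure.integrableOn_of_bounded hfin hFm.aestronglyMeasurable
      ((ae_restrict_iff' hK.measurableSet).mpr (Filter.Eventually.of_forall hFb))
  obtain ⟨f, hf⟩ : ∃ f : E d → ℝ, f = fun x => (u x - v x) ^ 2 := ⟨_, rfl⟩
  have hfc : Continuous f := by rw [hf]; fun_prop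
  have hf0 : ∀ x, 0 ≤ f x := by intro x; rw [hf]; exact sq_nonneg _
  obtain ⟨S, hSd⟩ : ∃ S : E d → ℝ, S = fun x => v (x + t • e) + v (x - t • e) - 2 * v x :=
    ⟨_, rfl⟩
  have hSc : Continuous S := by rw [hSd]; fun_prop
  rw [← hA, ← hSd] at hS
  have hpt : ∀ x ∈ A, F x ≤ 4 / t ^ 2 * (f (x + t • e) + f (x + -(t • e)) + f x +
      2 * B * t * S x) := by
    intro x hx
    have hxK := hAK hx
    rw [hA] at hx
    obtain ⟨hx1, hx2⟩ := hx
    have a1 := hup x hxK _ hx1
    have a2 := hup x hxK _ hx2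
    have b1 := hvq x hxK _ hx1
    have b2 := hvq x hxK _ hx2
    rw [add_sub_cancel_left, inner_smul_left] at a1 b1
    rw [sub_sub_cancel_left, inner_neg_left, inner_smul_left] at a2 b2
    simp only [conj_trivial] at a1 a2 b1 b2
    have v1 := (abs_le.mp (vlip x hxK hx1)).2
    have v2 := (abs_le.mp (vlip (x - t • e) hx2 (by simpa using hxK))).1
    rw [sub_add_cancel] at v2
    have hS0 : 0 ≤ S x := by rw [hSd]; simp only; linarith
    have hS1 : S x ≤ 2 * B * t := by rw [hSd]; simp only; linarith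
    obtain ⟨α, hα⟩ : ∃ α, α = ⟪e, p x - q x⟫_ℝ := ⟨_, rfl⟩
    have hα' : α = ⟪e, p x⟫_ℝ - ⟪e, q x⟫_ℝ := by rw [hα, inner_sub_right]
    have hFx : F x = α ^ 2 := by rw [hF, hα]
    obtain ⟨f0, hf0'⟩ : ∃ f0, f0 = u x - v x := ⟨_, rfl⟩
    obtain ⟨f1, hf1'⟩ : ∃ f1, f1 = u (x + t • e) - v (x + t • e) := ⟨_, rfl⟩
    obtain ⟨f2, hf2'⟩ : ∃ f2, f2 = u (x - t • e) - v (x - t • e) := ⟨_, rfl⟩
    have k1 : t * α ≤ f1 - f0 + S x := by
      rw [hα', hSd, hf1', hf0']; simp only; linarith
    have k2 : -(t * α) ≤ f2 - f0 + S x := by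
      rw [hα', hSd, hf2', hf0']; simp only; linarith
    have k4 := sq_four k1 k2 hS0 hS1
    have k6 : f (x + t • e) = f1 ^ 2 := by rw [hf, hf1']
    have k7 : f (x + -(t • e)) = f2 ^ 2 := by rw [hf, hf2', ← sub_eq_add_neg]
    have k8 : f x = f0 ^ 2 := by rw [hf, hf0']
    rw [hFx, k6, k7, k8, div_mul_eq_mul_div, le_div_iff₀ (by positivity)]
    rw [mul_comm, ← mul_pow]
    exact k4
  rw [← hF, ← hf]
  rw [← integral_inter_add_sdiff hAc.measurableSet hFi, inter_eq_self_of_subset_right hAK]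
  have t1 : ∫ x in A, F x ≤ 4 / t ^ 2 * ((∫ x in K, f x) + (∫ x in K, f x) + (∫ x in K, f x) +
      2 * B * t * (2 * B * C * t ^ 2)) := by
    have i1 : IntegrableOn (fun x => f (x + t • e)) A :=
      (by fun_prop : Continuous fun x => f (x + t • e)).continuousOn.integrableOn_compact hAcomp
    have i2 : IntegrableOn (fun x => f (x + -(t • e))) A :=
      (by fun_prop : Continuous fun x => f (x + -(t • e))).continuousOn.integrableOn_compact hAcomp
    have i3 : IntegrableOn f A := hfc.continuousOn.integrableOn_compact hAcomp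
    have i4 : IntegrableOn (fun x => 2 * B * t * S x) A :=
      (hSc.continuousOn.integrableOn_compact hAcomp).const_mul _
    calc ∫ x in A, F x ≤ ∫ x in A, 4 / t ^ 2 * (f (x + t • e) + f (x + -(t • e)) + f x +
          2 * B * t * S x) :=
          setIntegral_mono_on (hFi.mono_set hAK) ((((i1.add i2).add i3).add i4).const_mul _)
            hAc.measurableSet hpt
      _ = 4 / t ^ 2 * ((∫ x in A, f (x + t • e)) + (∫ x in A, f (x + -(t • e))) +
            (∫ x in A, f x) + 2 * B * t * ∫ x in A, S x) := by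
          rw [integral_const_mul]
          congr 1
          have j1 : IntegrableOn (fun x => f (x + t • e) + f (x + -(t • e))) A := i1.add i2
          have j2 : IntegrableOn (fun x => f (x + t • e) + f (x + -(t • e)) + f x) A := j1.add i3
          rw [integral_add j2 i4, integral_add j1 i3, integral_add i1 i2, integral_const_mul]
      _ ≤ _ := by
          gcongr
          · refine translate_le hK hfc hf0 _ ?_
            intro x hx
            rw [hA] at hx
            exact hx.1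
          · refine translate_le hK hfc hf0 _ ?_
            intro x hx
            rw [hA] at hx
            rw [← sub_eq_add_neg]
            exact hx.2
          · exact Filter.Eventually.of_forall fun x => hf0 x
          · exact hfc.continuousOn.integrableOn_compact hK
  have t2 : ∫ x in K \ A, F x ≤ (2 * B) ^ 2 * (C * t) := by
    have := norm_setIntegral_le_of_norm_le_const (μ := volume) (s := K \ A) (f := F)
      (C := (2 * B) ^ 2) (lt_of_le_of_lt (measure_mono sdiff_subset) hK.measure_lt_top)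
      (fun x hx => hFb x hx.1)
    rw [hA] at this ⊢
    exact (le_abs_self _).trans (this.trans (mul_le_mul_of_nonneg_left hC (sq_nonneg _)))
  have t3 : 4 / t ^ 2 * ((∫ x in K, f x) + (∫ x in K, f x) + (∫ x in K, f x) +
      2 * B * t * (2 * B * C * t ^ 2)) = 12 * (∫ x in K, f x) / t ^ 2 + 16 * B ^ 2 * C * t := by
    field_simp
    ring
  rw [t3] at t1
  calc (∫ x in A, F x) + ∫ x in K \ A, F x ≤
        (12 * (∫ x in K, f x) / t ^ 2 + 16 * B ^ 2 * C * t) + (2 * B) ^ 2 * (C * t) :=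
        add_le_add t1 t2
    _ = _ := by ring

/-- one coordinate of the quantitative optimality -/
theorem gap_coord (hK : IsCompact K) (hKc : Convex ℝ K) (he : ‖e‖ ≤ 1) (ht : 0 < t) (hB : 0 < B)
    (hC : volume.real (K \ inn K e t) ≤ C * t) {u : E d → ℝ} {p T : E d → E d}
    (hu : Continuous u) (hp : Measurable p) (hT : Measurable T)
    (hpB : ∀ x ∈ K, ‖p x‖ ≤ B) (hTB : ∀ᵐ x ∂(volume.restrict K), ‖T x‖ ≤ B)
    (hup : ∀ x ∈ K, ∀ z ∈ K, u x + ⟪z - x, p x⟫_ℝ ≤ u z) {g : E d → ℝ} (hg : IntegrableOn g K)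
    (hgT : ∀ x ∈ K, ∀ z ∈ K, u x - u z + ⟪z - x, T x⟫_ℝ ≤ g x) :
    ∫ x in K, |⟪e, T x - p x⟫_ℝ| ≤ (∫ x in K, g x) / t + 4 * B * C * t := by
  have inner_le : ∀ y : E d, ‖y‖ ≤ B → |⟪e, y⟫_ℝ| ≤ B := by
    intro y hy
    calc |⟪e, y⟫_ℝ| ≤ ‖e‖ * ‖y‖ := abs_real_inner_le_norm _ _
      _ ≤ 1 * B := by gcongr
      _ = B := one_mul _
  have ulip : ∀ x ∈ K, x + t • e ∈ K → |u (x + t • e) - u x| ≤ B * t := by
    intro x hx hx'
    rw [abs_le]
    constructor
    · have h1 := hup x hx _ hx'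
      rw [add_sub_cancel_left, inner_smul_left] at h1
      have h2 := (abs_le.mp (inner_le _ (hpB x hx))).1
      simp only [conj_trivial] at h1
      nlinarith
    · have h1 := hup _ hx' x hx
      rw [sub_add_cancel_left, inner_neg_left, inner_smul_left] at h1
      have h2 := (abs_le.mp (inner_le _ (hpB _ hx'))).2
      simp only [conj_trivial] at h1
      nlinarith
  have hS := second_diff hK hKc hC (by positivity) hu ulip
  obtain ⟨A, hA⟩ : ∃ A, A = inn K e t := ⟨_, rfl⟩
  have hAc : IsClosed A := by rw [hA]; exact inn_closed hK.isClosed e t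
  have hAK : A ⊆ K := by rw [hA]; exact inn_subset hKc e t
  have hAcomp : IsCompact A := hK.of_isClosed_subset hAc hAK
  have hfin : volume K ≠ ∞ := hK.measure_lt_top.ne
  obtain ⟨F, hF⟩ : ∃ F : E d → ℝ, F = fun x => |⟪e, T x - p x⟫_ℝ| := ⟨_, rfl⟩
  have hFm : Measurable F := by
    rw [hF]
    have : Measurable fun x => ⟪e, T x - p x⟫_ℝ := by fun_prop
    exact this.abs
  have hFb : ∀ᵐ x ∂(volume.restrict K), ‖F x‖ ≤ 2 * B := by
    rw [ae_restrict_iff' hK.measurableSet] at hTB ⊢
    filter_upwards [hTB] with x hTx hx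
    rw [hF, Real.norm_eq_abs, abs_abs, inner_sub_right]
    have h1 := inner_le _ (hTx hx)
    have h2 := inner_le _ (hpB x hx)
    calc |⟪e, T x⟫_ℝ - ⟪e, p x⟫_ℝ| ≤ |⟪e, T x⟫_ℝ| + |⟪e, p x⟫_ℝ| := abs_sub _ _
      _ ≤ 2 * B := by linarith
  have hFi : IntegrableOn F K := Measure.integrableOn_of_bounded hfin hFm.aestronglyMeasurable hFb
  obtain ⟨S, hSd⟩ : ∃ S : E d → ℝ, S = fun x => u (x + t • e) + u (x - t • e) - 2 * u x :=
    ⟨_, rfl⟩
  have hSc : Continuous S := by rw [hSd]; fun_prop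
  rw [← hA, ← hSd] at hS
  have hpt : ∀ x ∈ A, F x ≤ 1 / t * (g x + S x) := by
    intro x hx
    have hxK := hAK hx
    rw [hA] at hx
    obtain ⟨hx1, hx2⟩ := hx
    have a1 := hup x hxK _ hx1
    have a2 := hup x hxK _ hx2
    have b1 := hgT x hxK _ hx1
    have b2 := hgT x hxK _ hx2
    rw [add_sub_cancel_left, inner_smul_left] at a1 b1
    rw [sub_sub_cancel_left, inner_neg_left, inner_smul_left] at a2 b2
    simp only [conj_trivial] at a1 a2 b1 b2
    rw [hF, hSd, one_div, inv_mul_eq_div, le_div_iff₀ ht]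
    simp only
    rw [inner_sub_right]
    rcases abs_cases (⟪e, T x⟫_ℝ - ⟪e, p x⟫_ℝ) with ⟨h, -⟩ | ⟨h, -⟩
    · rw [h]; nlinarith
    · rw [h]; nlinarith
  have hg0 : ∀ x ∈ K, 0 ≤ g x := by
    intro x hx
    have := hgT x hx x hx
    simpa using this
  rw [← hF]
  rw [← integral_inter_add_sdiff hAc.measurableSet hFi, inter_eq_self_of_subset_right hAK]
  have i4 : IntegrableOn S A := hSc.continuousOn.integrableOn_compact hAcomp
  have i5 : IntegrableOn g A := hg.mono_set hAK
  have t1 : ∫ x in A, F x ≤ 1 / t * ((∫ x in K, g x) + 2 * B * C * t ^ 2) := by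
    calc ∫ x in A, F x ≤ ∫ x in A, 1 / t * (g x + S x) :=
          setIntegral_mono_on (hFi.mono_set hAK) ((i5.add i4).const_mul _) hAc.measurableSet hpt
      _ = 1 / t * ((∫ x in A, g x) + ∫ x in A, S x) := by
          rw [integral_const_mul, integral_add i5 i4]
      _ ≤ _ := by
          gcongr
          rw [Filter.EventuallyLE, ae_restrict_iff' hK.measurableSet]
          exact Filter.Eventually.of_forall fun x hx => hg0 x hx
  have t2 : ∫ x in K \ A, F x ≤ (2 * B) * (C * t) := by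
    have := norm_setIntegral_le_of_norm_le_const_ae' (μ := volume) (s := K \ A) (f := F)
      (C := 2 * B) (lt_of_le_of_lt (measure_mono sdiff_subset) hK.measure_lt_top)
      (by
        rw [ae_restrict_iff' hK.measurableSet] at hFb
        filter_upwards [hFb] with x hx hx'
        exact hx hx'.1)
    rw [hA] at this ⊢
    exact (le_abs_self _).trans (this.trans (mul_le_mul_of_nonneg_left hC (by positivity)))
  have t3 : 1 / t * ((∫ x in K, g x) + 2 * B * C * t ^ 2) = (∫ x in K, g x) / t + 2 * B * C * t := by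
    field_simp
  rw [t3] at t1
  calc (∫ x in A, F x) + ∫ x in K \ A, F x ≤
        ((∫ x in K, g x) / t + 2 * B * C * t) + (2 * B) * (C * t) := add_le_add t1 t2
    _ = _ := by ring

end secdiff

/-- A Gagliardo-Nirenberg type inequality for the difference of two convex functions:
`p`, `q` are subgradient selections of `u`, `v` on `K`. -/
theorem convex_GN {d : ℕ} {K : Set (E d)} (hK : IsCompact K) (hKc : Convex ℝ K)
    (hKi : (interior K).Nonempty) (B : ℝ) (hB : 0 < B) :
    ∃ C : ℝ, 0 < C ∧ ∀ (u v : E d → ℝ) (p q : E d → E d), Continuous u → Continuous v →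
      Measurable p → Measurable q → (∀ x ∈ K, ‖p x‖ ≤ B) → (∀ x ∈ K, ‖q x‖ ≤ B) →
      (∀ x ∈ K, ∀ z ∈ K, u x + ⟪z - x, p x⟫_ℝ ≤ u z) →
      (∀ x ∈ K, ∀ z ∈ K, v x + ⟪z - x, q x⟫_ℝ ≤ v z) →
      ∫ x in K, ‖p x - q x‖ ^ 2 ≤ C * (∫ x in K, (u x - v x) ^ 2) ^ (1 / 3 : ℝ) := by
  obtain ⟨C, hC, hCi⟩ := inner_parallel hK hKc hKi
  refine ⟨(d + 1) * (12 + 20 * B ^ 2 * C), by positivity, ?_⟩
  intro u v p q hu hv hp hq hpB hqB hup hvq
  have hfin : volume K ≠ ∞ := hK.measure_lt_top.ne
  obtain ⟨G, hG⟩ : ∃ G, G = ∫ x in K, (u x - v x) ^ 2 := ⟨_, rfl⟩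
  have hG0 : 0 ≤ G := by
    rw [hG]; exact integral_nonneg fun x => sq_nonneg _
  obtain ⟨X, hX⟩ : ∃ X, X = ∫ x in K, ‖p x - q x‖ ^ 2 := ⟨_, rfl⟩
  have key : ∀ t : ℝ, 0 < t → X ≤ d * (12 * G / t ^ 2 + 20 * B ^ 2 * C * t) := by
    intro t ht
    have h1 : ∀ x, ‖p x - q x‖ ^ 2 = ∑ j : Fin d, ⟪EuclideanSpace.single j (1 : ℝ), p x - q x⟫_ℝ ^ 2 := by
      intro x
      rw [EuclideanSpace.norm_sq_eq]
      refine Finset.sum_congr rfl fun j _ => ?_
      rw [EuclideanSpace.inner_single_left]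
      simp
    have hint : ∀ j ∈ (Finset.univ : Finset (Fin d)), IntegrableOn (fun x =>
        ⟪EuclideanSpace.single j (1 : ℝ), p x - q x⟫_ℝ ^ 2) K := by
      intro j _
      refine Measure.integrableOn_of_bounded hfin
        (by fun_prop : Measurable fun x => ⟪EuclideanSpace.single j (1 : ℝ), p x - q x⟫_ℝ ^ 2).aestronglyMeasurable
        (M := (2 * B) ^ 2) ?_
      rw [ae_restrict_iff' hK.measurableSet]
      refine Filter.Eventually.of_forall fun x hx => ?_
      rw [Real.norm_eq_abs, abs_of_nonneg (sq_nonneg _), sq_le_sq,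
        abs_of_pos (by linarith : 0 < 2 * B)]
      calc |⟪EuclideanSpace.single j (1 : ℝ), p x - q x⟫_ℝ| ≤
            ‖(EuclideanSpace.single j (1 : ℝ) : E d)‖ * ‖p x - q x‖ := abs_real_inner_le_norm _ _
        _ ≤ 1 * (‖p x‖ + ‖q x‖) := by
            rw [PiLp.norm_single, norm_one]
            gcongr
            exact norm_sub_le _ _
        _ ≤ 2 * B := by linarith [hpB x hx, hqB x hx]
    rw [hX]
    simp only [h1]
    rw [integral_finsetSum _ hint]
    calc ∑ j : Fin d, ∫ x in K, ⟪EuclideanSpace.single j (1 : ℝ), p x - q x⟫_ℝ ^ 2 ≤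
          ∑ _j : Fin d, (12 * G / t ^ 2 + 20 * B ^ 2 * C * t) := by
          refine Finset.sum_le_sum fun j _ => ?_
          rw [hG]
          have he : ‖(EuclideanSpace.single j (1 : ℝ) : E d)‖ ≤ 1 := by simp
          exact GN_coord hK hKc he ht hB (hCi _ he t ht.le) hu hv hp hq hpB hqB hup hvq
      _ = _ := by rw [Finset.sum_const, Finset.card_univ, Fintype.card_fin, nsmul_eq_mul]
  rw [← hX, ← hG]
  rcases hG0.eq_or_lt with h0 | h0
  · rw [← h0, Real.zero_rpow (by norm_num), mul_zero]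
    rw [← h0] at key
    by_contra hcon
    push Not at hcon
    have h2 : (d : ℝ) * (20 * B ^ 2 * C) * (X / (2 * (d * (20 * B ^ 2 * C) + 1))) < X := by
      rw [mul_div_assoc', div_lt_iff₀ (by positivity)]
      nlinarith [(by positivity : 0 ≤ (d : ℝ) * (20 * B ^ 2 * C))]
    have h3 := key (X / (2 * (d * (20 * B ^ 2 * C) + 1))) (by positivity)
    rw [mul_zero, zero_div, zero_add] at h3
    linarith
  · have ht : 0 < G ^ (1 / 3 : ℝ) := Real.rpow_pos_of_pos h0 _
    have h1 := key _ ht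
    have h2 : G / (G ^ (1 / 3 : ℝ)) ^ 2 = G ^ (1 / 3 : ℝ) := by
      rw [div_eq_iff (by positivity)]
      have : G ^ (1 / 3 : ℝ) * (G ^ (1 / 3 : ℝ)) ^ 2 = (G ^ (1 / 3 : ℝ)) ^ 3 := by ring
      rw [this, ← Real.rpow_natCast, ← Real.rpow_mul h0.le]
      norm_num
    calc X ≤ d * (12 * G / (G ^ (1 / 3 : ℝ)) ^ 2 + 20 * B ^ 2 * C * G ^ (1 / 3 : ℝ)) := h1
      _ = d * (12 + 20 * B ^ 2 * C) * G ^ (1 / 3 : ℝ) := by
          rw [mul_div_assoc, h2]; ring
      _ ≤ (d + 1) * (12 + 20 * B ^ 2 * C) * G ^ (1 / 3 : ℝ) := by gcongr; linarith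

/-- Quantitative optimality: if `g x ≥ u x + u*(T x) - ⟨x, T x⟩` (with `u*` computed on `K`)
then `‖T - p‖_{L¹} ≤ C (∫ g)^{1/2}`. -/
theorem gap_bound {d : ℕ} {K : Set (E d)} (hK : IsCompact K) (hKc : Convex ℝ K)
    (hKi : (interior K).Nonempty) (B : ℝ) (hB : 0 < B) :
    ∃ C : ℝ, 0 < C ∧ ∀ (u : E d → ℝ) (p T : E d → E d), Continuous u →
      Measurable p → Measurable T → (∀ x ∈ K, ‖p x‖ ≤ B) →
      (∀ᵐ x ∂(volume.restrict K), ‖T x‖ ≤ B) →
      (∀ x ∈ K, ∀ z ∈ K, u x + ⟪z - x, p x⟫_ℝ ≤ u z) →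
      ∀ g : E d → ℝ, IntegrableOn g K →
      (∀ x ∈ K, ∀ z ∈ K, u x - u z + ⟪z - x, T x⟫_ℝ ≤ g x) →
      ∫ x in K, ‖T x - p x‖ ≤ C * √(∫ x in K, g x) := by
  obtain ⟨C, hC, hCi⟩ := inner_parallel hK hKc hKi
  refine ⟨(d + 1) * (1 + 4 * B * C), by positivity, ?_⟩
  intro u p T hu hp hT hpB hTB hup g hg hgT
  have hfin : volume K ≠ ∞ := hK.measure_lt_top.ne
  obtain ⟨G, hG⟩ : ∃ G, G = ∫ x in K, g x := ⟨_, rfl⟩
  have hG0 : 0 ≤ G := by
    rw [hG]
    refine setIntegral_nonneg hK.measurableSet fun x hx => ?_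
    have := hgT x hx x hx
    simpa using this
  obtain ⟨X, hX⟩ : ∃ X, X = ∫ x in K, ‖T x - p x‖ := ⟨_, rfl⟩
  have hbd : ∀ᵐ x ∂(volume.restrict K), ‖T x - p x‖ ≤ 2 * B := by
    rw [ae_restrict_iff' hK.measurableSet] at hTB ⊢
    filter_upwards [hTB] with x hTx hx
    calc ‖T x - p x‖ ≤ ‖T x‖ + ‖p x‖ := norm_sub_le _ _
      _ ≤ 2 * B := by linarith [hTx hx, hpB x hx]
  have key : ∀ t : ℝ, 0 < t → X ≤ d * (G / t + 4 * B * C * t) := by
    intro t ht
    have h1 : ∀ x, ‖T x - p x‖ ≤ ∑ j : Fin d, |⟪EuclideanSpace.single j (1 : ℝ), T x - p x⟫_ℝ| := by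
      intro x
      have e1 : T x - p x = ∑ j : Fin d, ((T x - p x) j) • EuclideanSpace.single j (1 : ℝ) := by
        ext i
        simp [Finset.sum_apply, Pi.single_apply]
      calc ‖T x - p x‖ = ‖∑ j : Fin d, ((T x - p x) j) • EuclideanSpace.single j (1 : ℝ)‖ := by
            rw [← e1]
        _ ≤ ∑ j : Fin d, ‖((T x - p x) j) • (EuclideanSpace.single j (1 : ℝ) : E d)‖ :=
            norm_sum_le _ _
        _ = _ := by
            refine Finset.sum_congr rfl fun j _ => ?_
            rw [norm_smul, PiLp.norm_single, norm_one, mul_one, Real.norm_eq_abs,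
              EuclideanSpace.inner_single_left]
            simp
    have hint : ∀ j ∈ (Finset.univ : Finset (Fin d)), IntegrableOn (fun x =>
        |⟪EuclideanSpace.single j (1 : ℝ), T x - p x⟫_ℝ|) K := by
      intro j _
      refine Measure.integrableOn_of_bounded hfin
        (by fun_prop : Measurable fun x => ⟪EuclideanSpace.single j (1 : ℝ), T x - p x⟫_ℝ).abs.aestronglyMeasurable
        (M := 2 * B) ?_
      filter_upwards [hbd] with x hx
      rw [Real.norm_eq_abs, abs_abs]
      calc |⟪EuclideanSpace.single j (1 : ℝ), T x - p x⟫_ℝ| ≤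
            ‖(EuclideanSpace.single j (1 : ℝ) : E d)‖ * ‖T x - p x‖ := abs_real_inner_le_norm _ _
        _ ≤ 1 * (2 * B) := by
            rw [PiLp.norm_single, norm_one]
            gcongr
        _ = 2 * B := one_mul _
    have hintn : IntegrableOn (fun x => ‖T x - p x‖) K :=
      Measure.integrableOn_of_bounded hfin (hT.sub hp).norm.aestronglyMeasurable (M := 2 * B)
        (by simpa using hbd)
    rw [hX]
    calc ∫ x in K, ‖T x - p x‖ ≤
          ∫ x in K, ∑ j : Fin d, |⟪EuclideanSpace.single j (1 : ℝ), T x - p x⟫_ℝ| :=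
          integral_mono hintn (integrable_finsetSum _ hint) h1
      _ = ∑ j : Fin d, ∫ x in K, |⟪EuclideanSpace.single j (1 : ℝ), T x - p x⟫_ℝ| :=
          integral_finsetSum _ hint
      _ ≤ ∑ _j : Fin d, (G / t + 4 * B * C * t) := by
          refine Finset.sum_le_sum fun j _ => ?_
          rw [hG]
          have he : ‖(EuclideanSpace.single j (1 : ℝ) : E d)‖ ≤ 1 := by simp
          exact gap_coord hK hKc he ht hB (hCi _ he t ht.le) hu hp hT hpB hTB hup hg hgT
      _ = _ := by rw [Finset.sum_const, Finset.card_univ, Fintype.card_fin, nsmul_eq_mul]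
  rw [← hX, ← hG]
  rcases hG0.eq_or_lt with h0 | h0
  · rw [← h0, Real.sqrt_zero, mul_zero]
    rw [← h0] at key
    by_contra hcon
    push Not at hcon
    have h2 : (d : ℝ) * (4 * B * C) * (X / (2 * (d * (4 * B * C) + 1))) < X := by
      rw [mul_div_assoc', div_lt_iff₀ (by positivity)]
      nlinarith [(by positivity : 0 ≤ (d : ℝ) * (4 * B * C))]
    have h3 := key (X / (2 * (d * (4 * B * C) + 1))) (by positivity)
    rw [zero_div, zero_add] at h3
    linarith
  · have ht : 0 < √G := Real.sqrt_pos.mpr h0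
    have h1 := key _ ht
    calc X ≤ d * (G / √G + 4 * B * C * √G) := h1
      _ = d * (1 + 4 * B * C) * √G := by
          rw [Real.div_sqrt]; ring
      _ ≤ (d + 1) * (1 + 4 * B * C) * √G := by gcongr; linarith

end Vale.Agent.P074
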