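import Vale.Agent.P074.Sel
import Vale.Agent.P074.GN
import Vale.Agent.P074.Comp

open MeasureTheory Set
open scoped ENNReal NNReal InnerProductSpace

namespace Vale.Agent.P074

variable {d : ℕ}

/-- The convex conjugate computed over `K`. -/
noncomputable def conj (K : Set (E d)) (u : E d → ℝ) (w : E d) : ℝ :=
  sSup ((fun z => ⟪z, w⟫_ℝ - u z) '' K)

theorem bddAbove_conj {K : Set (E d)} (hK : IsCompact K) {u : E d → ℝ} (hu : Continuous u)
    (w : E d) : BddAbove ((fun z => ⟪z, w⟫_ℝ - u z) '' K) := by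
  apply (hK.image_of_continuousOn _).bddAbove
  fun_prop

theorem le_conj {K : Set (E d)} (hK : IsCompact K) {u : E d → ℝ} (hu : Continuous u)
    (w : E d) {z : E d} (hz : z ∈ K) : ⟪z, w⟫_ℝ - u z ≤ conj K u w :=
  le_csSup (bddAbove_conj hK hu w) ⟨z, hz, rfl⟩

theorem conj_le {K : Set (E d)} (hKn : K.Nonempty) {u : E d → ℝ}
    {w : E d} {c : ℝ} (h : ∀ z ∈ K, ⟪z, w⟫_ℝ - u z ≤ c) : conj K u w ≤ c := by
  apply csSup_le (hKn.image _)
  rintro _ ⟨z, hz, rfl⟩
  exact h z hz

theorem conj_lip {K : Set (E d)} (hK : IsCompact K) (hKn : K.Nonempty) {u : E d → ℝ}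
    (hu : Continuous u) {R : ℝ} (hKR : ∀ x ∈ K, ‖x‖ ≤ R) (w w' : E d) :
    conj K u w ≤ conj K u w' + R * ‖w - w'‖ := by
  apply conj_le hKn
  intro z hz
  have h1 := le_conj hK hu w' hz
  have h2 : ⟪z, w⟫_ℝ - ⟪z, w'⟫_ℝ ≤ R * ‖w - w'‖ := by
    rw [← inner_sub_right]
    exact (real_inner_le_norm _ _).trans (mul_le_mul_of_nonneg_right (hKR z hz) (norm_nonneg _))
  linarith

theorem continuous_conj {K : Set (E d)} (hK : IsCompact K) (hKn : K.Nonempty) {u : E d → ℝ}
    (hu : Continuous u) {R : ℝ} (hR : 0 < R) (hKR : ∀ x ∈ K, ‖x‖ ≤ R) :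
    Continuous (conj K u) := by
  have : LipschitzWith ⟨R, hR.le⟩ (conj K u) := by
    apply LipschitzWith.of_dist_le_mul
    intro w w'
    rw [Real.dist_eq, dist_eq_norm, abs_sub_le_iff]
    have h1 := conj_lip hK hKn hu hKR w w'
    have h2 := conj_lip hK hKn hu hKR w' w
    rw [norm_sub_rev] at h2
    constructor
    · show conj K u w - conj K u w' ≤ R * ‖w - w'‖
      linarith
    · show conj K u w' - conj K u w ≤ R * ‖w - w'‖
      linarith
  exact this.continuous

theorem volume_pos_of_interior {K : Set (E d)} (hKi : (interior K).Nonempty) :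
    0 < volume K :=
  lt_of_lt_of_le (isOpen_interior.measure_pos volume hKi) (measure_mono interior_subset)

theorem lintegral_unif {K : Set (E d)} (f : E d → ℝ≥0∞) :
    ∫⁻ x, f x ∂(unif K) = (volume K)⁻¹ * ∫⁻ x in K, f x := by
  unfold unif
  rw [lintegral_smul_measure, smul_eq_mul]

theorem integral_unif {K : Set (E d)} (f : E d → ℝ) :
    ∫ x, f x ∂(unif K) = (volume K)⁻¹.toReal * ∫ x in K, f x := by
  unfold unif
  rw [integral_smul_measure, smul_eq_mul]

theorem law_eq {K : Set (E d)} (hK : IsCompact K) (hKi : (interior K).Nonempty)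
    {T S : E d → E d} (hT : Measurable T) (hS : Measurable S)
    (h : (unif K).map T = (unif K).map S) {f : E d → ℝ} (hf : Continuous f) :
    ∫ x in K, f (T x) = ∫ x in K, f (S x) := by
  have h1 : ∫ x, f (T x) ∂(unif K) = ∫ x, f (S x) ∂(unif K) := by
    rw [← integral_map hT.aemeasurable hf.aestronglyMeasurable, h,
      integral_map hS.aemeasurable hf.aestronglyMeasurable]
  rw [integral_unif, integral_unif] at h1
  have hv := volume_pos_of_interior hKi
  have hv' := hK.measure_lt_top (μ := volume)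
  have hne : (volume K)⁻¹.toReal ≠ 0 := by
    rw [ENNReal.toReal_ne_zero]
    exact ⟨ENNReal.inv_ne_zero.2 hv'.ne, ENNReal.inv_ne_top.2 hv.ne'⟩
  exact mul_left_cancel₀ hne h1

theorem ae_of_law {K : Set (E d)} (hK : IsCompact K) (hKi : (interior K).Nonempty)
    {T : E d → E d} (hT : Measurable T) {μ : Measure (E d)} (h : (unif K).map T = μ)
    {A : Set (E d)} (hA : MeasurableSet A) (hμ : μ Aᶜ = 0) :
    ∀ᵐ x ∂(volume.restrict K), T x ∈ A := by
  rw [← h, Measure.map_apply hT hA.compl] at hμ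
  unfold unif at hμ
  rw [Measure.smul_apply, smul_eq_mul, mul_eq_zero] at hμ
  have hv' := hK.measure_lt_top (μ := volume)
  rcases hμ with h0 | h0
  · exact absurd h0 (ENNReal.inv_ne_zero.2 hv'.ne)
  · exact h0

theorem opt_real {K : Set (E d)} (hK : IsCompact K) (hKi : (interior K).Nonempty)
    {R : ℝ} (hKR : ∀ x ∈ K, ‖x‖ ≤ R) {B : ℝ}
    {T S : E d → E d} {μ : Measure (E d)} (hT : IsOptMap (unif K) μ T) (hS : Measurable S)
    (hSμ : (unif K).map S = μ) (hTB : ∀ᵐ x ∂(volume.restrict K), ‖T x‖ ≤ B)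
    (hSB : ∀ᵐ x ∂(volume.restrict K), ‖S x‖ ≤ B) :
    ∫ x in K, ⟪x, S x⟫_ℝ ≤ ∫ x in K, ⟪x, T x⟫_ℝ := by
  haveI hfin : IsFiniteMeasure (volume.restrict K) :=
    ⟨by simpa using hK.measure_lt_top⟩
  have hKm : ∀ᵐ x ∂(volume.restrict K), x ∈ K := ae_restrict_mem hK.isClosed.measurableSet
  have hB0 : ∀ {U : E d → E d}, Measurable U → (∀ᵐ x ∂(volume.restrict K), ‖U x‖ ≤ B) →
      Integrable (fun x => ‖U x‖ ^ 2) (volume.restrict K) ∧
      Integrable (fun x => ⟪x, U x⟫_ℝ) (volume.restrict K) ∧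
      Integrable (fun x => ‖x - U x‖ ^ 2) (volume.restrict K) := by
    intro U hU hUB
    have i1 : Integrable (fun x => ‖U x‖ ^ 2) (volume.restrict K) := by
      refine Integrable.of_bound (by fun_prop) (B ^ 2) ?_
      filter_upwards [hUB] with x hx
      rw [Real.norm_of_nonneg (by positivity)]
      exact pow_le_pow_left₀ (norm_nonneg _) hx 2
    have i2 : Integrable (fun x => ⟪x, U x⟫_ℝ) (volume.restrict K) := by
      refine Integrable.of_bound (by fun_prop) (R * B) ?_
      filter_upwards [hUB, hKm] with x hx hxK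
      exact (norm_inner_le_norm _ _).trans
        (mul_le_mul (hKR x hxK) hx (norm_nonneg _) ((norm_nonneg _).trans (hKR x hxK)))
    have i3 : Integrable (fun x => ‖x - U x‖ ^ 2) (volume.restrict K) := by
      refine Integrable.of_bound (by fun_prop) ((R + B) ^ 2) ?_
      filter_upwards [hUB, hKm] with x hx hxK
      rw [Real.norm_of_nonneg (by positivity)]
      exact pow_le_pow_left₀ (norm_nonneg _) ((norm_sub_le _ _).trans
        (add_le_add (hKR x hxK) hx)) 2
    exact ⟨i1, i2, i3⟩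
  obtain ⟨t1, t2, t3⟩ := hB0 hT.meas hTB
  obtain ⟨s1, s2, s3⟩ := hB0 hS hSB
  have hmin := hT.minimal S hS hSμ
  rw [lintegral_unif, lintegral_unif] at hmin
  have hv := volume_pos_of_interior hKi
  have hv' := hK.measure_lt_top (μ := volume)
  have hmin2 := (ENNReal.mul_le_mul_iff_right (ENNReal.inv_ne_zero.2 hv'.ne)
    (ENNReal.inv_ne_top.2 hv.ne')).1 hmin
  rw [← ofReal_integral_eq_lintegral_ofReal t3 (ae_of_all _ fun x => by positivity),
    ← ofReal_integral_eq_lintegral_ofReal s3 (ae_of_all _ fun x => by positivity)] at hmin2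
  have hmin3 := (ENNReal.ofReal_le_ofReal_iff (integral_nonneg fun x => by positivity)).1 hmin2
  have hx2 : Integrable (fun x : E d => ‖x‖ ^ 2) (volume.restrict K) := by
    refine Integrable.of_bound (by fun_prop) (R ^ 2) ?_
    filter_upwards [hKm] with x hxK
    rw [Real.norm_of_nonneg (by positivity)]
    exact pow_le_pow_left₀ (norm_nonneg _) (hKR x hxK) 2
  have ex : ∀ {U : E d → E d}, Integrable (fun x => ‖U x‖ ^ 2) (volume.restrict K) →
      Integrable (fun x => ⟪x, U x⟫_ℝ) (volume.restrict K) →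
      ∫ x in K, ‖x - U x‖ ^ 2 = (∫ x in K, ‖x‖ ^ 2) - 2 * (∫ x in K, ⟪x, U x⟫_ℝ) +
        ∫ x in K, ‖U x‖ ^ 2 := by
    intro U h1 h2
    have j1 : Integrable (fun x => ‖x‖ ^ 2 - 2 * ⟪x, U x⟫_ℝ) (volume.restrict K) :=
      hx2.sub (h2.const_mul 2)
    have j2 : Integrable (fun x => 2 * ⟪x, U x⟫_ℝ) (volume.restrict K) := h2.const_mul 2
    calc ∫ x in K, ‖x - U x‖ ^ 2 = ∫ x in K, ((‖x‖ ^ 2 - 2 * ⟪x, U x⟫_ℝ) + ‖U x‖ ^ 2) := by
          congr 1
          ext x
          rw [norm_sub_sq_real]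
      _ = _ := by
          rw [integral_add j1 h1, integral_sub hx2 j2, integral_const_mul]
  rw [ex t1 t2, ex s1 s2] at hmin3
  have hlaw := law_eq hK hKi hT.meas hS (hT.map_eq.trans hSμ.symm)
    (f := fun w => ‖w‖ ^ 2) (by fun_prop)
  linarith

theorem opt_close (hd : 1 ≤ d) {K : Set (E d)} (hK : IsCompact K) (hKc : Convex ℝ K)
    (hKi : (interior K).Nonempty) {R : ℝ} (hR : 0 < R) (hKR : ∀ x ∈ K, ‖x‖ ≤ R) (B : ℝ)
    (hB : 0 < B) :
    ∃ C : ℝ, 0 < C ∧ ∀ (n : ℕ) [NeZero n] (y : Fin n → E d), Function.Injective y →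
      (∀ i, ‖y i‖ ≤ B) → ∀ (ψ : Fin n → ℝ) (μ : Measure (E d)) (T : E d → E d),
      IsOptMap (unif K) μ T → μ {w | ‖w‖ ≤ B}ᶜ = 0 → ∀ δ : ℝ, 0 ≤ δ →
      ∀ ν : Fin n → Measure (E d), (∀ i, ν i univ = volume (cell K y ψ i)) →
      Measure.sum ν = volume K • μ → (∀ i, ν i {w | ‖w - y i‖ ≤ δ}ᶜ = 0) →
      ∫ x in K, ‖T x - sel K y ψ x‖ ≤ C * √δ := by
  obtain ⟨Cg, hCg, hgap⟩ := gap_bound hK hKc hKi B hB
  have hv := volume_pos_of_interior hKi
  have hv' := hK.measure_lt_top (μ := volume)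
  have hKn : K.Nonempty := hKi.mono interior_subset
  refine ⟨Cg * √(2 * R * volume.real K) + 1, by positivity, ?_⟩
  intro n _ y hy hyB ψ μ T hT hμB δ hδ ν hν1 hν2 hν3
  haveI hne : Nonempty (Fin n) := ⟨0⟩
  haveI hfin : IsFiniteMeasure (volume.restrict K) :=
    ⟨by simpa using hK.measure_lt_top⟩
  have hKm : ∀ᵐ x ∂(volume.restrict K), x ∈ K := ae_restrict_mem hK.isClosed.measurableSet
  have hKcl := hK.isClosed
  obtain ⟨S, hS, hSν⟩ := exists_competitor hd (part K y ψ) (measurableSet_part hKcl)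
    (fun i => (lt_of_le_of_lt (measure_mono (part_subset i)) hv').ne) disjoint_part ν
    (fun i => by rw [hν1, volume_part hy])
  -- law of S
  have hlawS : (unif K).map S = μ := by
    ext A hA
    rw [Measure.map_apply hS hA]
    unfold unif
    rw [Measure.smul_apply, smul_eq_mul, restrict_eq_sum_part (y := y) (ψ := ψ) hKcl,
      Measure.sum_apply _ (hS hA)]
    have : ∀ i, (volume.restrict (part K y ψ i)) (S ⁻¹' A) = ν i A := by
      intro i
      rw [← hSν i, Measure.map_apply hS hA]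
    simp only [this]
    rw [← Measure.sum_apply _ hA, hν2, Measure.smul_apply, smul_eq_mul, ← mul_assoc,
      ENNReal.inv_mul_cancel hv.ne' hv'.ne, one_mul]
  -- closeness of S and sel
  have hSp : ∀ᵐ x ∂(volume.restrict K), ‖S x - sel K y ψ x‖ ≤ δ := by
    rw [restrict_eq_sum_part (y := y) (ψ := ψ) hKcl, Measure.ae_sum_iff]
    intro i
    have h1 : ∀ᵐ x ∂(volume.restrict (part K y ψ i)), x ∈ part K y ψ i :=
      ae_restrict_mem (measurableSet_part hKcl i)
    have h2 : ∀ᵐ x ∂(volume.restrict (part K y ψ i)), ‖S x - y i‖ ≤ δ := by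
      have h3 := hν3 i
      rw [← hSν i, Measure.map_apply hS] at h3
      · exact h3
      · exact (measurableSet_le (by fun_prop) measurable_const).compl
    filter_upwards [h1, h2] with x hx1 hx2
    rw [sel_eq hx1]
    exact hx2
  have hTB : ∀ᵐ x ∂(volume.restrict K), ‖T x‖ ≤ B :=
    ae_of_law hK hKi hT.meas hT.map_eq (measurableSet_le (by fun_prop) measurable_const) hμB
  have hSB : ∀ᵐ x ∂(volume.restrict K), ‖S x‖ ≤ B :=
    ae_of_law hK hKi hS hlawS (measurableSet_le (by fun_prop) measurable_const) hμB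
  have hopt := opt_real hK hKi hKR hT hS hlawS hTB hSB
  set u : E d → ℝ := pot y ψ with hu
  set p : E d → E d := sel K y ψ with hp
  have huc : Continuous u := continuous_pot
  have hpm : Measurable p := measurable_sel hKcl
  have hconjc : Continuous (conj K u) := continuous_conj hK hKn huc hR hKR
  -- integrability
  have hpB : ∀ x ∈ K, ‖p x‖ ≤ B := fun x hx => sel_norm hyB hx
  have iu : Integrable u (volume.restrict K) := huc.continuousOn.integrableOn_compact hK
  have inn : ∀ {U : E d → E d}, Measurable U → (∀ᵐ x ∂(volume.restrict K), ‖U x‖ ≤ B) →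
      Integrable (fun x => ⟪x, U x⟫_ℝ) (volume.restrict K) := by
    intro U hU hUB
    refine Integrable.of_bound (by fun_prop) (R * B) ?_
    filter_upwards [hUB, hKm] with x hx hxK
    exact (norm_inner_le_norm _ _).trans
      (mul_le_mul (hKR x hxK) hx (norm_nonneg _) ((norm_nonneg _).trans (hKR x hxK)))
  have ipx : Integrable (fun x => ⟪x, p x⟫_ℝ) (volume.restrict K) :=
    inn hpm (hKm.mono fun x hx => hpB x hx)
  have iTx := inn hT.meas hTB
  have iSx := inn hS hSB
  have ic : ∀ {U : E d → E d}, Measurable U → (∀ᵐ x ∂(volume.restrict K), ‖U x‖ ≤ B) →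
      Integrable (fun x => conj K u (U x)) (volume.restrict K) := by
    intro U hU hUB
    obtain ⟨M, hM⟩ := ((isCompact_closedBall (0 : E d) B).image hconjc.norm).bddAbove
    refine Integrable.of_bound (hconjc.measurable.comp hU).aestronglyMeasurable M ?_
    filter_upwards [hUB] with x hx
    exact hM ⟨U x, by simpa using hx, rfl⟩
  have icT := ic hT.meas hTB
  have icS := ic hS hSB
  -- the function g
  have hg := hgap u p T huc hpm hT.meas hpB hTB (fun x hx z _ => sel_subgrad hx z)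
    (fun x => u x + conj K u (T x) - ⟪x, T x⟫_ℝ) ((iu.add icT).sub iTx)
    (by
      intro x _ z hz
      have := le_conj hK huc (T x) hz
      rw [inner_sub_left]
      linarith)
  have hint : ∫ x in K, (u x + conj K u (T x) - ⟪x, T x⟫_ℝ) ≤ 2 * R * volume.real K * δ := by
    have j1 : Integrable (fun x => u x + conj K u (T x)) (volume.restrict K) := iu.add icT
    have j2 : Integrable (fun x => ⟪x, p x⟫_ℝ - u x) (volume.restrict K) := ipx.sub iu
    rw [integral_sub j1 iTx, integral_add iu icT]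
    have e1 : ∫ x in K, conj K u (T x) = ∫ x in K, conj K u (S x) :=
      law_eq hK hKi hT.meas hS (hT.map_eq.trans hlawS.symm) hconjc
    have e2 : ∫ x in K, conj K u (S x) ≤ ∫ x in K, (⟪x, p x⟫_ℝ - u x + R * δ) := by
      refine integral_mono_ae icS ((ipx.sub iu).add (integrable_const _)) ?_
      filter_upwards [hSp, hKm] with x hx hxK
      have c1 := conj_lip hK hKn huc hKR (S x) (p x)
      have c2 : conj K u (p x) ≤ ⟪x, p x⟫_ℝ - u x := by
        apply conj_le hKn
        intro z hz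
        have := sel_subgrad (y := y) (ψ := ψ) hxK z
        rw [inner_sub_left] at this
        simp only [hu, hp]
        linarith
      have c3 : R * ‖S x - p x‖ ≤ R * δ := mul_le_mul_of_nonneg_left hx hR.le
      linarith
    have e3 : ∫ x in K, (⟪x, p x⟫_ℝ - u x + R * δ) =
        (∫ x in K, ⟪x, p x⟫_ℝ) - (∫ x in K, u x) + R * δ * volume.real K := by
      rw [integral_add j2 (integrable_const _), integral_sub ipx iu]
      simp only [integral_const, smul_eq_mul, measureReal_restrict_apply, MeasurableSet.univ,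
        univ_inter]
      ring
    have e4 : ∫ x in K, ⟪x, p x⟫_ℝ ≤ ∫ x in K, (⟪x, S x⟫_ℝ + R * δ) := by
      refine integral_mono_ae ipx (iSx.add (integrable_const _)) ?_
      filter_upwards [hSp, hKm] with x hx hxK
      have c1 : ⟪x, p x⟫_ℝ - ⟪x, S x⟫_ℝ ≤ R * δ := by
        rw [← inner_sub_right]
        refine (real_inner_le_norm _ _).trans ?_
        rw [norm_sub_rev]
        exact mul_le_mul (hKR x hxK) hx (norm_nonneg _) hR.le
      linarith
    have e5 : ∫ x in K, (⟪x, S x⟫_ℝ + R * δ) = (∫ x in K, ⟪x, S x⟫_ℝ) + R * δ * volume.real K := by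
      rw [integral_add iSx (integrable_const _)]
      simp only [integral_const, smul_eq_mul, measureReal_restrict_apply, MeasurableSet.univ,
        univ_inter]
      ring
    rw [e1]
    linarith
  refine hg.trans ?_
  calc Cg * √(∫ x in K, (u x + conj K u (T x) - ⟪x, T x⟫_ℝ))
      ≤ Cg * √(2 * R * volume.real K * δ) :=
        mul_le_mul_of_nonneg_left (Real.sqrt_le_sqrt hint) hCg.le
    _ = Cg * √(2 * R * volume.real K) * √δ := by
        rw [Real.sqrt_mul (by positivity : (0:ℝ) ≤ 2 * R * volume.real K), mul_assoc Cg]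
    _ ≤ (Cg * √(2 * R * volume.real K) + 1) * √δ := by
        have := Real.sqrt_nonneg δ
        nlinarith

end Vale.Agent.P074
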