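import Vale.Agent.P074.Disc
import Vale.Agent.P074.OptClose
import Vale.Agent.P074.Approx

open MeasureTheory Set
open scoped ENNReal NNReal InnerProductSpace

namespace Vale.Agent.P074

variable {d : ℕ}

/-- The main estimate for a fixed coupling and a fixed scale of discretisation. -/
theorem core_scale (hd : 2 ≤ d) {K : Set (E d)} (hK : IsCompact K) (hKc : Convex ℝ K)
    (hKi : (interior K).Nonempty) {R : ℝ} (hR : 0 < R) (hKR : ∀ x ∈ K, ‖x‖ ≤ R) (B : ℝ)
    (hB : 0 < B) :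
    ∃ C1 C2 : ℝ, 0 < C1 ∧ 0 < C2 ∧ ∀ (Y : Set (E d)), IsCompact Y → (∀ w ∈ Y, ‖w‖ + 1 ≤ B) →
      ∀ (π : Measure (E d × E d)), IsProbabilityMeasure π → π (Y ×ˢ Y)ᶜ = 0 →
      ∀ T S : E d → E d, IsOptMap (unif K) (π.map Prod.fst) T →
        IsOptMap (unif K) (π.map Prod.snd) S →
      ∀ δ : ℝ, 0 < δ → δ ≤ 1 →
      ∫ x in K, ‖T x - S x‖ ^ 2 ≤
        C1 * √(2 * δ) + C2 * (2 * (∫ p, ‖p.1 - p.2‖ ^ 2 ∂π) + 32 * δ ^ 2) ^ (1 / 3 : ℝ) := by
  obtain ⟨Co, hCo, hclose⟩ := opt_close (by omega : 1 ≤ d) hK hKc hKi hR hKR B hB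
  obtain ⟨Cn, hCn, hGN⟩ := convex_GN hK hKc hKi B hB
  have hv := volume_pos_of_interior hKi
  have hv' := hK.measure_lt_top (μ := volume)
  have hvr : 0 < volume.real K := ENNReal.toReal_pos hv.ne' hv'.ne
  have hKcl := hK.isClosed
  haveI hfin : IsFiniteMeasure (volume.restrict K) :=
    ⟨by simpa using hK.measure_lt_top⟩
  have hKm : ∀ᵐ x ∂(volume.restrict K), x ∈ K := ae_restrict_mem hKcl.measurableSet
  refine ⟨12 * B * Co, 3 * Cn * (10 ^ 7 * R ^ 2 * volume.real K) ^ (1 / 3 : ℝ), by positivity,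
    by positivity, ?_⟩
  intro Y hY hYB π hπ hsupp T S hT hS δ hδ hδ1
  obtain ⟨n, Q, c, hQm, hQd, hQp, hQc, hQδ, hcY⟩ :=
    exists_pieces π (IsProbabilityMeasure.ne_zero π) Y hY hsupp δ hδ
  obtain ⟨y, z, hy, hz, hinj⟩ := general_position hd (fun i => (c i).1) (fun i => (c i).2) δ hδ
  have hyi : Function.Injective y := by
    have := hinj 0 (by simp)
    simpa using this
  have hzi : Function.Injective z := by
    have := hinj 1 (by simp)
    simpa using this
  have hyB : ∀ i, ‖y i‖ ≤ B := by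
    intro i
    have h1 := hYB _ (hcY i).1
    have h2 : ‖y i‖ ≤ ‖(c i).1‖ + ‖y i - (c i).1‖ := by
      have := norm_add_le (c i).1 (y i - (c i).1)
      simpa using this
    have h3 := hy i
    linarith
  have hzB : ∀ i, ‖z i‖ ≤ B := by
    intro i
    have h1 := hYB _ (hcY i).2
    have h2 : ‖z i‖ ≤ ‖(c i).2‖ + ‖z i - (c i).2‖ := by
      have := norm_add_le (c i).2 (z i - (c i).2)
      simpa using this
    have h3 := hz i
    linarith
  have hQy : ∀ i, ∀ p ∈ Q i, ‖p.1 - y i‖ ≤ 2 * δ := by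
    intro i p hp
    have h1 := (hQδ i p hp).1
    have h2 := hy i
    have h3 : ‖p.1 - y i‖ ≤ ‖p.1 - (c i).1‖ + ‖(c i).1 - y i‖ := norm_sub_le_norm_sub_add_norm_sub _ _ _
    rw [norm_sub_rev (c i).1] at h3
    linarith
  have hQz : ∀ i, ∀ p ∈ Q i, ‖p.2 - z i‖ ≤ 2 * δ := by
    intro i p hp
    have h1 := (hQδ i p hp).2
    have h2 := hz i
    have h3 : ‖p.2 - z i‖ ≤ ‖p.2 - (c i).2‖ + ‖(c i).2 - z i‖ := norm_sub_le_norm_sub_add_norm_sub _ _ _
    rw [norm_sub_rev (c i).2] at h3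
    linarith
  -- masses
  set m : Fin (n + 1) → ℝ := fun i => volume.real K * π.real (Q i) with hm
  have hmp : ∀ i, 0 < m i := fun i =>
    mul_pos hvr (ENNReal.toReal_pos (hQp i).ne' (measure_ne_top _ _))
  have hsumQ : ∑ i, π.real (Q i) = 1 := by
    have h1 : π (⋃ i, Q i) = 1 := by
      have := (prob_compl_eq_zero_iff (MeasurableSet.iUnion hQm)).1 hQc
      exact this
    rw [measure_iUnion hQd hQm, tsum_fintype] at h1
    unfold Measure.real
    rw [← ENNReal.toReal_sum (fun i _ => measure_ne_top _ _), h1]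
    simp
  have hmsum : ∑ i, m i = volume.real K := by
    rw [hm]
    simp only
    rw [← Finset.mul_sum, hsumQ, mul_one]
  obtain ⟨ψ0, hψ0⟩ := exists_weights hK y hyi m hmp hmsum
  obtain ⟨ψ1', hψ1'⟩ := exists_weights hK z hzi m hmp hmsum
  set κ : ℝ := - (∑ i, m i * (ψ1' i - ψ0 i)) / volume.real K with hκ
  set ψ1 : Fin (n + 1) → ℝ := fun i => ψ1' i + κ with hψ1d
  have hψ1 : ∀ i, vol K z ψ1 i = m i := fun i => by rw [hψ1d, vol_add_const, hψ1' i]
  have hmean : ∑ i, m i * (ψ1 i - ψ0 i) = 0 := by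
    have e : ∀ i, m i * (ψ1 i - ψ0 i) = m i * (ψ1' i - ψ0 i) + κ * m i := by
      intro i
      simp only [hψ1d]; ring
    rw [Finset.sum_congr rfl fun i _ => e i, Finset.sum_add_distrib, ← Finset.mul_sum, hmsum, hκ]
    field_simp
    ring
  have hL2 := pot_L2 hK hKc hKi hR hKR y z hinj m hmp ψ0 ψ1 hψ0 hψ1 hmean
  -- the cost of the discretised coupling
  set cost : ℝ := ∫ p, ‖p.1 - p.2‖ ^ 2 ∂π with hcost
  have hae : ∀ᵐ p ∂π, p ∈ Y ×ˢ Y := by
    rw [ae_iff]
    exact hsupp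
  have hintc : Integrable (fun p : E d × E d => ‖p.1 - p.2‖ ^ 2) π := by
    refine Integrable.of_bound (by fun_prop) ((B + B) ^ 2) ?_
    filter_upwards [hae] with p hp
    rw [Real.norm_of_nonneg (by positivity)]
    refine pow_le_pow_left₀ (norm_nonneg _) ((norm_sub_le _ _).trans (add_le_add ?_ ?_)) 2
    · have := hYB _ hp.1; linarith
    · have := hYB _ hp.2; linarith
  have hdisc : ∑ i, m i * ‖z i - y i‖ ^ 2 ≤ volume.real K * (2 * cost + 32 * δ ^ 2) := by
    have e1 : ∑ i, m i * ‖z i - y i‖ ^ 2 =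
        volume.real K * ∑ i, ∫ _p in Q i, ‖z i - y i‖ ^ 2 ∂π := by
      rw [Finset.mul_sum]
      refine Finset.sum_congr rfl fun i _ => ?_
      rw [setIntegral_const, smul_eq_mul]
      simp only [hm]
      ring
    have hi2 : Integrable (fun p : E d × E d => 2 * ‖p.1 - p.2‖ ^ 2 + 32 * δ ^ 2) π :=
      (hintc.const_mul 2).add (integrable_const _)
    have e2 : ∑ i, ∫ _p in Q i, ‖z i - y i‖ ^ 2 ∂π ≤
        ∑ i, ∫ p in Q i, (2 * ‖p.1 - p.2‖ ^ 2 + 32 * δ ^ 2) ∂π := by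
      refine Finset.sum_le_sum fun i _ => ?_
      refine setIntegral_mono_on (integrable_const _) hi2.integrableOn (hQm i) fun p hp => ?_
      have h1 := hQy i p hp
      have h2 := hQz i p hp
      have h3 : ‖z i - y i‖ ≤ ‖p.1 - p.2‖ + 4 * δ := by
        have h4 : z i - y i = (z i - p.2) + (p.1 - y i) - (p.1 - p.2) := by abel
        rw [h4]
        refine (norm_sub_le _ _).trans ?_
        have h5 := norm_add_le (z i - p.2) (p.1 - y i)
        rw [norm_sub_rev (z i)] at h5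
        linarith
      have h6 := pow_le_pow_left₀ (norm_nonneg _) h3 2
      nlinarith [sq_nonneg (‖p.1 - p.2‖ - 4 * δ)]
    have e3 : ∑ i, ∫ p in Q i, (2 * ‖p.1 - p.2‖ ^ 2 + 32 * δ ^ 2) ∂π ≤ 2 * cost + 32 * δ ^ 2 := by
      have h1 : ∫ p in ⋃ i, Q i, (2 * ‖p.1 - p.2‖ ^ 2 + 32 * δ ^ 2) ∂π =
          ∑ i, ∫ p in Q i, (2 * ‖p.1 - p.2‖ ^ 2 + 32 * δ ^ 2) ∂π := by
        rw [integral_iUnion hQm hQd hi2.integrableOn, tsum_fintype]
      rw [← h1]
      have h2 : ∫ p in ⋃ i, Q i, (2 * ‖p.1 - p.2‖ ^ 2 + 32 * δ ^ 2) ∂π ≤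
          ∫ p, (2 * ‖p.1 - p.2‖ ^ 2 + 32 * δ ^ 2) ∂π :=
        setIntegral_le_integral hi2 (ae_of_all _ fun p => by positivity)
      refine h2.trans ?_
      rw [integral_add (hintc.const_mul 2) (integrable_const _), integral_const_mul]
      simp [hcost]
    rw [e1]
    exact mul_le_mul_of_nonneg_left (e2.trans e3) hvr.le
  -- potentials
  set u := pot y ψ0 with hu
  set v := pot z ψ1 with hv0
  set p := sel K y ψ0 with hp
  set q := sel K z ψ1 with hq
  have hpm : Measurable p := measurable_sel hKcl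
  have hqm : Measurable q := measurable_sel hKcl
  have hpB : ∀ x ∈ K, ‖p x‖ ≤ B := fun x hx => sel_norm hyB hx
  have hqB : ∀ x ∈ K, ‖q x‖ ≤ B := fun x hx => sel_norm hzB hx
  have hgn := hGN u v p q continuous_pot continuous_pot hpm hqm hpB hqB
    (fun x hx w _ => sel_subgrad hx w) (fun x hx w _ => sel_subgrad hx w)
  have hcost0 : 0 ≤ cost := integral_nonneg fun p => by positivity
  have hgn2 : ∫ x in K, ‖p x - q x‖ ^ 2 ≤ Cn * ((10 ^ 7 * R ^ 2 * volume.real K) ^ (1 / 3 : ℝ) *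
      (2 * cost + 32 * δ ^ 2) ^ (1 / 3 : ℝ)) := by
    refine hgn.trans (mul_le_mul_of_nonneg_left ?_ hCn.le)
    rw [← Real.mul_rpow (by positivity) (by positivity)]
    refine Real.rpow_le_rpow (integral_nonneg fun x => by positivity) ?_ (by norm_num)
    refine hL2.trans ?_
    have : 10 ^ 7 * R ^ 2 * volume.real K * (2 * cost + 32 * δ ^ 2) =
      10 ^ 7 * R ^ 2 * (volume.real K * (2 * cost + 32 * δ ^ 2)) := by ring
    rw [this]
    exact mul_le_mul_of_nonneg_left hdisc (by positivity)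
  -- closeness of the true maps
  have hmeasure : ∀ (pr : E d × E d → E d) (hpr : Measurable pr) (w : Fin (n + 1) → E d)
      (φ : Fin (n + 1) → ℝ) (hφ : ∀ i, vol K w φ i = m i)
      (hw : ∀ i, ∀ p ∈ Q i, ‖pr p - w i‖ ≤ 2 * δ),
      (∀ i, (volume K • (π.restrict (Q i)).map pr) univ = volume (cell K w φ i)) ∧
      Measure.sum (fun i => volume K • (π.restrict (Q i)).map pr) = volume K • π.map pr ∧
      (∀ i, (volume K • (π.restrict (Q i)).map pr) {a | ‖a - w i‖ ≤ 2 * δ}ᶜ = 0) := by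
    intro pr hpr w φ hφ hw
    refine ⟨?_, ?_, ?_⟩
    · intro i
      have h1 : volume (cell K w φ i) = ENNReal.ofReal (m i) := by
        rw [← hφ i]
        unfold vol
        rw [ofReal_measureReal (volume_cell_lt_top hK i).ne]
      rw [h1, Measure.smul_apply, smul_eq_mul, Measure.map_apply hpr MeasurableSet.univ,
        preimage_univ, Measure.restrict_apply_univ, hm]
      simp only
      rw [ENNReal.ofReal_mul hvr.le, ofReal_measureReal hv'.ne, ofReal_measureReal]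
    · ext A hA
      rw [Measure.sum_apply _ hA, Measure.smul_apply, smul_eq_mul, Measure.map_apply hpr hA]
      have h1 : ∀ i, (volume K • (π.restrict (Q i)).map pr) A =
          volume K * (π.restrict (Q i)) (pr ⁻¹' A) := by
        intro i
        rw [Measure.smul_apply, smul_eq_mul, Measure.map_apply hpr hA]
      simp only [h1]
      rw [ENNReal.tsum_mul_left, ← Measure.sum_apply _ (hpr hA), ← Measure.restrict_iUnion hQd hQm]
      congr 1
      have h2 : π.restrict (⋃ i, Q i) = π := by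
        apply Measure.restrict_eq_self_of_ae_mem
        rw [ae_iff]
        exact hQc
      rw [h2]
    · intro i
      rw [Measure.smul_apply, smul_eq_mul, Measure.map_apply hpr
        ((measurableSet_le (by fun_prop) measurable_const).compl),
        Measure.restrict_apply (hpr ((measurableSet_le (by fun_prop) measurable_const).compl))]
      have h1 : pr ⁻¹' {a | ‖a - w i‖ ≤ 2 * δ}ᶜ ∩ Q i = ∅ := by
        ext a
        simp only [mem_inter_iff, mem_preimage, mem_compl_iff, mem_ofPred_eq,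
          mem_empty_iff_false, iff_false, not_and]
        intro h hQ
        exact h (hw i a hQ)
      rw [h1]
      simp
  have hmarg : ∀ (pr : E d × E d → E d) (hpr : Measurable pr)
      (hw : ∀ a ∈ Y ×ˢ Y, pr a ∈ Y), (π.map pr) {w | ‖w‖ ≤ B}ᶜ = 0 := by
    intro pr hpr hw
    rw [Measure.map_apply hpr ((measurableSet_le (by fun_prop) measurable_const).compl)]
    refine measure_mono_null ?_ hsupp
    intro a ha hY'
    apply ha
    have := hYB _ (hw a hY')
    simp only [mem_ofPred_eq]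
    linarith
  obtain ⟨a1, a2, a3⟩ := hmeasure Prod.fst measurable_fst y ψ0 hψ0 hQy
  obtain ⟨b1, b2, b3⟩ := hmeasure Prod.snd measurable_snd z ψ1 hψ1 hQz
  have mT := hmarg Prod.fst measurable_fst (fun a ha => ha.1)
  have mS := hmarg Prod.snd measurable_snd (fun a ha => ha.2)
  have cT := hclose (n + 1) y hyi hyB ψ0 _ T hT mT (2 * δ) (by positivity) _ a1 a2 a3
  have cS := hclose (n + 1) z hzi hzB ψ1 _ S hS mS (2 * δ) (by positivity) _ b1 b2 b3
  have hTB : ∀ᵐ x ∂(volume.restrict K), ‖T x‖ ≤ B :=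
    ae_of_law hK hKi hT.meas hT.map_eq (measurableSet_le (by fun_prop) measurable_const) mT
  have hSB : ∀ᵐ x ∂(volume.restrict K), ‖S x‖ ≤ B :=
    ae_of_law hK hKi hS.meas hS.map_eq (measurableSet_le (by fun_prop) measurable_const) mS
  -- integrability
  have ig : ∀ {U V : E d → E d}, Measurable U → Measurable V →
      (∀ᵐ x ∂(volume.restrict K), ‖U x‖ ≤ B) → (∀ᵐ x ∂(volume.restrict K), ‖V x‖ ≤ B) →
      Integrable (fun x => ‖U x - V x‖) (volume.restrict K) ∧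
      Integrable (fun x => ‖U x - V x‖ ^ 2) (volume.restrict K) := by
    intro U V hU hV hUB hVB
    constructor
    · refine Integrable.of_bound (by fun_prop) (B + B) ?_
      filter_upwards [hUB, hVB] with x h1 h2
      rw [Real.norm_of_nonneg (by positivity)]
      exact (norm_sub_le _ _).trans (add_le_add h1 h2)
    · refine Integrable.of_bound (by fun_prop) ((B + B) ^ 2) ?_
      filter_upwards [hUB, hVB] with x h1 h2
      rw [Real.norm_of_nonneg (by positivity)]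
      exact pow_le_pow_left₀ (norm_nonneg _) ((norm_sub_le _ _).trans (add_le_add h1 h2)) 2
  have hpB' : ∀ᵐ x ∂(volume.restrict K), ‖p x‖ ≤ B := hKm.mono hpB
  have hqB' : ∀ᵐ x ∂(volume.restrict K), ‖q x‖ ≤ B := hKm.mono hqB
  have sqb : ∀ {U V : E d → E d}, Measurable U → Measurable V →
      (∀ᵐ x ∂(volume.restrict K), ‖U x‖ ≤ B) → (∀ᵐ x ∂(volume.restrict K), ‖V x‖ ≤ B) →
      ∫ x in K, ‖U x - V x‖ ^ 2 ≤ 2 * B * ∫ x in K, ‖U x - V x‖ := by
    intro U V hU hV hUB hVB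
    rw [← integral_const_mul]
    refine integral_mono_ae (ig hU hV hUB hVB).2 ((ig hU hV hUB hVB).1.const_mul _) ?_
    filter_upwards [hUB, hVB] with x h1 h2
    have h3 : ‖U x - V x‖ ≤ 2 * B := by
      have := norm_sub_le (U x) (V x)
      linarith
    have h4 := norm_nonneg (U x - V x)
    nlinarith
  have sT := sqb hT.meas hpm hTB hpB'
  have sS := sqb hS.meas hqm hSB hqB'
  have tri : ∫ x in K, ‖T x - S x‖ ^ 2 ≤ 3 * (∫ x in K, ‖T x - p x‖ ^ 2) +
      3 * (∫ x in K, ‖p x - q x‖ ^ 2) + 3 * (∫ x in K, ‖S x - q x‖ ^ 2) := by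
    have j1 := (ig hT.meas hpm hTB hpB').2.const_mul 3
    have j2 := (ig hpm hqm hpB' hqB').2.const_mul 3
    have j3 := (ig hS.meas hqm hSB hqB').2.const_mul 3
    have j12 : Integrable (fun x => 3 * ‖T x - p x‖ ^ 2 + 3 * ‖p x - q x‖ ^ 2)
      (volume.restrict K) := j1.add j2
    rw [← integral_const_mul, ← integral_const_mul, ← integral_const_mul,
      ← integral_add j1 j2, ← integral_add j12 j3]
    refine integral_mono (ig hT.meas hS.meas hTB hSB).2 (j12.add j3) fun x => ?_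
    have h1 : T x - S x = (T x - p x) + (p x - q x) - (S x - q x) := by abel
    have h2 : ‖T x - S x‖ ≤ ‖T x - p x‖ + ‖p x - q x‖ + ‖S x - q x‖ := by
      rw [h1]
      refine (norm_sub_le _ _).trans ?_
      have := norm_add_le (T x - p x) (p x - q x)
      linarith
    have h3 := pow_le_pow_left₀ (norm_nonneg _) h2 2
    simp only
    nlinarith [sq_nonneg (‖T x - p x‖ - ‖p x - q x‖), sq_nonneg (‖T x - p x‖ - ‖S x - q x‖),
      sq_nonneg (‖p x - q x‖ - ‖S x - q x‖)]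
  have hBC : 0 ≤ 2 * B := by positivity
  have t1 := mul_le_mul_of_nonneg_left cT hBC
  have t2 := mul_le_mul_of_nonneg_left cS hBC
  have e1 : 12 * B * Co * √(2 * δ) = 3 * (2 * B * (Co * √(2 * δ))) + 3 * (2 * B * (Co * √(2 * δ))) := by
    ring
  have e2 : 3 * Cn * (10 ^ 7 * R ^ 2 * volume.real K) ^ (1 / 3 : ℝ) *
      (2 * cost + 32 * δ ^ 2) ^ (1 / 3 : ℝ) = 3 * (Cn * ((10 ^ 7 * R ^ 2 * volume.real K) ^ (1 / 3 : ℝ) *
      (2 * cost + 32 * δ ^ 2) ^ (1 / 3 : ℝ))) := by ring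
  rw [e1, e2]
  linarith

/-- The main estimate for a fixed coupling. -/
theorem core (hd : 2 ≤ d) {K : Set (E d)} (hK : IsCompact K) (hKc : Convex ℝ K)
    (hKi : (interior K).Nonempty) {R : ℝ} (hR : 0 < R) (hKR : ∀ x ∈ K, ‖x‖ ≤ R) (B : ℝ)
    (hB : 0 < B) :
    ∃ C : ℝ, 0 < C ∧ ∀ (Y : Set (E d)), IsCompact Y → (∀ w ∈ Y, ‖w‖ + 1 ≤ B) →
      ∀ (π : Measure (E d × E d)), IsProbabilityMeasure π → π (Y ×ˢ Y)ᶜ = 0 →
      ∀ T S : E d → E d, IsOptMap (unif K) (π.map Prod.fst) T →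
        IsOptMap (unif K) (π.map Prod.snd) S →
      ∫ x in K, ‖T x - S x‖ ^ 2 ≤ C * (∫ p, ‖p.1 - p.2‖ ^ 2 ∂π) ^ (1 / 3 : ℝ) := by
  obtain ⟨C1, C2, hC1, hC2, h⟩ := core_scale hd hK hKc hKi hR hKR B hB
  refine ⟨C2 * 2 ^ (1 / 3 : ℝ), by positivity, ?_⟩
  intro Y hY hYB π hπ hsupp T S hT hS
  have hδ := h Y hY hYB π hπ hsupp T S hT hS
  set cost : ℝ := ∫ p, ‖p.1 - p.2‖ ^ 2 ∂π with hcost
  have hcost0 : 0 ≤ cost := integral_nonneg fun p => by positivity
  have hcont : Continuous (fun δ : ℝ => C1 * √(2 * δ) +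
      C2 * (2 * cost + 32 * δ ^ 2) ^ (1 / 3 : ℝ)) := by
    refine Continuous.add (by fun_prop) (continuous_const.mul ?_)
    exact Continuous.rpow_const (by fun_prop) (fun x => Or.inr (by norm_num))
  have hlim : Filter.Tendsto (fun δ : ℝ => C1 * √(2 * δ) +
      C2 * (2 * cost + 32 * δ ^ 2) ^ (1 / 3 : ℝ)) (nhdsWithin 0 (Ioi 0))
      (nhds (C2 * 2 ^ (1 / 3 : ℝ) * cost ^ (1 / 3 : ℝ))) := by
    have h0 := hcont.tendsto 0
    have e : C1 * √(2 * (0 : ℝ)) + C2 * (2 * cost + 32 * (0 : ℝ) ^ 2) ^ (1 / 3 : ℝ) =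
        C2 * 2 ^ (1 / 3 : ℝ) * cost ^ (1 / 3 : ℝ) := by
      rw [mul_zero, Real.sqrt_zero, mul_zero, zero_add]
      have : (2 * cost + 32 * (0 : ℝ) ^ 2) = 2 * cost := by ring
      rw [this, Real.mul_rpow (by norm_num) hcost0, mul_assoc]
    rw [e] at h0
    exact h0.mono_left nhdsWithin_le_nhds
  refine ge_of_tendsto hlim ?_
  have hmem : Ioc (0 : ℝ) 1 ∈ nhdsWithin (0 : ℝ) (Ioi 0) := Ioc_mem_nhdsGT (by norm_num)
  filter_upwards [hmem] with δ hδm
  exact hδ δ hδm.1 hδm.2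

/-- The lower bound: one third is admissible. -/
theorem lower_bound (d : ℕ) (hd : 2 ≤ d) : Admissible d (1 / 3) := by
  intro K hK hKc hKi Y hY
  obtain ⟨R, hR, hKR⟩ : ∃ R : ℝ, 0 < R ∧ ∀ x ∈ K, ‖x‖ ≤ R := by
    obtain ⟨R, hR⟩ := hK.isBounded.exists_norm_le
    exact ⟨max R 1, by positivity, fun x hx => (hR x hx).trans (le_max_left _ _)⟩
  obtain ⟨B, hB, hYB⟩ : ∃ B : ℝ, 0 < B ∧ ∀ w ∈ Y, ‖w‖ + 1 ≤ B := by
    obtain ⟨B, hB⟩ := hY.isBounded.exists_norm_le
    refine ⟨max B 0 + 1, by positivity, fun x hx => ?_⟩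
    have := (hB x hx).trans (le_max_left B 0)
    linarith
  obtain ⟨C, hC, hcore⟩ := core hd hK hKc hKi hR hKR B hB
  have hv := volume_pos_of_interior hKi
  have hv' := hK.measure_lt_top (μ := volume)
  have hvr : 0 < volume.real K := ENNReal.toReal_pos hv.ne' hv'.ne
  haveI hfin : IsFiniteMeasure (volume.restrict K) :=
    ⟨by simpa using hK.measure_lt_top⟩
  -- the constant
  set A : ℝ := C / volume.real K with hA
  have hApos : 0 < A := by positivity
  refine ⟨Real.toNNReal √A, ?_⟩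
  intro μ ν hμ hν hμY hνY T S hT hS
  set N : ℝ≥0∞ := eLpNorm (fun x => T x - S x) 2 (unif K) with hN
  -- estimate for every coupling
  have hcoup : ∀ π : Measure (E d × E d), π.map Prod.fst = μ ∧ π.map Prod.snd = ν →
      N ^ (2 : ℝ) ≤ ENNReal.ofReal A *
        (∫⁻ p, ENNReal.ofReal (‖p.1 - p.2‖ ^ 2) ∂π) ^ (1 / 3 : ℝ) := by
    rintro π ⟨h1, h2⟩
    have hπ : IsProbabilityMeasure π := by
      constructor
      have : (π.map Prod.fst) univ = 1 := by rw [h1]; exact measure_univ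
      rwa [Measure.map_apply measurable_fst MeasurableSet.univ, preimage_univ] at this
    have hsupp : π (Y ×ˢ Y)ᶜ = 0 := by
      have e : (Y ×ˢ Y)ᶜ ⊆ Prod.fst ⁻¹' Yᶜ ∪ Prod.snd ⁻¹' Yᶜ := by
        intro p hp
        by_cases h : p.1 ∈ Y
        · right
          intro h'
          exact hp ⟨h, h'⟩
        · left
          exact h
      refine measure_mono_null e (measure_union_null ?_ ?_)
      · rw [← Measure.map_apply measurable_fst hY.isClosed.measurableSet.compl, h1]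
        exact hμY
      · rw [← Measure.map_apply measurable_snd hY.isClosed.measurableSet.compl, h2]
        exact hνY
    have hae : ∀ᵐ p ∂π, p ∈ Y ×ˢ Y := by
      rw [ae_iff]
      exact hsupp
    have hintc : Integrable (fun p : E d × E d => ‖p.1 - p.2‖ ^ 2) π := by
      refine Integrable.of_bound (by fun_prop) ((B + B) ^ 2) ?_
      filter_upwards [hae] with p hp
      rw [Real.norm_of_nonneg (by positivity)]
      refine pow_le_pow_left₀ (norm_nonneg _) ((norm_sub_le _ _).trans (add_le_add ?_ ?_)) 2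
      · have := hYB _ hp.1; linarith
      · have := hYB _ hp.2; linarith
    have hYb : ∀ w ∈ Y, ‖w‖ ≤ B := fun w hw => by have := hYB w hw; linarith
    have hTB : ∀ᵐ x ∂(volume.restrict K), ‖T x‖ ≤ B := by
      have := ae_of_law hK hKi hT.meas hT.map_eq hY.isClosed.measurableSet hμY
      filter_upwards [this] with x hx using hYb _ hx
    have hSB : ∀ᵐ x ∂(volume.restrict K), ‖S x‖ ≤ B := by
      have := ae_of_law hK hKi hS.meas hS.map_eq hY.isClosed.measurableSet hνY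
      filter_upwards [this] with x hx using hYb _ hx
    have hint : Integrable (fun x => ‖T x - S x‖ ^ 2) (volume.restrict K) := by
      have := hT.meas
      have := hS.meas
      refine Integrable.of_bound (by fun_prop) ((B + B) ^ 2) ?_
      filter_upwards [hTB, hSB] with x h1 h2
      rw [Real.norm_of_nonneg (by positivity)]
      exact pow_le_pow_left₀ (norm_nonneg _) ((norm_sub_le _ _).trans (add_le_add h1 h2)) 2
    have hmain := hcore Y hY hYB π hπ hsupp T S (by rw [h1]; exact hT) (by rw [h2]; exact hS)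
    have hN2 : N ^ (2 : ℝ) = (volume K)⁻¹ * ENNReal.ofReal (∫ x in K, ‖T x - S x‖ ^ 2) := by
      rw [ofReal_integral_eq_lintegral_ofReal hint (ae_of_all _ fun x => by positivity),
        ← lintegral_unif, hN, eLpNorm_eq_lintegral_rpow_enorm_toReal (by norm_num) (by norm_num)]
      rw [← ENNReal.rpow_mul]
      norm_num
    rw [hN2, ← ofReal_integral_eq_lintegral_ofReal hintc (ae_of_all _ fun x => by positivity),
      ENNReal.ofReal_rpow_of_nonneg (integral_nonneg fun x => by positivity) (by norm_num),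
      ← ENNReal.ofReal_mul hApos.le]
    have e1 : (volume K)⁻¹ = ENNReal.ofReal (volume.real K)⁻¹ := by
      rw [ENNReal.ofReal_inv_of_pos hvr, ofReal_measureReal hv'.ne]
    rw [e1, ← ENNReal.ofReal_mul (by positivity)]
    refine ENNReal.ofReal_le_ofReal ?_
    calc (volume.real K)⁻¹ * ∫ x in K, ‖T x - S x‖ ^ 2
        ≤ (volume.real K)⁻¹ * (C * (∫ p, ‖p.1 - p.2‖ ^ 2 ∂π) ^ (1 / 3 : ℝ)) :=
          mul_le_mul_of_nonneg_left hmain (by positivity)
      _ = A * (∫ p, ‖p.1 - p.2‖ ^ 2 ∂π) ^ (1 / 3 : ℝ) := by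
          rw [hA]; ring
  -- infimum over couplings
  have hA0 : ENNReal.ofReal A ≠ 0 := by
    rw [Ne, ENNReal.ofReal_eq_zero, not_le]; exact hApos
  have hAt : ENNReal.ofReal A ≠ ∞ := ENNReal.ofReal_ne_top
  set I : ℝ≥0∞ := ⨅ (π : Measure (E d × E d)) (_ : π.map Prod.fst = μ ∧ π.map Prod.snd = ν),
    ∫⁻ p, ENNReal.ofReal (‖p.1 - p.2‖ ^ 2) ∂π with hI
  have hinf : ((ENNReal.ofReal A)⁻¹ * N ^ (2 : ℝ)) ^ (3 : ℝ) ≤ I := by
    refine le_iInf fun π => le_iInf fun hπ => ?_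
    have h1 : (ENNReal.ofReal A)⁻¹ * N ^ (2 : ℝ) ≤
        (∫⁻ p, ENNReal.ofReal (‖p.1 - p.2‖ ^ 2) ∂π) ^ (1 / 3 : ℝ) := by
      calc (ENNReal.ofReal A)⁻¹ * N ^ (2 : ℝ) ≤ (ENNReal.ofReal A)⁻¹ * (ENNReal.ofReal A *
        (∫⁻ p, ENNReal.ofReal (‖p.1 - p.2‖ ^ 2) ∂π) ^ (1 / 3 : ℝ)) := by
            gcongr
            exact hcoup π hπ
        _ = _ := by rw [← mul_assoc, ENNReal.inv_mul_cancel hA0 hAt, one_mul]
    calc ((ENNReal.ofReal A)⁻¹ * N ^ (2 : ℝ)) ^ (3 : ℝ) ≤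
        ((∫⁻ p, ENNReal.ofReal (‖p.1 - p.2‖ ^ 2) ∂π) ^ (1 / 3 : ℝ)) ^ (3 : ℝ) :=
          ENNReal.rpow_le_rpow h1 (by norm_num)
      _ = _ := by
          rw [← ENNReal.rpow_mul]
          norm_num
  have hfin1 : (ENNReal.ofReal A)⁻¹ * N ^ (2 : ℝ) ≤ I ^ (1 / 3 : ℝ) := by
    have := ENNReal.rpow_le_rpow hinf (show (0 : ℝ) ≤ 1 / 3 by norm_num)
    rw [← ENNReal.rpow_mul] at this
    norm_num at this
    norm_num
    exact this
  have hfin2 : N ^ (2 : ℝ) ≤ ENNReal.ofReal A * I ^ (1 / 3 : ℝ) := by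
    calc N ^ (2 : ℝ) = ENNReal.ofReal A * ((ENNReal.ofReal A)⁻¹ * N ^ (2 : ℝ)) := by
          rw [← mul_assoc, ENNReal.mul_inv_cancel hA0 hAt, one_mul]
      _ ≤ _ := by gcongr
  have hfin3 := ENNReal.rpow_le_rpow hfin2 (show (0 : ℝ) ≤ 1 / 2 by norm_num)
  rw [← ENNReal.rpow_mul, ENNReal.mul_rpow_of_nonneg _ _ (by norm_num : (0 : ℝ) ≤ 1 / 2),
    ← ENNReal.rpow_mul] at hfin3
  have e2 : N ^ ((2 : ℝ) * (1 / 2)) = N := by norm_num
  rw [e2] at hfin3
  have e3 : (W2 μ ν) ^ (1 / 3 : ℝ) = I ^ ((1 / 3 : ℝ) * (1 / 2)) := by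
    unfold W2
    rw [← ENNReal.rpow_mul]
    congr 1
    ring
  have e4 : ((Real.toNNReal √A : ℝ≥0) : ℝ≥0∞) = ENNReal.ofReal A ^ (1 / 2 : ℝ) := by
    rw [ENNReal.ofReal_rpow_of_pos hApos, ← Real.sqrt_eq_rpow]
    rfl
  rw [e3, e4]
  exact hfin3

end Vale.Agent.P074
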