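import Vale.Agent.P074.UpperAux

open MeasureTheory Set
open scoped ENNReal NNReal InnerProductSpace

namespace Vale.Agent.P074

/-- The upper bound: no exponent above one third is admissible. -/
theorem upper_bound (d : ℕ) (hd : 2 ≤ d) (α : ℝ) (hα : Admissible d α) : α ≤ 1 / 3 := by
  by_contra hcon
  push Not at hcon
  obtain ⟨C, hC⟩ := hα (cube d) (isCompact_cube d) (convex_cube d) (interior_cube d)
    (Metric.closedBall 0 5) (isCompact_closedBall _ _)
  set i : Fin d := ⟨0, by omega⟩ with hi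
  set j : Fin d := ⟨1, by omega⟩ with hj
  have hij : i ≠ j := by
    rw [hi, hj]
    intro h
    simp at h
  rw [unif_cube] at hC
  haveI := isProbabilityMeasure_cube d
  have main : ∀ τ : ℝ, 0 < τ → τ ≤ 1 / 4 →
      ENNReal.ofReal (τ / 16) ≤ (C * (ENNReal.ofReal (8 * τ ^ 3) ^ (1 / 2 : ℝ)) ^ α) ^ (2:ℝ) := by
    intro τ h0 h1
    have h2 := hC ((volume.restrict (cube d)).map (Tm i j τ)) ((volume.restrict (cube d)).map (Tp i j τ))
      (Measure.isProbabilityMeasure_map (measurable_Tm i j τ).aemeasurable)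
      (Measure.isProbabilityMeasure_map (measurable_Tp i j τ).aemeasurable)
      (map_compl_ball _ _ (measurable_Tm i j τ) (G_norm_le _ _ _ ?_))
      (map_compl_ball _ _ (measurable_Tp i j τ) (G_norm_le _ _ _ ?_))
      (Tm i j τ) (Tp i j τ) (opt_Tm i j hij τ _) (opt_Tp i j hij τ _)
    · have hW : W2 ((volume.restrict (cube d)).map (Tm i j τ)) ((volume.restrict (cube d)).map (Tp i j τ))
          ≤ ENNReal.ofReal (8 * τ ^ 3) ^ (1 / 2 : ℝ) := by
        refine (W2_le (volume.restrict (cube d)) (Tm i j τ) (fun x => Tp i j τ (sig j x))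
          (measurable_Tm i j τ) ((measurable_Tp i j τ).comp (measurePreserving_sig_cube j).measurable)
          _ _ rfl (map_Tp i j τ)).trans ?_
        exact ENNReal.rpow_le_rpow (cost_le i j hij τ h0) (by norm_num)
      refine (diff_ge i j hij τ h0 h1).trans ?_
      refine ENNReal.rpow_le_rpow (h2.trans ?_) (by norm_num)
      gcongr
    · refine (norm_sub_le _ _).trans ?_
      rw [PiLp.norm_single, PiLp.norm_single, Real.norm_eq_abs, Real.norm_eq_abs,
        abs_one, abs_of_pos h0]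
      linarith
    · refine (norm_add_le _ _).trans ?_
      rw [PiLp.norm_single, PiLp.norm_single, Real.norm_eq_abs, Real.norm_eq_abs,
        abs_one, abs_of_pos h0]
      linarith
  have main2 : ∀ τ : ℝ, 0 < τ → τ ≤ 1 / 4 → τ / 16 ≤ (C:ℝ) ^ 2 * (8 ^ α * τ ^ (3 * α)) := by
    intro τ h0 h1
    have h := main τ h0 h1
    have e1 : (C * (ENNReal.ofReal (8 * τ ^ 3) ^ (1 / 2 : ℝ)) ^ α) ^ (2:ℝ) =
        ENNReal.ofReal ((C:ℝ) ^ 2 * (8 ^ α * τ ^ (3 * α))) := by
      rw [ENNReal.mul_rpow_of_nonneg _ _ (by norm_num), ← ENNReal.rpow_mul, ← ENNReal.rpow_mul]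
      rw [show (1 / 2 * (α * 2) : ℝ) = α by ring]
      rw [ENNReal.ofReal_rpow_of_pos (by positivity), ENNReal.ofReal_mul (by positivity)]
      congr 1
      · rw [ENNReal.rpow_two, ENNReal.ofReal_pow (by positivity), ENNReal.ofReal_coe_nnreal]
      · rw [Real.mul_rpow (by norm_num) (by positivity), ← Real.rpow_natCast, ← Real.rpow_mul h0.le]
        norm_num
    rw [e1] at h
    exact (ENNReal.ofReal_le_ofReal_iff (by positivity)).1 h
  set D : ℝ := 16 * ((C:ℝ) ^ 2 * 8 ^ α) with hD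
  have hD0 : 0 ≤ D := by positivity
  have main3 : ∀ τ : ℝ, 0 < τ → τ ≤ 1 / 4 → 1 ≤ D * τ ^ (3 * α - 1) := by
    intro τ h0 h1
    have h := main2 τ h0 h1
    rw [Real.rpow_sub_one h0.ne']
    rw [← mul_div_assoc, le_div_iff₀ h0, hD]
    linarith
  have hlim : Filter.Tendsto (fun τ : ℝ => D * τ ^ (3 * α - 1)) (nhds 0) (nhds (D * 0 ^ (3 * α - 1))) :=
    (Real.continuousAt_rpow_const 0 (3 * α - 1) (Or.inr (by linarith))).tendsto.const_mul D
  rw [Real.zero_rpow (by linarith), mul_zero] at hlim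
  have hev : ∀ᶠ τ : ℝ in nhdsWithin 0 (Ioi 0), D * τ ^ (3 * α - 1) < 1 :=
    (hlim.eventually (gt_mem_nhds one_pos)).filter_mono nhdsWithin_le_nhds
  have hev2 : ∀ᶠ τ : ℝ in nhdsWithin 0 (Ioi 0), τ ∈ Ioc (0:ℝ) (1/4) := Ioc_mem_nhdsGT (by norm_num)
  obtain ⟨τ, hτ1, hτ2⟩ := (hev.and hev2).exists
  exact absurd (main3 τ hτ2.1 hτ2.2) (not_le.2 hτ1)

end Vale.Agent.P074
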