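import Vale.Agent.P074.Statement
import Vale.Agent.P074.Lower
import Vale.Agent.P074.Upper

open MeasureTheory Set
open scoped ENNReal NNReal

namespace Vale.Agent.P074

theorem isOptMap_iff {d : ℕ} (ρ μ : Measure (E d)) (T : E d → E d) :
    P074S.IsOptMap ρ μ T ↔ IsOptMap ρ μ T :=
  ⟨fun h => ⟨h.meas, h.map_eq, h.minimal⟩, fun h => ⟨h.meas, h.map_eq, h.minimal⟩⟩

theorem admissible_iff (d : ℕ) (α : ℝ) : P074S.Admissible d α ↔ Admissible d α := by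
  constructor
  · intro h K hK hKc hKi Y hY
    obtain ⟨C, hC⟩ := h K hK hKc hKi Y hY
    exact ⟨C, fun μ ν hμ hν hμY hνY T S hT hS =>
      hC μ ν hμ hν hμY hνY T S ((isOptMap_iff _ _ _).2 hT) ((isOptMap_iff _ _ _).2 hS)⟩
  · intro h K hK hKc hKi Y hY
    obtain ⟨C, hC⟩ := h K hK hKc hKi Y hY
    exact ⟨C, fun μ ν hμ hν hμY hνY T S hT hS =>
      hC μ ν hμ hν hμY hνY T S ((isOptMap_iff _ _ _).1 hT) ((isOptMap_iff _ _ _).1 hS)⟩

theorem final (d : ℕ) (hd : 2 ≤ d) :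
    IsGreatest {α : ℝ | 0 < α ∧ α ≤ 1 ∧ P074S.Admissible d α} (1 / 3) := by
  refine ⟨⟨by norm_num, by norm_num, ?_⟩, ?_⟩
  · rw [admissible_iff]
    exact lower_bound d hd
  · rintro α ⟨_, _, hα⟩
    rw [admissible_iff] at hα
    exact upper_bound d hd α hα

end Vale.Agent.P074
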