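import Mathlib

open Finset

namespace Vale.Agent.P074

/-- Cauchy-Schwarz in the form used below. -/
theorem cs_sum {ι : Type} [Fintype ι] (r f g : ι → ℝ) (hf : ∀ i, 0 ≤ f i) (hg : ∀ i, 0 ≤ g i)
    (h : ∀ i, r i ^ 2 ≤ f i * g i) (F G : ℝ) (hF : ∑ i, f i ≤ F) (hG : ∑ i, g i ≤ G) :
    ∑ i, r i ≤ √F * √G := by
  have h1 := Finset.sum_sq_le_sum_mul_sum_of_sq_le_mul univ (r := r) (fun i _ => hf i)
    (fun i _ => hg i) (fun i _ => h i)
  have hf0 : 0 ≤ ∑ i, f i := Finset.sum_nonneg fun i _ => hf i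
  have hg0 : 0 ≤ ∑ i, g i := Finset.sum_nonneg fun i _ => hg i
  have h2 : (∑ i, r i) ^ 2 ≤ F * G := h1.trans (by gcongr; exact hf0.trans hF)
  rw [← Real.sqrt_mul (hf0.trans hF)]
  exact Real.le_sqrt_of_sq_le h2

theorem key_alg {ι : Type} [Fintype ι] (R : ℝ) (hR : 0 < R)
    (W0 W1 V0 V1 A0 A1 B0 B1 n L : ι → ℝ)
    (hW0 : ∀ i, 0 < W0 i) (hW1 : ∀ i, 0 < W1 i)
    (hV0 : ∀ i, V0 i = A0 i * W0 i) (hV1 : ∀ i, V1 i = A1 i * W1 i)
    (hWV0 : ∀ i, W0 i ≤ V0 i) (hWV1 : ∀ i, W1 i ≤ V1 i)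
    (hVW0 : ∀ i, V0 i ≤ 1.02 * W0 i) (hVW1 : ∀ i, V1 i ≤ 1.02 * W1 i)
    (h1 : ∀ i, V0 i / 2 ≤ V1 i) (h2 : ∀ i, V1 i ≤ 2 * V0 i)
    (hn : ∀ i, 0 ≤ n i) (hL : ∀ i, 0 < L i) (hLn : ∀ i, n i ≠ 0 → L i ≤ 1.1 * n i)
    (hB0 : ∀ i, |B0 i| ≤ 1.02 * R * n i) (hB1 : ∀ i, |B1 i| ≤ 1.02 * R * n i)
    (hA : ∑ i, √(W0 i * W1 i) * (A1 i - A0 i) ^ 2 ≤
      1 / 10 * ∑ i, (W1 i - W0 i) ^ 2 / (W0 i + W1 i))
    (hB : ∑ i, √(W0 i * W1 i) * (B1 i - B0 i) ^ 2 / (L i) ^ 2 ≤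
      200 * R ^ 2 * ∑ i, (W1 i - W0 i) ^ 2 / (W0 i + W1 i)) :
    ∑ i, (B1 i * W1 i - B0 i * W0 i) ≤
      1000 * R * √(∑ i, (V1 i - V0 i) ^ 2 / V0 i) * √(∑ i, V0 i * n i ^ 2) := by
  set Q : ℝ := ∑ i, (W1 i - W0 i) ^ 2 / (W0 i + W1 i) with hQ
  set D : ℝ := ∑ i, (V1 i - V0 i) ^ 2 / V0 i with hD
  set N : ℝ := ∑ i, V0 i * n i ^ 2 with hN
  have hV0p : ∀ i, 0 < V0 i := fun i => (hW0 i).trans_le (hWV0 i)
  have hV1p : ∀ i, 0 < V1 i := fun i => (hW1 i).trans_le (hWV1 i)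
  have hD0 : 0 ≤ D := Finset.sum_nonneg fun i _ => by have := hV0p i; positivity
  have hQ0 : 0 ≤ Q := Finset.sum_nonneg fun i _ => by
    have := hW0 i
    have := hW1 i
    positivity
  have hN0 : 0 ≤ N := Finset.sum_nonneg fun i _ => by have := hV0p i; positivity
  have hS : ∀ i, W0 i / 2 ≤ √(W0 i * W1 i) := by
    intro i
    apply Real.le_sqrt_of_sq_le
    have a1 := hW0 i
    have a2 := hVW1 i
    have a3 := h1 i
    have a4 := hWV0 i
    nlinarith
  have hA' : ∑ i, W0 i * (A1 i - A0 i) ^ 2 ≤ 1 / 5 * Q := by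
    have : ∑ i, W0 i * (A1 i - A0 i) ^ 2 ≤ 2 * ∑ i, √(W0 i * W1 i) * (A1 i - A0 i) ^ 2 := by
      rw [Finset.mul_sum]
      refine Finset.sum_le_sum fun i _ => ?_
      have := mul_le_mul_of_nonneg_right (hS i) (sq_nonneg (A1 i - A0 i))
      linarith
    linarith
  have hQD : Q ≤ 4 * D := by
    have e : ∀ i, (W1 i - W0 i) ^ 2 / (W0 i + W1 i) ≤
        2.04 * ((V1 i - V0 i) ^ 2 / V0 i) + 2 * (W0 i * (A1 i - A0 i) ^ 2) := by
      intro i
      have a1 := hW0 i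
      have a2 := hW1 i
      have a3 := hV0p i
      have a5 : 1 ≤ A1 i := by
        have := hWV1 i
        rw [hV1 i] at this
        nlinarith
      have e1 : (W1 i - W0 i) * A1 i = (V1 i - V0 i) - W0 i * (A1 i - A0 i) := by
        rw [hV0 i, hV1 i]
        ring
      have e2 : (W1 i - W0 i) ^ 2 ≤ 2 * (V1 i - V0 i) ^ 2 + 2 * (W0 i * (A1 i - A0 i)) ^ 2 := by
        have h3 : (W1 i - W0 i) ^ 2 ≤ ((W1 i - W0 i) * A1 i) ^ 2 := by
          rw [mul_pow]
          have : (1 : ℝ) ≤ A1 i ^ 2 := by nlinarith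
          nlinarith [sq_nonneg (W1 i - W0 i)]
        rw [e1] at h3
        nlinarith [sq_nonneg ((V1 i - V0 i) + W0 i * (A1 i - A0 i))]
      have e3 : (W1 i - W0 i) ^ 2 / (W0 i + W1 i) ≤
          (2 * (V1 i - V0 i) ^ 2 + 2 * (W0 i * (A1 i - A0 i)) ^ 2) / W0 i := by
        gcongr
        linarith
      refine e3.trans ?_
      have e4 : (2 * (V1 i - V0 i) ^ 2 + 2 * (W0 i * (A1 i - A0 i)) ^ 2) / W0 i =
          2 * ((V1 i - V0 i) ^ 2 / W0 i) + 2 * (W0 i * (A1 i - A0 i) ^ 2) := by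
        field_simp
      rw [e4]
      have e5 : (V1 i - V0 i) ^ 2 / W0 i ≤ 1.02 * ((V1 i - V0 i) ^ 2 / V0 i) := by
        rw [← mul_div_assoc, div_le_div_iff₀ a1 a3]
        have := hVW0 i
        nlinarith [sq_nonneg (V1 i - V0 i)]
      linarith
    have : Q ≤ 2.04 * D + 2 * (∑ i, W0 i * (A1 i - A0 i) ^ 2) := by
      rw [hQ, hD, Finset.mul_sum, Finset.mul_sum, ← Finset.sum_add_distrib]
      exact Finset.sum_le_sum fun i _ => e i
    linarith
  have hWN : ∑ i, W0 i * n i ^ 2 ≤ N := Finset.sum_le_sum fun i _ => by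
    have := hWV0 i
    gcongr
  -- first part
  have p1 : ∑ i, (W1 i - W0 i) * B1 i ≤ √Q * √(4 * R ^ 2 * N) := by
    refine cs_sum _ (fun i => (W1 i - W0 i) ^ 2 / (W0 i + W1 i))
      (fun i => (W0 i + W1 i) * (B1 i) ^ 2) ?_ ?_ ?_ _ _ le_rfl ?_
    · intro i
      have := hW0 i
      have := hW1 i
      positivity
    · intro i
      have := hW0 i
      have := hW1 i
      positivity
    · intro i
      have := hW0 i
      have := hW1 i
      apply le_of_eq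
      field_simp
    · rw [hN, Finset.mul_sum]
      refine Finset.sum_le_sum fun i _ => ?_
      have a1 := hW0 i
      have a2 := hW1 i
      have a3 : (B1 i) ^ 2 ≤ (1.02 * R * n i) ^ 2 := by
        rw [← sq_abs]
        have := hB1 i
        gcongr
      have a4 : W0 i + W1 i ≤ 3 * V0 i := by
        have := hWV0 i
        have := hWV1 i
        have := h2 i
        linarith
      calc (W0 i + W1 i) * (B1 i) ^ 2 ≤ (3 * V0 i) * (1.02 * R * n i) ^ 2 := by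
            have := hV0p i
            gcongr
        _ = 3.1212 * R ^ 2 * (V0 i * n i ^ 2) := by ring
        _ ≤ 4 * R ^ 2 * (V0 i * n i ^ 2) := by
            have := hV0p i
            gcongr
            norm_num
  -- second part
  have p2 : ∑ i, W0 i * (B1 i - B0 i) ≤ √(400 * R ^ 2 * Q) * √(2 * N) := by
    refine cs_sum _ (fun i => W0 i * (B1 i - B0 i) ^ 2 / (L i) ^ 2)
      (fun i => W0 i * (1.1 * n i) ^ 2) ?_ ?_ ?_ _ _ ?_ ?_
    · intro i
      have := hW0 i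
      positivity
    · intro i
      have := hW0 i
      positivity
    · intro i
      have a1 := hW0 i
      have a2 := hL i
      by_cases h0 : n i = 0
      · have b1 : B1 i = 0 := by
          have := hB1 i
          rw [h0, mul_zero] at this
          exact abs_nonpos_iff.1 this
        have b0 : B0 i = 0 := by
          have := hB0 i
          rw [h0, mul_zero] at this
          exact abs_nonpos_iff.1 this
        simp [b0, b1, h0]
      · have a3 := hLn i h0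
        have a4 : (L i) ^ 2 ≤ (1.1 * n i) ^ 2 := by gcongr
        have : W0 i * (B1 i - B0 i) ^ 2 / (L i) ^ 2 * (W0 i * (1.1 * n i) ^ 2) =
          (W0 i * (B1 i - B0 i)) ^ 2 * ((1.1 * n i) ^ 2 / (L i) ^ 2) := by
          field_simp
        rw [this]
        have h5 : 1 ≤ (1.1 * n i) ^ 2 / (L i) ^ 2 := by
          rw [one_le_div (by positivity)]
          exact a4
        nlinarith [sq_nonneg (W0 i * (B1 i - B0 i))]
    · have : ∑ i, W0 i * (B1 i - B0 i) ^ 2 / (L i) ^ 2 ≤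
          2 * ∑ i, √(W0 i * W1 i) * (B1 i - B0 i) ^ 2 / (L i) ^ 2 := by
        rw [Finset.mul_sum]
        refine Finset.sum_le_sum fun i _ => ?_
        have a1 := hL i
        have a2 := hS i
        have a3 : W0 i * (B1 i - B0 i) ^ 2 ≤ 2 * (√(W0 i * W1 i) * (B1 i - B0 i) ^ 2) := by
          nlinarith [sq_nonneg (B1 i - B0 i)]
        rw [← mul_div_assoc]
        exact div_le_div_of_nonneg_right a3 (sq_nonneg _)
      linarith
    · have : ∑ i, W0 i * (1.1 * n i) ^ 2 = 1.21 * ∑ i, W0 i * n i ^ 2 := by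
        rw [Finset.mul_sum]
        refine Finset.sum_congr rfl fun i _ => ?_
        ring
      rw [this]
      linarith
  have e : ∑ i, (B1 i * W1 i - B0 i * W0 i) =
      ∑ i, (W1 i - W0 i) * B1 i + ∑ i, W0 i * (B1 i - B0 i) := by
    rw [← Finset.sum_add_distrib]
    refine Finset.sum_congr rfl fun i _ => ?_
    ring
  rw [e]
  have q1 : √Q ≤ 2 * √D := by
    have : √Q ≤ √(4 * D) := Real.sqrt_le_sqrt hQD
    rw [Real.sqrt_mul (by norm_num)] at this
    have h4 : √(4 : ℝ) = 2 := by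
      rw [show (4 : ℝ) = 2 ^ 2 by norm_num]
      exact Real.sqrt_sq (by norm_num)
    rwa [h4] at this
  have q2 : √(4 * R ^ 2 * N) = 2 * R * √N := by
    rw [show 4 * R ^ 2 * N = (2 * R) ^ 2 * N by ring, Real.sqrt_mul (by positivity),
      Real.sqrt_sq (by positivity)]
  have q3 : √(400 * R ^ 2 * Q) = 20 * R * √Q := by
    rw [show 400 * R ^ 2 * Q = (20 * R) ^ 2 * Q by ring, Real.sqrt_mul (by positivity),
      Real.sqrt_sq (by positivity)]
  have q4 : √(2 * N) ≤ 2 * √N := by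
    have h5 : √(2 * N) ≤ √(2 ^ 2 * N) := Real.sqrt_le_sqrt (by linarith)
    have h6 : √(2 ^ 2 * N) = 2 * √N := by
      rw [Real.sqrt_mul (by positivity), Real.sqrt_sq (by positivity)]
    linarith
  rw [q2] at p1
  rw [q3] at p2
  have r1 : √Q * (2 * R * √N) ≤ (2 * √D) * (2 * R * √N) := by gcongr
  have r2 : 20 * R * √Q * √(2 * N) ≤ 20 * R * (2 * √D) * (2 * √N) := by gcongr
  have r3 : 0 ≤ R * √D * √N := by positivity
  nlinarith

end Vale.Agent.P074
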