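import Vale.Agent.P074.Cells
import Vale.Agent.P074.CellFacts
import Vale.Agent.P074.KeyAlg

open MeasureTheory Set
open scoped ENNReal NNReal InnerProductSpace

namespace Vale.Agent.P074

theorem exp_le_102 {t : ℝ} (ht : t ≤ 1 / 100) : Real.exp t ≤ 1.02 := by
  have h1 : Real.exp t ≤ Real.exp (1 / 100) := Real.exp_le_exp.2 ht
  have h2 : 1 - 1 / 100 ≤ Real.exp (-(1 / 100)) := Real.one_sub_le_exp_neg _
  have h3 : Real.exp (1 / 100) * Real.exp (-(1 / 100)) = 1 := by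
    rw [← Real.exp_add]
    simp
  have h4 := Real.exp_pos (1 / 100)
  nlinarith

theorem exp_lip {s t M : ℝ} (hs : Real.exp s ≤ M) (ht : Real.exp t ≤ M) :
    |Real.exp s - Real.exp t| ≤ M * |s - t| := by
  have key : ∀ a b : ℝ, Real.exp a ≤ M → Real.exp a - Real.exp b ≤ M * |a - b| := by
    intro a b ha
    have h1 : 1 + (b - a) ≤ Real.exp (b - a) := by
      have := Real.add_one_le_exp (b - a)
      linarith
    have h2 : Real.exp a * Real.exp (b - a) = Real.exp b := by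
      rw [← Real.exp_add]
      congr 1
      ring
    have h3 := Real.exp_pos a
    have h4 : a - b ≤ |a - b| := le_abs_self _
    have h5 : 0 ≤ |a - b| := abs_nonneg _
    calc Real.exp a - Real.exp b = Real.exp a * (1 - Real.exp (b - a)) := by rw [mul_sub, h2, mul_one]
      _ ≤ Real.exp a * |a - b| := by
          apply mul_le_mul_of_nonneg_left _ h3.le
          linarith
      _ ≤ M * |a - b| := by gcongr
  rw [abs_le]
  constructor
  · have := key t s ht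
    rw [abs_sub_comm] at this
    linarith
  · exact key s t hs

/-- KEY inequality for the uniform source. -/
theorem key_uniform {d : ℕ} {ι : Type} [Fintype ι] [Nonempty ι] {K : Set (E d)}
    (hK : IsCompact K) (hKc : Convex ℝ K) {R : ℝ} (hR : 0 < R) (hKR : ∀ x ∈ K, ‖x‖ ≤ R)
    (y : ι → E d) (hy : Function.Injective y) (ψ0 ψ1 : ι → ℝ) (a : ι → E d)
    (hpos : ∀ i, 0 < vol K y ψ0 i) (h1 : ∀ i, vol K y ψ0 i / 2 ≤ vol K y ψ1 i)
    (h2 : ∀ i, vol K y ψ1 i ≤ 2 * vol K y ψ0 i) :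
    ∑ i, (mom K y ψ1 i (a i) - mom K y ψ0 i (a i)) ≤
      1000 * R * √(∑ i, (vol K y ψ1 i - vol K y ψ0 i) ^ 2 / vol K y ψ0 i) *
        √(∑ i, vol K y ψ0 i * ‖a i‖ ^ 2) := by
  classical
  set κ : ℝ := 1 / (50 * R ^ 2) with hκdef
  have hκ : 0 < κ := by positivity
  have hκR : κ * R ^ 2 = 1 / 50 := by
    rw [hκdef]
    field_simp
  have hpos1 : ∀ i, 0 < vol K y ψ1 i := fun i => by
    have := hpos i
    have := h1 i
    linarith
  -- the exponent is small on `K`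
  have hexp : ∀ x ∈ K, Real.exp (κ / 2 * ‖x‖ ^ 2) ≤ 1.02 := by
    intro x hx
    apply exp_le_102
    have h3 := hKR x hx
    have h4 : ‖x‖ ^ 2 ≤ R ^ 2 := by
      have := norm_nonneg x
      gcongr
    nlinarith
  have hgexp : ∀ x : E d, Real.exp (κ / 2 * ‖x‖ ^ 2) * gau κ x = 1 := by
    intro x
    unfold gau
    rw [← Real.exp_add]
    simp
  have hgle : ∀ x : E d, gau κ x ≤ 1 := by
    intro x
    unfold gau
    apply Real.exp_le_one_iff.2
    have : 0 ≤ κ / 2 * ‖x‖ ^ 2 := by positivity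
    linarith
  have hgge : ∀ x ∈ K, 1 ≤ 1.02 * gau κ x := by
    intro x hx
    have h3 := hexp x hx
    have h4 := hgexp x
    have h5 : 0 < gau κ x := gau_pos κ x
    nlinarith
  have hcc : ∀ (ψ : ι → ℝ) (i : ι), IsCompact (cell K y ψ i) := fun ψ i =>
    hK.of_isClosed_subset (isClosed_cell hK.isClosed i) (cell_subset i)
  have hint : ∀ (ψ : ι → ℝ) (i : ι) (f : E d → ℝ), Continuous f → IntegrableOn f (cell K y ψ i) :=
    fun ψ i f hf => hf.continuousOn.integrableOn_compact (hcc ψ i)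
  have hvol : ∀ (ψ : ι → ℝ) (i : ι), ∫ x in cell K y ψ i, (1 : ℝ) = vol K y ψ i := by
    intro ψ i
    simp [vol, Measure.real]
  have hWV : ∀ (ψ : ι → ℝ) (i : ι), ∫ x in cell K y ψ i, gau κ x ≤ vol K y ψ i := by
    intro ψ i
    rw [← hvol]
    apply setIntegral_mono_on (hint ψ i _ (continuous_gau κ)) (hint ψ i _ continuous_const)
      (measurableSet_cell hK.isClosed i)
    intro x _
    exact hgle x
  have hVW : ∀ (ψ : ι → ℝ) (i : ι), vol K y ψ i ≤ 1.02 * ∫ x in cell K y ψ i, gau κ x := by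
    intro ψ i
    rw [← hvol, ← integral_const_mul]
    apply setIntegral_mono_on (hint ψ i _ continuous_const)
      ((hint ψ i _ (continuous_gau κ)).const_mul _) (measurableSet_cell hK.isClosed i)
    intro x hx
    exact hgge x hx.1
  have hmom : ∀ (ψ : ι → ℝ) (i : ι), |mom K y ψ i (a i)| ≤ R * ‖a i‖ * vol K y ψ i := by
    intro ψ i
    unfold mom
    have h3 : ‖∫ x in cell K y ψ i, ⟪x, a i⟫_ℝ‖ ≤ (R * ‖a i‖) * volume.real (cell K y ψ i) := by
      apply norm_setIntegral_le_of_norm_le_const (volume_cell_lt_top hK i)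
      intro x hx
      calc ‖⟪x, a i⟫_ℝ‖ ≤ ‖x‖ * ‖a i‖ := norm_inner_le_norm x (a i)
        _ ≤ R * ‖a i‖ := by
          have := hKR x hx.1
          gcongr
    rw [Real.norm_eq_abs] at h3
    exact h3
  -- the weights
  set W0 : ι → ℝ := fun i => ∫ x in cell K y ψ0 i, gau κ x with hW0
  set W1 : ι → ℝ := fun i => ∫ x in cell K y ψ1 i, gau κ x with hW1
  have hW0p : ∀ i, 0 < W0 i := fun i => by
    have := hVW ψ0 i
    have := hpos i
    simp only [hW0]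
    linarith
  have hW1p : ∀ i, 0 < W1 i := fun i => by
    have := hVW ψ1 i
    have := hpos1 i
    simp only [hW1]
    linarith
  have hexpc : Continuous (fun x : E d => Real.exp (κ / 2 * ‖x‖ ^ 2)) := by fun_prop
  -- Lipschitz bounds
  have hlipA : ∀ x ∈ K, ∀ z ∈ K,
      |Real.exp (κ / 2 * ‖x‖ ^ 2) - Real.exp (κ / 2 * ‖z‖ ^ 2)| ≤
        1.02 * κ * R * ‖x - z‖ := by
    intro x hx z hz
    refine (exp_lip (hexp x hx) (hexp z hz)).trans ?_
    have h3 : |κ / 2 * ‖x‖ ^ 2 - κ / 2 * ‖z‖ ^ 2| ≤ κ * R * ‖x - z‖ := by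
      have e1 : κ / 2 * ‖x‖ ^ 2 - κ / 2 * ‖z‖ ^ 2 = κ / 2 * ((‖x‖ + ‖z‖) * (‖x‖ - ‖z‖)) := by
        ring
      rw [e1, abs_mul, abs_mul, abs_of_pos (by positivity : 0 < κ / 2),
        abs_of_nonneg (by positivity : 0 ≤ ‖x‖ + ‖z‖)]
      have e2 : |‖x‖ - ‖z‖| ≤ ‖x - z‖ := abs_norm_sub_norm_le x z
      have e3 : ‖x‖ + ‖z‖ ≤ 2 * R := by
        have := hKR x hx
        have := hKR z hz
        linarith
      calc κ / 2 * ((‖x‖ + ‖z‖) * |‖x‖ - ‖z‖|) ≤ κ / 2 * ((2 * R) * ‖x - z‖) := by gcongr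
        _ = κ * R * ‖x - z‖ := by ring
    calc 1.02 * |κ / 2 * ‖x‖ ^ 2 - κ / 2 * ‖z‖ ^ 2| ≤ 1.02 * (κ * R * ‖x - z‖) := by gcongr
      _ = 1.02 * κ * R * ‖x - z‖ := by ring
  have hlipB : ∀ i, ∀ x ∈ K, ∀ z ∈ K,
      |⟪x, a i⟫_ℝ * Real.exp (κ / 2 * ‖x‖ ^ 2) - ⟪z, a i⟫_ℝ * Real.exp (κ / 2 * ‖z‖ ^ 2)| ≤
        1.1 * ‖a i‖ * ‖x - z‖ := by
    intro i x hx z hz
    have e1 : ⟪x, a i⟫_ℝ * Real.exp (κ / 2 * ‖x‖ ^ 2) - ⟪z, a i⟫_ℝ * Real.exp (κ / 2 * ‖z‖ ^ 2) =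
        ⟪x - z, a i⟫_ℝ * Real.exp (κ / 2 * ‖x‖ ^ 2) +
          ⟪z, a i⟫_ℝ * (Real.exp (κ / 2 * ‖x‖ ^ 2) - Real.exp (κ / 2 * ‖z‖ ^ 2)) := by
      rw [inner_sub_left]
      ring
    rw [e1]
    refine (abs_add_le _ _).trans ?_
    rw [abs_mul, abs_mul, abs_of_pos (Real.exp_pos _)]
    have e2 : |⟪x - z, a i⟫_ℝ| ≤ ‖x - z‖ * ‖a i‖ := abs_real_inner_le_norm _ _
    have e3 : |⟪z, a i⟫_ℝ| ≤ R * ‖a i‖ := by
      refine (abs_real_inner_le_norm _ _).trans ?_
      have := hKR z hz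
      gcongr
    have e4 := hlipA x hx z hz
    have e5 := hexp x hx
    calc |⟪x - z, a i⟫_ℝ| * Real.exp (κ / 2 * ‖x‖ ^ 2) +
          |⟪z, a i⟫_ℝ| * |Real.exp (κ / 2 * ‖x‖ ^ 2) - Real.exp (κ / 2 * ‖z‖ ^ 2)| ≤
          (‖x - z‖ * ‖a i‖) * 1.02 + (R * ‖a i‖) * (1.02 * κ * R * ‖x - z‖) := by gcongr
      _ = 1.02 * (1 + κ * R ^ 2) * ‖a i‖ * ‖x - z‖ := by ring
      _ ≤ 1.1 * ‖a i‖ * ‖x - z‖ := by
          rw [hκR]
          gcongr
          norm_num
  -- the two applications of `cells_sum`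
  have hAeq : ∀ (ψ : ι → ℝ) (i : ι), 0 < (∫ x in cell K y ψ i, gau κ x) →
      ∫ x in cell K y ψ i, Real.exp (κ / 2 * ‖x‖ ^ 2) * gau κ x =
        vol K y ψ i / (∫ x in cell K y ψ i, gau κ x) * ∫ x in cell K y ψ i, gau κ x := by
    intro ψ i hp
    rw [div_mul_cancel₀ _ hp.ne', ← hvol]
    apply integral_congr_ae
    filter_upwards with x
    exact hgexp x
  have hBeq : ∀ (ψ : ι → ℝ) (i : ι), 0 < (∫ x in cell K y ψ i, gau κ x) →
      ∫ x in cell K y ψ i, (⟪x, a i⟫_ℝ * Real.exp (κ / 2 * ‖x‖ ^ 2)) * gau κ x =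
        mom K y ψ i (a i) / (∫ x in cell K y ψ i, gau κ x) * ∫ x in cell K y ψ i, gau κ x := by
    intro ψ i hp
    rw [div_mul_cancel₀ _ hp.ne']
    unfold mom
    apply integral_congr_ae
    filter_upwards with x
    rw [mul_assoc, hgexp x, mul_one]
  have hA := cells_sum hK hKc κ hκ y hy ψ0 ψ1 (fun _ x => Real.exp (κ / 2 * ‖x‖ ^ 2))
    (fun _ => hexpc) (fun _ => 1.02 * κ * R) (fun _ => by positivity)
    (fun _ x hx z hz => hlipA x hx z hz) W0 W1 (fun i => vol K y ψ0 i / W0 i)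
    (fun i => vol K y ψ1 i / W1 i) (fun _ => rfl) (fun _ => rfl) hW0p hW1p
    (fun i => hAeq ψ0 i (hW0p i)) (fun i => hAeq ψ1 i (hW1p i))
  have hB := cells_sum hK hKc κ hκ y hy ψ0 ψ1
    (fun i x => ⟪x, a i⟫_ℝ * Real.exp (κ / 2 * ‖x‖ ^ 2))
    (fun i => by fun_prop) (fun i => if a i = 0 then 1 else 1.1 * ‖a i‖)
    (fun i => by
      split_ifs with h
      · norm_num
      · have : 0 < ‖a i‖ := norm_pos_iff.2 h
        positivity)
    (fun i x hx z hz => by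
      split_ifs with h
      · have := hlipB i x hx z hz
        rw [h, norm_zero, mul_zero, zero_mul] at this
        rw [h]
        have h3 : 0 ≤ 1 * ‖x - z‖ := by positivity
        linarith
      · exact hlipB i x hx z hz)
    W0 W1 (fun i => mom K y ψ0 i (a i) / W0 i)
    (fun i => mom K y ψ1 i (a i) / W1 i) (fun _ => rfl) (fun _ => rfl) hW0p hW1p
    (fun i => hBeq ψ0 i (hW0p i)) (fun i => hBeq ψ1 i (hW1p i))
  have hQ0 : 0 ≤ ∑ i, (W1 i - W0 i) ^ 2 / (W0 i + W1 i) := Finset.sum_nonneg fun i _ => by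
    have := hW0p i
    have := hW1p i
    positivity
  have hbd : ∀ (ψ : ι → ℝ) (i : ι), 0 < (∫ x in cell K y ψ i, gau κ x) →
      |mom K y ψ i (a i) / (∫ x in cell K y ψ i, gau κ x)| ≤ 1.02 * R * ‖a i‖ := by
    intro ψ i hp
    rw [abs_div, abs_of_pos hp, div_le_iff₀ hp]
    refine (hmom ψ i).trans ?_
    have h3 := hVW ψ i
    have h4 : 0 ≤ R * ‖a i‖ := by positivity
    calc R * ‖a i‖ * vol K y ψ i ≤ R * ‖a i‖ * (1.02 * ∫ x in cell K y ψ i, gau κ x) := by gcongr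
      _ = 1.02 * R * ‖a i‖ * ∫ x in cell K y ψ i, gau κ x := by ring
  have hfin := key_alg R hR W0 W1 (fun i => vol K y ψ0 i) (fun i => vol K y ψ1 i)
    (fun i => vol K y ψ0 i / W0 i) (fun i => vol K y ψ1 i / W1 i)
    (fun i => mom K y ψ0 i (a i) / W0 i) (fun i => mom K y ψ1 i (a i) / W1 i)
    (fun i => ‖a i‖) (fun i => if a i = 0 then 1 else 1.1 * ‖a i‖) hW0p hW1p
    (fun i => (div_mul_cancel₀ _ (hW0p i).ne').symm) (fun i => (div_mul_cancel₀ _ (hW1p i).ne').symm)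
    (fun i => hWV ψ0 i) (fun i => hWV ψ1 i) (fun i => hVW ψ0 i) (fun i => hVW ψ1 i) h1 h2
    (fun i => norm_nonneg _)
    (fun i => by
      split_ifs with h
      · norm_num
      · have : 0 < ‖a i‖ := norm_pos_iff.2 h
        positivity)
    (fun i h => by
      rw [if_neg (norm_ne_zero_iff.1 h)])
    (fun i => hbd ψ0 i (hW0p i)) (fun i => hbd ψ1 i (hW1p i))
    (by
      have e1 : κ / 4 * ∑ i, √(W0 i * W1 i) * (vol K y ψ1 i / W1 i - vol K y ψ0 i / W0 i) ^ 2 /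
          (1.02 * κ * R) ^ 2 =
          (κ / 4 / (1.02 * κ * R) ^ 2) *
            ∑ i, √(W0 i * W1 i) * (vol K y ψ1 i / W1 i - vol K y ψ0 i / W0 i) ^ 2 := by
        rw [Finset.mul_sum, Finset.mul_sum]
        refine Finset.sum_congr rfl fun i _ => ?_
        ring
      rw [e1] at hA
      have e2 : 10 ≤ κ / 4 / (1.02 * κ * R) ^ 2 := by
        rw [le_div_iff₀ (by positivity)]
        have : 10 * (1.02 * κ * R) ^ 2 = 10 * 1.02 ^ 2 * κ * (κ * R ^ 2) := by ring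
        rw [this, hκR]
        nlinarith
      have e3 : 0 ≤ ∑ i, √(W0 i * W1 i) * (vol K y ψ1 i / W1 i - vol K y ψ0 i / W0 i) ^ 2 :=
        Finset.sum_nonneg fun i _ => by positivity
      nlinarith)
    (by
      have e1 : κ / 4 = 1 / (200 * R ^ 2) := by
        rw [hκdef]
        field_simp
        norm_num
      rw [e1, div_mul_eq_mul_div, one_mul, div_le_iff₀ (by positivity)] at hB
      linarith)
  have hs : ∀ i, mom K y ψ1 i (a i) - mom K y ψ0 i (a i) =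
      mom K y ψ1 i (a i) / W1 i * W1 i - mom K y ψ0 i (a i) / W0 i * W0 i := by
    intro i
    rw [div_mul_cancel₀ _ (hW1p i).ne', div_mul_cancel₀ _ (hW0p i).ne']
  rw [Finset.sum_congr rfl fun i _ => hs i]
  exact hfin

end Vale.Agent.P074
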