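import Vale.Agent.P074.CellFacts

open MeasureTheory Set
open scoped ENNReal NNReal InnerProductSpace

namespace Vale.Agent.P074

variable {d n : ℕ} {K : Set (E d)} {y : Fin n → E d} {ψ : Fin n → ℝ}

/-- A disjoint partition of `K` subordinate to the cells. -/
def part (K : Set (E d)) (y : Fin n → E d) (ψ : Fin n → ℝ) (i : Fin n) : Set (E d) :=
  cell K y ψ i \ ⋃ j, ⋃ (_ : j < i), cell K y ψ j

theorem part_subset_cell (i : Fin n) : part K y ψ i ⊆ cell K y ψ i := fun _ hx => hx.1

theorem part_subset (i : Fin n) : part K y ψ i ⊆ K := fun _ hx => hx.1.1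

theorem measurableSet_part (hK : IsClosed K) (i : Fin n) : MeasurableSet (part K y ψ i) :=
  (measurableSet_cell hK i).diff (MeasurableSet.iUnion fun j => MeasurableSet.iUnion fun _ =>
    measurableSet_cell hK j)

theorem disjoint_part : Pairwise (fun i j => Disjoint (part K y ψ i) (part K y ψ j)) := by
  have key : ∀ i j : Fin n, i < j → Disjoint (part K y ψ i) (part K y ψ j) := by
    intro i j hij
    rw [Set.disjoint_left]
    intro x hx hx'
    exact hx'.2 (mem_iUnion.2 ⟨i, mem_iUnion.2 ⟨hij, hx.1⟩⟩)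
  intro i j hij
  rcases lt_or_gt_of_ne hij with h | h
  · exact key i j h
  · exact (key j i h).symm

theorem exists_part [NeZero n] {x : E d} (hx : x ∈ K) : ∃ i, x ∈ part K y ψ i := by
  classical
  have hne : (Finset.univ.filter (fun i => x ∈ cell K y ψ i)).Nonempty := by
    haveI : Nonempty (Fin n) := ⟨0⟩
    obtain ⟨i, hi⟩ := exists_cell (y := y) (ψ := ψ) hx
    exact ⟨i, by simp [hi]⟩
  refine ⟨(Finset.univ.filter (fun i => x ∈ cell K y ψ i)).min' hne, ?_, ?_⟩
  · have := Finset.min'_mem _ hne
    simpa using this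
  · intro h
    obtain ⟨j, hj⟩ := mem_iUnion.1 h
    obtain ⟨hj1, hj2⟩ := mem_iUnion.1 hj
    have := Finset.min'_le (Finset.univ.filter (fun i => x ∈ cell K y ψ i)) j (by simp [hj2])
    exact absurd hj1 (not_lt.2 this)

theorem iUnion_part [NeZero n] : ⋃ i, part K y ψ i = K := by
  apply subset_antisymm
  · exact iUnion_subset fun i => part_subset i
  · intro x hx
    obtain ⟨i, hi⟩ := exists_part (y := y) (ψ := ψ) hx
    exact mem_iUnion.2 ⟨i, hi⟩

theorem volume_part (hy : Function.Injective y) (i : Fin n) :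
    volume (part K y ψ i) = volume (cell K y ψ i) := by
  have h1 : cell K y ψ i \ part K y ψ i ⊆ ⋃ j, ⋃ (_ : j < i), (cell K y ψ i ∩ cell K y ψ j) := by
    intro x hx
    have h2 : x ∈ ⋃ j, ⋃ (_ : j < i), cell K y ψ j := by
      by_contra h
      exact hx.2 ⟨hx.1, h⟩
    obtain ⟨j, hj⟩ := mem_iUnion.1 h2
    obtain ⟨hj1, hj2⟩ := mem_iUnion.1 hj
    exact mem_iUnion.2 ⟨j, mem_iUnion.2 ⟨hj1, hx.1, hj2⟩⟩
  have h2 : volume (cell K y ψ i \ part K y ψ i) = 0 := by
    refine measure_mono_null h1 ?_
    rw [measure_iUnion_null_iff]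
    intro j
    rw [measure_iUnion_null_iff]
    intro hj
    exact cell_inter_null hy hj.ne'
  apply le_antisymm (measure_mono (part_subset_cell i))
  calc volume (cell K y ψ i) ≤ volume (part K y ψ i ∪ (cell K y ψ i \ part K y ψ i)) := by
        apply measure_mono
        intro x hx
        by_cases h : x ∈ part K y ψ i
        · exact Or.inl h
        · exact Or.inr ⟨hx, h⟩
    _ ≤ volume (part K y ψ i) + volume (cell K y ψ i \ part K y ψ i) := measure_union_le _ _
    _ = volume (part K y ψ i) := by rw [h2, add_zero]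

/-- The measurable selection of the subgradient. -/
noncomputable def sel (K : Set (E d)) (y : Fin n → E d) (ψ : Fin n → ℝ) (x : E d) : E d :=
  ∑ i, (part K y ψ i).indicator (fun _ => y i) x

theorem measurable_sel (hK : IsClosed K) : Measurable (sel K y ψ) := by
  unfold sel
  apply Finset.measurable_sum
  intro i _
  exact measurable_const.indicator (measurableSet_part hK i)

theorem sel_eq {i : Fin n} {x : E d} (hx : x ∈ part K y ψ i) : sel K y ψ x = y i := by
  unfold sel
  rw [Finset.sum_eq_single i]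
  · exact indicator_of_mem hx _
  · intro j _ hj
    apply indicator_of_notMem
    intro h
    exact (Set.disjoint_left.1 (disjoint_part hj)) h hx
  · intro h
    exact absurd (Finset.mem_univ i) h

theorem sel_norm [NeZero n] {B : ℝ} (hB : ∀ i, ‖y i‖ ≤ B) {x : E d} (hx : x ∈ K) :
    ‖sel K y ψ x‖ ≤ B := by
  obtain ⟨i, hi⟩ := exists_part (y := y) (ψ := ψ) hx
  rw [sel_eq hi]
  exact hB i

theorem sel_subgrad [NeZero n] [Nonempty (Fin n)] {x : E d} (hx : x ∈ K) (z : E d) :
    pot y ψ x + ⟪z - x, sel K y ψ x⟫_ℝ ≤ pot y ψ z := by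
  obtain ⟨i, hi⟩ := exists_part (y := y) (ψ := ψ) hx
  rw [sel_eq hi, pot_eq (part_subset_cell i hi), inner_sub_left]
  have := le_pot (y := y) (ψ := ψ) i z
  linarith

/-- the pieces decompose the restriction of the volume to `K`. -/
theorem restrict_eq_sum_part [NeZero n] (hK : IsClosed K) :
    volume.restrict K = Measure.sum (fun i => (volume : Measure (E d)).restrict (part K y ψ i)) := by
  rw [← Measure.restrict_iUnion disjoint_part (measurableSet_part hK), iUnion_part]

end Vale.Agent.P074
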