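import Mathlib

open MeasureTheory Set
open scoped ENNReal NNReal

namespace Vale.Agent.P074S

/-- The uniform probability measure on `K`. -/
noncomputable def unif {V : Type} [MeasureSpace V] (K : Set V) : Measure V :=
  (volume K)⁻¹ • volume.restrict K

/-- `T` is a quadratic optimal transport map from `ρ` to `μ`: a Borel map pushing `ρ` to `μ`
and minimising the quadratic cost among all Borel maps pushing `ρ` to `μ`. -/
structure IsOptMap {V : Type} [NormedAddCommGroup V] [MeasurableSpace V] (ρ μ : Measure V)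
    (T : V → V) : Prop where
  meas : Measurable T
  map_eq : ρ.map T = μ
  minimal : ∀ S : V → V, Measurable S → ρ.map S = μ →
    ∫⁻ x, ENNReal.ofReal (‖x - T x‖ ^ 2) ∂ρ ≤ ∫⁻ x, ENNReal.ofReal (‖x - S x‖ ^ 2) ∂ρ

/-- The quadratic Wasserstein distance, as an extended nonnegative real number: the square root
of the infimum of the quadratic cost over the couplings of `μ` and `ν`. -/
noncomputable def W2 {V : Type} [NormedAddCommGroup V] [MeasurableSpace V]
    (μ ν : Measure V) : ℝ≥0∞ :=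
  (⨅ (π : Measure (V × V)) (_ : π.map Prod.fst = μ ∧ π.map Prod.snd = ν),
    ∫⁻ p, ENNReal.ofReal (‖p.1 - p.2‖ ^ 2) ∂π) ^ (1 / 2 : ℝ)

/-- The exponent `α` is admissible in dimension `d`. -/
def Admissible (d : ℕ) (α : ℝ) : Prop :=
  ∀ K : Set (EuclideanSpace ℝ (Fin d)), IsCompact K → Convex ℝ K → (interior K).Nonempty →
  ∀ Y : Set (EuclideanSpace ℝ (Fin d)), IsCompact Y →
  ∃ C : ℝ≥0, ∀ μ ν : Measure (EuclideanSpace ℝ (Fin d)),
    IsProbabilityMeasure μ → IsProbabilityMeasure ν → μ Yᶜ = 0 → ν Yᶜ = 0 →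
    ∀ T S : EuclideanSpace ℝ (Fin d) → EuclideanSpace ℝ (Fin d),
      IsOptMap (unif K) μ T → IsOptMap (unif K) ν S →
      eLpNorm (fun x => T x - S x) 2 (unif K) ≤ C * (W2 μ ν) ^ α

end Vale.Agent.P074S
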