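import Vale.Agent.P074.Defs

open MeasureTheory Set
open scoped ENNReal NNReal InnerProductSpace

namespace Vale.Agent.P074

lemma isOptMap_of_argmax {d : ℕ} (ρ : Measure (E d)) [IsFiniteMeasure ρ] (A : Set (E d))
    (hA : A.Finite) (c : E d) (T : E d → E d) (hT : Measurable T) (hTA : ∀ x, T x ∈ A)
    (hmax : ∀ x, ∀ y ∈ A, ⟪x - c, y⟫_ℝ ≤ ⟪x - c, T x⟫_ℝ) :
    IsOptMap ρ (ρ.map T) T := by
  refine ⟨hT, rfl, fun S hS hmap => ?_⟩
  have hSA : ∀ᵐ x ∂ρ, S x ∈ A := by
    have h1 : ∀ᵐ y ∂(ρ.map T), y ∈ A := by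
      exact (ae_map_iff (p := fun y => y ∈ A) hT.aemeasurable hA.measurableSet).2
        (Filter.Eventually.of_forall hTA)
    rw [← hmap] at h1
    exact (ae_map_iff (p := fun y => y ∈ A) hS.aemeasurable hA.measurableSet).1 h1
  have hc : ∫⁻ x, ENNReal.ofReal (‖S x - c‖ ^ 2) ∂ρ = ∫⁻ x, ENNReal.ofReal (‖T x - c‖ ^ 2) ∂ρ := by
    have hm : Measurable (fun y : E d => ENNReal.ofReal (‖y - c‖ ^ 2)) := by fun_prop
    rw [← lintegral_map (f := fun y : E d => ENNReal.ofReal (‖y - c‖ ^ 2)) hm hS,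
      ← lintegral_map (f := fun y : E d => ENNReal.ofReal (‖y - c‖ ^ 2)) hm hT, hmap]
  have hfin : ∫⁻ x, ENNReal.ofReal (‖T x - c‖ ^ 2) ∂ρ ≠ ⊤ := by
    obtain ⟨M, hM⟩ : ∃ M, ∀ y ∈ A, ‖y - c‖ ^ 2 ≤ M := by
      obtain ⟨M, hM⟩ := (hA.image (fun y => ‖y - c‖ ^ 2)).bddAbove
      exact ⟨M, fun y hy => hM (mem_image_of_mem _ hy)⟩
    refine ne_of_lt (lt_of_le_of_lt (lintegral_mono (g := fun _ => ENNReal.ofReal M) fun x =>
      ENNReal.ofReal_le_ofReal (hM _ (hTA x))) ?_)
    rw [lintegral_const]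
    exact ENNReal.mul_lt_top ENNReal.ofReal_lt_top (measure_lt_top _ _)
  have key : ∫⁻ x, ENNReal.ofReal (‖x - T x‖ ^ 2) ∂ρ + ∫⁻ x, ENNReal.ofReal (‖S x - c‖ ^ 2) ∂ρ
      ≤ ∫⁻ x, ENNReal.ofReal (‖x - S x‖ ^ 2) ∂ρ + ∫⁻ x, ENNReal.ofReal (‖T x - c‖ ^ 2) ∂ρ := by
    rw [← lintegral_add_left (by fun_prop), ← lintegral_add_left (by fun_prop)]
    refine lintegral_mono_ae ?_
    filter_upwards [hSA] with x hx
    rw [← ENNReal.ofReal_add (by positivity) (by positivity),
      ← ENNReal.ofReal_add (by positivity) (by positivity)]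
    apply ENNReal.ofReal_le_ofReal
    have h := hmax x (S x) hx
    rw [inner_sub_left, inner_sub_left] at h
    rw [norm_sub_sq_real, norm_sub_sq_real, norm_sub_sq_real, norm_sub_sq_real,
      real_inner_comm c (S x), real_inner_comm c (T x)]
    linarith
  rw [hc] at key
  exact (ENNReal.add_le_add_iff_right hfin).1 key

/-- A coordinate box in `E d`. -/
def bx {d : ℕ} (a b : Fin d → ℝ) : Set (E d) := {x | ∀ i, a i ≤ x i ∧ x i ≤ b i}

lemma bx_eq {d : ℕ} (a b : Fin d → ℝ) : bx a b = (WithLp.ofLp : E d → (Fin d → ℝ)) ⁻¹' (Set.Icc a b) := by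
  ext x
  simp only [bx, mem_preimage, mem_Icc, Pi.le_def]
  exact ⟨fun h => ⟨fun i => (h i).1, fun i => (h i).2⟩, fun h i => ⟨h.1 i, h.2 i⟩⟩

lemma measurableSet_bx {d : ℕ} (a b : Fin d → ℝ) : MeasurableSet (bx a b) := by
  rw [bx_eq]
  exact (PiLp.continuous_ofLp 2 _).measurable measurableSet_Icc

lemma volume_bx {d : ℕ} (a b : Fin d → ℝ) : volume (bx a b) = ∏ i, ENNReal.ofReal (b i - a i) := by
  rw [bx_eq, (PiLp.volume_preserving_ofLp (Fin d)).measure_preimage
    measurableSet_Icc.nullMeasurableSet, Real.volume_Icc_pi]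


/-- The unit cube. -/
def cube (d : ℕ) : Set (E d) := bx (fun _ => 0) (fun _ => 1)

lemma isCompact_cube (d : ℕ) : IsCompact (cube d) := by
  have h : cube d = (WithLp.toLp 2 : (Fin d → ℝ) → E d) '' (Set.Icc (fun _ => 0) (fun _ => 1)) := by
    rw [cube, bx_eq]
    ext x
    constructor
    · intro hx
      exact ⟨WithLp.ofLp x, hx, rfl⟩
    · rintro ⟨y, hy, rfl⟩
      exact hy
  rw [h]
  exact isCompact_Icc.image (PiLp.continuous_toLp 2 _)

lemma convex_cube (d : ℕ) : Convex ℝ (cube d) := by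
  intro x hx y hy a b ha hb hab i
  have h1 := hx i
  have h2 := hy i
  simp only [PiLp.add_apply, PiLp.smul_apply, smul_eq_mul]
  constructor
  · have := mul_nonneg ha h1.1
    have := mul_nonneg hb h2.1
    linarith
  · have := mul_le_mul_of_nonneg_left h1.2 ha
    have := mul_le_mul_of_nonneg_left h2.2 hb
    linarith

lemma interior_cube (d : ℕ) : (interior (cube d)).Nonempty := by
  have h : (WithLp.ofLp : E d → (Fin d → ℝ)) ⁻¹' (Set.pi univ (fun _ => Ioo (0:ℝ) 1)) ⊆ cube d := by
    intro x hx i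
    have := hx i (mem_univ _)
    exact ⟨this.1.le, this.2.le⟩
  have ho : IsOpen ((WithLp.ofLp : E d → (Fin d → ℝ)) ⁻¹' (Set.pi univ (fun _ => Ioo (0:ℝ) 1))) :=
    (isOpen_set_pi finite_univ (fun _ _ => isOpen_Ioo)).preimage (PiLp.continuous_ofLp 2 _)
  refine ⟨WithLp.toLp 2 (fun _ => 1/2), interior_maximal h ho ?_⟩
  intro i _
  simp only
  constructor <;> norm_num

lemma volume_cube (d : ℕ) : volume (cube d) = 1 := by
  rw [cube, volume_bx]
  simp

lemma unif_cube (d : ℕ) : unif (cube d) = volume.restrict (cube d) := by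
  rw [unif, volume_cube]
  simp

lemma isProbabilityMeasure_cube (d : ℕ) : IsProbabilityMeasure (volume.restrict (cube d)) := by
  refine ⟨?_⟩
  rw [Measure.restrict_apply_univ, volume_cube]

/-- The three-atom map. -/
noncomputable def G {d : ℕ} (i : Fin d) (v : E d → ℝ) (m : E d) (x : E d) : E d :=
  if |x i - 1 / 2| ≤ v x then m else if 1 / 2 < x i then EuclideanSpace.single i 2 else 0

lemma measurable_G {d : ℕ} (i : Fin d) (v : E d → ℝ) (hv : Measurable v) (m : E d) :
    Measurable (G i v m) := by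
  refine Measurable.ite ?_ measurable_const (Measurable.ite ?_ measurable_const measurable_const)
  · exact measurableSet_le (by fun_prop) hv
  · exact measurableSet_lt (by fun_prop) (by fun_prop)

lemma G_mem {d : ℕ} (i : Fin d) (v : E d → ℝ) (m : E d) (x : E d) :
    G i v m x ∈ ({m, EuclideanSpace.single i 2, 0} : Set (E d)) := by
  unfold G
  split_ifs <;> simp

lemma G_opt {d : ℕ} (i : Fin d) (v : E d → ℝ) (m c : E d) (x : E d)
    (h2 : ⟪x - c, EuclideanSpace.single i (2:ℝ)⟫_ℝ = 2 * (x i - 1 / 2))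
    (hm : ⟪x - c, m⟫_ℝ = x i - 1 / 2 + v x) :
    ∀ y ∈ ({m, EuclideanSpace.single i 2, 0} : Set (E d)), ⟪x - c, y⟫_ℝ ≤ ⟪x - c, G i v m x⟫_ℝ := by
  intro y hy
  have h0 : ⟪x - c, (0 : E d)⟫_ℝ = 0 := inner_zero_right _
  have hy' : ⟪x - c, y⟫_ℝ = x i - 1 / 2 + v x ∨ ⟪x - c, y⟫_ℝ = 2 * (x i - 1 / 2) ∨ ⟪x - c, y⟫_ℝ = 0 := by
    rcases hy with rfl | rfl | rfl
    · left; exact hm
    · right; left; exact h2
    · right; right; exact h0
  unfold G
  split_ifs with h h'
  · rw [hm]
    have := abs_le.1 h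
    rcases hy' with h | h | h <;> rw [h] <;> linarith [this.1, this.2]
  · rw [h2]
    push Not at h
    rw [abs_of_pos (by linarith)] at h
    rcases hy' with h | h | h <;> rw [h] <;> linarith
  · rw [h0]
    push Not at h h'
    rw [abs_of_nonpos (by linarith)] at h
    rcases hy' with h | h | h <;> rw [h] <;> linarith

/-- The reflection `x₁ ↦ 1 - x₁`. -/
noncomputable def sig {d : ℕ} (j : Fin d) (x : E d) : E d :=
  LinearIsometryEquiv.piLpCongrRight 2 (fun i => if i = j then LinearIsometryEquiv.neg ℝ else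
    LinearIsometryEquiv.refl ℝ ℝ) x + EuclideanSpace.single j 1

lemma sig_apply {d : ℕ} (j : Fin d) (x : E d) (i : Fin d) :
    sig j x i = if i = j then 1 - x i else x i := by
  unfold sig
  rw [PiLp.add_apply, LinearIsometryEquiv.piLpCongrRight_apply]
  by_cases h : i = j
  · subst h
    simp
    ring
  · simp [h]

lemma measurePreserving_sig {d : ℕ} (j : Fin d) :
    MeasurePreserving (sig j : E d → E d) volume volume := by
  exact (measurePreserving_add_right volume (EuclideanSpace.single j 1)).comp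
    (LinearIsometryEquiv.measurePreserving _)

lemma sig_preimage_cube {d : ℕ} (j : Fin d) : sig j ⁻¹' cube d = cube d := by
  ext x
  constructor
  · intro h i
    have := h i
    rw [sig_apply] at this
    split_ifs at this
    · constructor <;> linarith [this.1, this.2]
    · exact this
  · intro h i
    have := h i
    rw [sig_apply]
    split_ifs
    · constructor <;> linarith [this.1, this.2]
    · exact this

lemma measurePreserving_sig_cube {d : ℕ} (j : Fin d) :
    MeasurePreserving (sig j : E d → E d) (volume.restrict (cube d)) (volume.restrict (cube d)) := by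
  have := (measurePreserving_sig j).restrict_preimage (measurableSet_bx (fun _ => 0) (fun _ => (1:ℝ)))
  change MeasurePreserving (sig j : E d → E d) (volume.restrict (sig j ⁻¹' cube d))
    (volume.restrict (cube d)) at this
  rwa [sig_preimage_cube] at this

lemma W2_le {d : ℕ} (ρ : Measure (E d)) (T S : E d → E d) (hT : Measurable T) (hS : Measurable S)
    (μ ν : Measure (E d)) (hμ : ρ.map T = μ) (hν : ρ.map S = ν) :
    W2 μ ν ≤ (∫⁻ x, ENNReal.ofReal (‖T x - S x‖ ^ 2) ∂ρ) ^ (1 / 2 : ℝ) := by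
  unfold W2
  refine ENNReal.rpow_le_rpow ?_ (by norm_num)
  have hTS : Measurable (fun x => (T x, S x)) := hT.prodMk hS
  refine iInf₂_le_of_le (ρ.map (fun x => (T x, S x))) ⟨?_, ?_⟩ ?_
  · rw [Measure.map_map measurable_fst hTS]
    exact hμ
  · rw [Measure.map_map measurable_snd hTS]
    exact hν
  · rw [lintegral_map (by fun_prop) hTS]

/-- The map `T₊`. -/
noncomputable def Tp {d : ℕ} (i j : Fin d) (τ : ℝ) : E d → E d :=
  G i (fun x => τ * x j) (EuclideanSpace.single i 1 + EuclideanSpace.single j τ)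

/-- The map `T₋`. -/
noncomputable def Tm {d : ℕ} (i j : Fin d) (τ : ℝ) : E d → E d :=
  G i (fun x => τ * (1 - x j)) (EuclideanSpace.single i 1 - EuclideanSpace.single j τ)

lemma measurable_Tp {d : ℕ} (i j : Fin d) (τ : ℝ) : Measurable (Tp i j τ) :=
  measurable_G _ _ (by fun_prop) _

lemma measurable_Tm {d : ℕ} (i j : Fin d) (τ : ℝ) : Measurable (Tm i j τ) :=
  measurable_G _ _ (by fun_prop) _

lemma opt_Tp {d : ℕ} (i j : Fin d) (hij : i ≠ j) (τ : ℝ) (ρ : Measure (E d)) [IsFiniteMeasure ρ] :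
    IsOptMap ρ (ρ.map (Tp i j τ)) (Tp i j τ) := by
  refine isOptMap_of_argmax ρ _ (toFinite _) (EuclideanSpace.single i (1/2)) _
    (measurable_Tp i j τ) (G_mem _ _ _) (fun x => G_opt i _ _ _ x ?_ ?_)
  · rw [EuclideanSpace.inner_single_right]
    simp
  · rw [inner_add_right, EuclideanSpace.inner_single_right, EuclideanSpace.inner_single_right]
    simp [hij.symm]

lemma opt_Tm {d : ℕ} (i j : Fin d) (hij : i ≠ j) (τ : ℝ) (ρ : Measure (E d)) [IsFiniteMeasure ρ] :
    IsOptMap ρ (ρ.map (Tm i j τ)) (Tm i j τ) := by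
  refine isOptMap_of_argmax ρ _ (toFinite _) (EuclideanSpace.single i (1/2) +
    EuclideanSpace.single j 1) _
    (measurable_Tm i j τ) (G_mem _ _ _) (fun x => G_opt i _ _ _ x ?_ ?_)
  · rw [EuclideanSpace.inner_single_right]
    simp [hij]
  · rw [inner_sub_right, EuclideanSpace.inner_single_right, EuclideanSpace.inner_single_right]
    simp [hij, hij.symm]
    ring

lemma map_Tp {d : ℕ} (i j : Fin d) (τ : ℝ) :
    (volume.restrict (cube d)).map (fun x => Tp i j τ (sig j x)) =
      (volume.restrict (cube d)).map (Tp i j τ) := by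
  conv_rhs => rw [← (measurePreserving_sig_cube j).map_eq]
  rw [Measure.map_map (measurable_Tp i j τ) (measurePreserving_sig_cube j).measurable]
  rfl

lemma norm_G_sub {d : ℕ} (i j : Fin d) (hij : i ≠ j) (τ : ℝ) (x : E d) :
    ‖Tm i j τ x - Tp i j τ (sig j x)‖ ^ 2 = if |x i - 1 / 2| ≤ τ * (1 - x j) then 4 * τ ^ 2 else 0 := by
  unfold Tm Tp G
  simp only [sig_apply, hij, if_false, if_true]
  split_ifs
  · have : (EuclideanSpace.single i (1:ℝ) - EuclideanSpace.single j τ : E d) -
      (EuclideanSpace.single i 1 + EuclideanSpace.single j τ) = - EuclideanSpace.single j (2 * τ) := by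
      ext k
      simp only [PiLp.sub_apply, PiLp.add_apply, PiLp.neg_apply, PiLp.single_apply]
      split_ifs <;> ring
    rw [this, norm_neg, PiLp.norm_single, Real.norm_eq_abs, sq_abs]
    ring
  · simp
  · simp

lemma prod_two {d : ℕ} (i j : Fin d) (hij : i ≠ j) (f : Fin d → ℝ≥0∞)
    (hf : ∀ k, k ≠ i → k ≠ j → f k = 1) : ∏ k, f k = f i * f j := by
  exact Finset.prod_eq_mul i j hij (fun k _ h => hf k h.1 h.2) (by simp) (by simp)

lemma cost_le {d : ℕ} (i j : Fin d) (hij : i ≠ j) (τ : ℝ) (h0 : 0 < τ) :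
    ∫⁻ x, ENNReal.ofReal (‖Tm i j τ x - Tp i j τ (sig j x)‖ ^ 2) ∂(volume.restrict (cube d)) ≤
      ENNReal.ofReal (8 * τ ^ 3) := by
  set a : Fin d → ℝ := fun k => if k = i then 1 / 2 - τ else 0 with ha
  set b : Fin d → ℝ := fun k => if k = i then 1 / 2 + τ else 1 with hb
  have hvol : volume (bx a b) = ENNReal.ofReal (2 * τ) := by
    rw [volume_bx, prod_two i j hij]
    · simp only [ha, hb, if_true, hij.symm, if_false]
      rw [show (1 / 2 + τ - (1 / 2 - τ)) = 2 * τ by ring]
      simp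
    · intro k hk _
      simp [ha, hb, hk]
  calc ∫⁻ x, ENNReal.ofReal (‖Tm i j τ x - Tp i j τ (sig j x)‖ ^ 2) ∂(volume.restrict (cube d))
      ≤ ∫⁻ x, (bx a b).indicator (fun _ => ENNReal.ofReal (4 * τ ^ 2)) x ∂(volume.restrict (cube d)) := by
        refine setLIntegral_mono_ae' (measurableSet_bx _ _) (Filter.Eventually.of_forall fun x hx => ?_)
        rw [norm_G_sub i j hij]
        split_ifs with h
        · rw [indicator_of_mem]
          intro k
          have hxk := hx k
          have hxj := hx j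
          by_cases hk : k = i
          · subst hk
            simp only [ha, hb, if_true]
            have := abs_le.1 h
            constructor <;> nlinarith [this.1, this.2, hxj.1, hxj.2]
          · simp only [ha, hb, hk, if_false]
            exact hxk
        · simp
    _ ≤ ENNReal.ofReal (4 * τ ^ 2) * volume (bx a b) := by
        rw [lintegral_indicator_const (measurableSet_bx _ _)]
        gcongr
        exact Measure.restrict_le_self
    _ = ENNReal.ofReal (8 * τ ^ 3) := by
        rw [hvol, ← ENNReal.ofReal_mul (by positivity)]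
        congr 1
        ring

lemma diff_ge {d : ℕ} (i j : Fin d) (hij : i ≠ j) (τ : ℝ) (h0 : 0 < τ) (h1 : τ ≤ 1 / 4) :
    ENNReal.ofReal (τ / 16) ≤
      eLpNorm (fun x => Tm i j τ x - Tp i j τ x) 2 (volume.restrict (cube d)) ^ (2:ℝ) := by
  set a : Fin d → ℝ := fun k => if k = i then 1 / 2 + τ / 2 else if k = j then 3 / 4 else 0 with ha
  set b : Fin d → ℝ := fun k => if k = i then 1 / 2 + 3 * τ / 4 else 1 with hb
  have hvol : volume (bx a b) = ENNReal.ofReal (τ / 16) := by
    rw [volume_bx, prod_two i j hij]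
    · simp only [ha, hb, if_true, hij.symm, if_false]
      rw [← ENNReal.ofReal_mul (by linarith)]
      congr 1
      ring
    · intro k hk hk'
      simp [ha, hb, hk, hk']
  have hsub : bx a b ⊆ cube d := by
    intro x hx k
    have := hx k
    simp only [ha, hb] at this
    split_ifs at this
    · constructor <;> linarith [this.1, this.2]
    · constructor <;> linarith [this.1, this.2]
    · exact this
  have hm : AEStronglyMeasurable (fun x => Tm i j τ x - Tp i j τ x) (volume.restrict (cube d)) :=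
    ((measurable_Tm i j τ).sub (measurable_Tp i j τ)).aestronglyMeasurable
  have key := mul_meas_ge_le_pow_eLpNorm' (volume.restrict (cube d)) (p := 2) (by norm_num)
    (by norm_num) hm 1
  rw [ENNReal.one_rpow, one_mul] at key
  simp only [ENNReal.toReal_ofNat] at key
  refine le_trans ?_ key
  rw [← hvol]
  have h3 : volume (bx a b) = (volume.restrict (cube d)) (bx a b) := by
    rw [Measure.restrict_apply (measurableSet_bx _ _), inter_eq_left.2 hsub]
  rw [h3]
  refine measure_mono fun x hx => ?_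
  have hxi := hx i
  have hxj := hx j
  simp only [ha, hb, if_true, hij.symm, if_false] at hxi hxj
  have hp : |x i - 1 / 2| ≤ τ * x j := by
    rw [abs_of_pos (by linarith)]
    nlinarith
  have hn : ¬ (|x i - 1 / 2| ≤ τ * (1 - x j)) := by
    push Not
    rw [abs_of_pos (by linarith)]
    nlinarith
  change (1 : ℝ≥0∞) ≤ ‖Tm i j τ x - Tp i j τ x‖ₑ
  unfold Tm Tp G
  rw [if_pos hp, if_neg hn, if_pos (by linarith)]
  have h4 : (1:ℝ) ≤ ‖(EuclideanSpace.single i (2:ℝ) : E d) -
      (EuclideanSpace.single i 1 + EuclideanSpace.single j τ)‖ := by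
    have := PiLp.norm_apply_le ((EuclideanSpace.single i (2:ℝ) : E d) -
      (EuclideanSpace.single i 1 + EuclideanSpace.single j τ)) i
    refine le_trans ?_ this
    simp [hij]
    norm_num
  rw [← ofReal_norm, ← ENNReal.ofReal_one]
  exact ENNReal.ofReal_le_ofReal h4

lemma G_norm_le {d : ℕ} (i : Fin d) (v : E d → ℝ) (m : E d) (hm : ‖m‖ ≤ 5) (x : E d) :
    G i v m x ∈ Metric.closedBall (0 : E d) 5 := by
  rw [mem_closedBall_zero_iff]
  unfold G
  split_ifs
  · exact hm
  · rw [PiLp.norm_single]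
    norm_num
  · simp

lemma map_compl_ball {d : ℕ} (ρ : Measure (E d)) (T : E d → E d) (hT : Measurable T)
    (h : ∀ x, T x ∈ Metric.closedBall (0 : E d) 5) : ρ.map T (Metric.closedBall (0 : E d) 5)ᶜ = 0 := by
  rw [Measure.map_apply hT Metric.isClosed_closedBall.measurableSet.compl]
  have : T ⁻¹' (Metric.closedBall (0 : E d) 5)ᶜ = ∅ := by
    ext x
    simp only [mem_preimage, mem_compl_iff, mem_empty_iff_false, iff_false, not_not]
    exact h x
  rw [this, measure_empty]

end Vale.Agent.P074
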